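import Vale.Agent.P088.R2.H644.W.Chain

/-!
# P088: the all-star form of the exact formula for `T`

`T = Σ|P_i a_j|² + 8 ∫ Hess W(U, V) - 8 ∫ |W_ij|² a_i a_j - 8 ∫ a_j ⟨∇_k Λ_j W, U_k⟩
  + 2 ∫ (Λ_j Λ_k W) a_j a_k`, where `U = a DW - D a`, `V = b DW - D b`.
-/

open MeasureTheory Set Filter
open scoped ContDiff Topology

noncomputable section

namespace Vale.Agent.P088.R2.H644.Ch

open Vale.Agent.P088.R2.H961.GW

variable {E ι κ : Type*} [NormedAddCommGroup E] [NormedSpace ℝ E] [Fintype ι] [Fintype κ]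

/-- The dressed derivatives `X a = a DW - D a`. -/
def XX (σ : Sl E ι) (W a : E → ℝ) (z : E) (i : ι) : ℝ := a z * σ.D i W z - σ.D i a z

/-- `Γ(f, X a)`. -/
def X1 (σ : Sl E ι) (W f a : E → ℝ) (z : E) : ℝ := a z * σ.Γ f W z - σ.Γ f a z

/-- `Γ₂(W, W)`, the square of the Hessian and the curvature. -/
def G2 (σ : Sl E ι) (W : E → ℝ) (z : E) : ℝ := 1 / 2 * σ.Λ (σ.F W) z - σ.Γ W (σ.Λ W) z

section pw

variable {σ : Sl E ι} {τ : Sl E κ} {U : Set E} {θ θ' : E → ℝ} {W f a b v : E → ℝ} {z : E}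

theorem X1_eq (σ : Sl E ι) (W f a : E → ℝ) (z : E) :
    X1 σ W f a z = ∑ i, ∑ j, σ.s i j z * σ.D i f z * XX σ W a z j := by
  unfold X1 XX Sl.Γ
  simp only [Finset.mul_sum, ← Finset.sum_sub_distrib]
  exact Finset.sum_congr rfl fun i _ => Finset.sum_congr rfl fun j _ => by ring

/-- The Hessian form on the dressed derivatives. -/
theorem TH_XX (ok : σ.Ok U θ) (ot : τ.Ok U θ') (hW : Sm U W) (ha : Sm U a) (hb : Sm U b)
    (hz : z ∈ U) : TH σ τ W z (XX σ W a z) (XX τ W b z) =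
      σ.Hd W a z + 2 * Md σ τ W a b z + τ.Hd W b z := by
  rw [Hd_eq ok hW ha hz, Hd_eq ot hW hb hz, Md_eq]
  unfold TH XX Mc
  have e1 : (∑ i, ∑ k, (∑ j, ∑ l, σ.s i j z * τ.s k l z * σ.D j (τ.D l W) z) *
      (a z * σ.D i W z - σ.D i a z) * (b z * τ.D k W z - τ.D k b z)) =
      ∑ k, ∑ l, τ.s k l z * (∑ i, ∑ j, σ.s i j z * σ.D i (τ.D k W) z *
      (a z * σ.D j W z - σ.D j a z)) * (b z * τ.D l W z - τ.D l b z) := by
    simp only [Finset.mul_sum, Finset.sum_mul]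
    rw [Finset.sum_comm]
    rw [Finset.sum_comm (f := fun k l => ∑ i, ∑ j, τ.s k l z * (σ.s i j z *
      σ.D i (τ.D k W) z * (a z * σ.D j W z - σ.D j a z)) * (b z * τ.D l W z - τ.D l b z))]
    refine Finset.sum_congr rfl fun k _ => ?_
    have : ∀ i, (∑ j, ∑ l, σ.s i j z * τ.s k l z * σ.D j (τ.D l W) z *
        (a z * σ.D i W z - σ.D i a z) * (b z * τ.D k W z - τ.D k b z)) =
        ∑ l, ∑ j, σ.s i j z * τ.s k l z * σ.D j (τ.D l W) z *
        (a z * σ.D i W z - σ.D i a z) * (b z * τ.D k W z - τ.D k b z) := fun i =>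
      Finset.sum_comm
    simp only [this]
    rw [Finset.sum_comm]
    refine Finset.sum_congr rfl fun l _ => ?_
    rw [Finset.sum_comm]
    refine Finset.sum_congr rfl fun i _ => Finset.sum_congr rfl fun j _ => ?_
    rw [ok.sy j i, ot.sy k l]
    ring
  rw [e1]

theorem sG2 (ok : σ.Ok U θ) (hW : Sm U W) : Sm U (G2 σ W) :=
  (contDiffOn_const.mul (ok.sL (ok.sF hW))).sub (ok.sG hW (ok.sL hW))

theorem tX1 (ok : σ.Ok U θ) (hW : Sm U W) (hf : Sm U f) (ha : Te U a) :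
    Te U (X1 σ W f a) :=
  (ha.mul_right ok.op (ok.sG hf hW)).sub ok.op (ok.tG hf ha)

theorem tX1s (ok : σ.Ok U θ) (hW : Sm U W) (hf : Sm U f) (ha : Te U a) (hb : Sm U b) :
    Te U fun z => b z * X1 σ W f a z :=
  (tX1 ok hW hf ha).mul_left ok.op hb

theorem tMd (ok : σ.Ok U θ) (ot : τ.Ok U θ) (hW : Sm U W) (ha : Te U a) (hb : Te U b) :
    Te U (Md σ τ W a b) := by
  have sa := ha.sm
  have sb := hb.sm
  have t1 := tM3' ok ot hW ha sb
  have t2 : Te U fun z => a z * M3 σ τ W W b z := ha.mul_right ok.op (sM3 ok ot hW hW sb)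
  have t3 : Te U fun z => b z * M3 σ τ W a W z := hb.mul_right ok.op (sM3 ok ot hW sa hW)
  have t4 : Te U fun z => a z * b z * M3 σ τ W W W z :=
    (ha.mul_right ok.op sb).mul_right ok.op (sM3 ok ot hW hW hW)
  exact ((t1.sub ok.op t2).sub ok.op t3).add ok.op t4

theorem tHH (ok : σ.Ok U θ) (ot : τ.Ok U θ) (hW : Sm U W) (ha : Te U a) (hb : Te U b) :
    Te U fun z => σ.Hd W a z + 2 * Md σ τ W a b z + τ.Hd W b z :=
  ((ok.tHd hW ha).add ok.op ((tMd ok ot hW ha hb).cmul ok.op 2)).add ok.op (ot.tHd hW hb)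

end pw

variable [MeasureSpace E] [FiniteDimensional ℝ E] [BorelSpace E]
  [(volume : Measure E).IsAddHaarMeasure]

section integral

variable {σ : Sl E ι} {τ : Sl E κ} {U : Set E} {θ : E → ℝ} {v v₁ v₂ W f g h a b : E → ℝ}

/-- The potential of one slot. -/
theorem In_zz (ok : σ.Ok U θ) (hv : Sm U v) (hW : Sm U W) (ha : Te U a) :
    In U θ (fun z => σ.zz v W z * a z ^ 2) =
      -(8 * In U θ (fun z => G2 σ W z * a z ^ 2)) -
      8 * In U θ (fun z => a z * X1 σ W (σ.Λ W) a z) +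
      2 * In U θ (fun z => σ.Λ (σ.Λ W) z * a z ^ 2) +
      4 * In U θ (fun z => σ.Γ W v z * a z ^ 2) := by
  have hU := ok.op
  have sL := ok.sL hW
  have ta := ha.sq hU
  have t1 : Te U fun z => G2 σ W z * a z ^ 2 := ta.mul_left hU (sG2 ok hW)
  have t2 : Te U fun z => a z * X1 σ W (σ.Λ W) a z := tX1s ok hW sL ha ha.sm
  have t3 : Te U fun z => σ.Λ (σ.Λ W) z * a z ^ 2 := ta.mul_left hU (ok.sL sL)
  have t4 : Te U fun z => σ.Γ W v z * a z ^ 2 := ta.mul_left hU (ok.sG hW hv)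
  have t5 : Te U fun z => a z * σ.Γ a (σ.Λ W) z := ha.mul_right hU (ok.sG ha.sm sL)
  have e1 := In_aG ok ha sL
  have e2 : In U θ (fun z => σ.zz v W z * a z ^ 2) = In U θ (fun z =>
      (((-8) * (G2 σ W z * a z ^ 2) + (-8) * (a z * X1 σ W (σ.Λ W) a z)) +
        (-2) * (σ.Λ (σ.Λ W) z * a z ^ 2)) +
        ((-8) * (a z * σ.Γ a (σ.Λ W) z) + 4 * (σ.Γ W v z * a z ^ 2))) := by
    refine In_congr hU fun z hz => ?_
    unfold Sl.zz G2 X1
    rw [G_comm ok (σ.Λ W) W, G_comm ok (σ.Λ W) a]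
    ring
  rw [e2, In_add hU ok.ts (((t1.cmul hU (-8)).add hU (t2.cmul hU (-8))).add hU (t3.cmul hU (-2)))
    ((t5.cmul hU (-8)).add hU (t4.cmul hU 4)),
    In_add hU ok.ts ((t1.cmul hU (-8)).add hU (t2.cmul hU (-8))) (t3.cmul hU (-2)),
    In_add hU ok.ts (t1.cmul hU (-8)) (t2.cmul hU (-8)),
    In_add hU ok.ts (t5.cmul hU (-8)) (t4.cmul hU 4), In_cmul, In_cmul, In_cmul, In_cmul, In_cmul,
    e1]
  ring

/-- The mixed potential and the skew term. -/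
theorem In_zm (ok : σ.Ok U θ) (ot : τ.Ok U θ) (c : Cm σ τ U) (hW : Sm U W) (ha : Te U a)
    (hb : Te U b) :
    4 * In U θ (sk σ τ W a b) + In U θ (fun z => zm σ τ W z * (a z * b z)) =
      -(16 * In U θ (fun z => M2 σ τ W W z * (a z * b z))) -
      8 * In U θ (fun z => b z * X1 σ W (τ.Λ W) a z) -
      8 * In U θ (fun z => a z * X1 τ W (σ.Λ W) b z) +
      4 * In U θ (fun z => σ.Λ (τ.Λ W) z * (a z * b z)) := by
  have hU := ok.op
  have sa := ha.sm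
  have sb := hb.sm
  have sL1 := ok.sL hW
  have sL2 := ot.sL hW
  have tab : Te U fun z => a z * b z := ha.mul_right hU sb
  have t1 : Te U fun z => M2 σ τ W W z * (a z * b z) := tab.mul_left hU (sM2 ok ot hW hW)
  have t2 : Te U fun z => b z * X1 σ W (τ.Λ W) a z := tX1s ok hW sL2 ha sb
  have t3 : Te U fun z => a z * X1 τ W (σ.Λ W) b z := tX1s ot hW sL1 hb sa
  have t4 : Te U fun z => σ.Λ (τ.Λ W) z * (a z * b z) := tab.mul_left hU (ok.sL sL2)
  have t5 : Te U (σ.Γ (τ.Λ W) fun z => a z * b z) := ok.tG sL2 tab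
  have t6 : Te U (τ.Γ (σ.Λ W) fun z => a z * b z) := ot.tG sL1 tab
  have tz : Te U fun z => zm σ τ W z * (a z * b z) := tab.mul_left hU (szm ok ot hW)
  have tsk : Te U (sk σ τ W a b) :=
    (ha.mul_right hU ((ot.sG sL1 sb).sub (ok.sG sL2 sb))).sub hU
      (hb.mul_right hU ((ot.sG sL1 sa).sub (ok.sG sL2 sa)))
  have i1 := In_L ok sL2 tab
  have i2 := In_L ot sL1 tab
  have i3 : In U θ (fun z => τ.Λ (σ.Λ W) z * (a z * b z)) =
      In U θ (fun z => σ.Λ (τ.Λ W) z * (a z * b z)) :=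
    In_congr hU fun z hz => by rw [L_L ok ot c hW hz]
  have e2 : In U θ (fun z => 4 * sk σ τ W a b z + zm σ τ W z * (a z * b z)) = In U θ (fun z =>
      (((-16) * (M2 σ τ W W z * (a z * b z)) + (-8) * (b z * X1 σ W (τ.Λ W) a z)) +
        (-8) * (a z * X1 τ W (σ.Λ W) b z)) +
        (((-4) * (σ.Λ (τ.Λ W) z * (a z * b z)) + (-4) * σ.Γ (τ.Λ W) (fun z => a z * b z) z) +
          (-4) * τ.Γ (σ.Λ W) (fun z => a z * b z) z)) := by
    refine In_congr hU fun z hz => ?_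
    rw [G_mul ok _ sa sb hz, G_mul ot _ sa sb hz]
    unfold sk zm X1
    rw [G_comm ok (τ.Λ W) W, G_comm ot (σ.Λ W) W]
    ring
  rw [← In_cmul, ← In_add hU ok.ts (tsk.cmul hU 4) tz, e2,
    In_add hU ok.ts (((t1.cmul hU (-16)).add hU (t2.cmul hU (-8))).add hU (t3.cmul hU (-8)))
      (((t4.cmul hU (-4)).add hU (t5.cmul hU (-4))).add hU (t6.cmul hU (-4))),
    In_add hU ok.ts ((t1.cmul hU (-16)).add hU (t2.cmul hU (-8))) (t3.cmul hU (-8)),
    In_add hU ok.ts (t1.cmul hU (-16)) (t2.cmul hU (-8)),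
    In_add hU ok.ts ((t4.cmul hU (-4)).add hU (t5.cmul hU (-4))) (t6.cmul hU (-4)),
    In_add hU ok.ts (t4.cmul hU (-4)) (t5.cmul hU (-4)), In_cmul, In_cmul, In_cmul, In_cmul,
    In_cmul, In_cmul]
  linear_combination (-4 : ℝ) * i1 + (-4 : ℝ) * i2 + 4 * i3

/-- **The all-star form of the formula for `T`.** -/
theorem tstar (ok : σ.Ok U θ) (ot : τ.Ok U θ) (c : Cm σ τ U) (hv₁ : Sm U v₁) (hv₂ : Sm U v₂)
    (h₁ : ∀ z ∈ U, ∀ k, τ.D k v₁ z = 0) (h₂ : ∀ z ∈ U, ∀ i, σ.D i v₂ z = 0) (hW : Sm U W)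
    (ha : Te U a) (hb : Te U b) :
    TT σ τ U θ v₁ v₂ W a b =
      (In U θ (fun z => σ.P v₁ W a z ^ 2) + In U θ (fun z => τ.P v₂ W b z ^ 2) +
        In U θ (fun z => τ.P v₂ W a z ^ 2) + In U θ (fun z => σ.P v₁ W b z ^ 2)) +
      8 * In U θ (fun z => TH σ τ W z (XX σ W a z) (XX τ W b z)) -
      8 * (In U θ (fun z => G2 σ W z * a z ^ 2) +
        2 * In U θ (fun z => M2 σ τ W W z * (a z * b z)) +
        In U θ (fun z => G2 τ W z * b z ^ 2)) -
      8 * (In U θ (fun z => a z * X1 σ W (σ.Λ W) a z) +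
        In U θ (fun z => b z * X1 σ W (τ.Λ W) a z) +
        In U θ (fun z => a z * X1 τ W (σ.Λ W) b z) +
        In U θ (fun z => b z * X1 τ W (τ.Λ W) b z)) +
      2 * (In U θ (fun z => σ.Λ (σ.Λ W) z * a z ^ 2) +
        2 * In U θ (fun z => σ.Λ (τ.Λ W) z * (a z * b z)) +
        In U θ (fun z => τ.Λ (τ.Λ W) z * b z ^ 2)) +
      4 * (In U θ (fun z => σ.Γ W v₁ z * a z ^ 2) + In U θ (fun z => τ.Γ W v₂ z * b z ^ 2)) := by
  have hU := ok.op
  have e1 : In U θ (fun z => TH σ τ W z (XX σ W a z) (XX τ W b z)) =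
      In U θ (σ.Hd W a) + 2 * In U θ (Md σ τ W a b) + In U θ (τ.Hd W b) := by
    rw [← In_cmul, ← In_add hU ok.ts (ok.tHd hW ha) ((tMd ok ot hW ha hb).cmul hU 2),
      ← In_add hU ok.ts ((ok.tHd hW ha).add hU ((tMd ok ot hW ha hb).cmul hU 2)) (ot.tHd hW hb)]
    exact In_congr hU fun z hz => TH_XX ok ot hW ha.sm hb.sm hz
  rw [tid ok ot c hv₁ hv₂ h₁ h₂ hW ha hb, e1, In_zz ok hv₁ hW ha, In_zz ot hv₂ hW hb]
  linear_combination In_zm ok ot c hW ha hb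

end integral

end Vale.Agent.P088.R2.H644.Ch
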