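import Vale.Agent.P088.R2.H644.W.Rad

/-!
# P088: the weight `φ(x_e) + φ(y_e) + exp (β (x_e + y_e)) Φ(|x - y|²)`

First and second derivatives, the length of the gradients and the Hessian as a quadratic form.
-/

open Set Filter
open scoped ContDiff Topology

noncomputable section

namespace Vale.Agent.P088.R2.H644

open Vale.Agent.P088.LR Vale.Agent.P088.HY

variable {n : ℕ}

/-- `g` has first and second derivatives `g₁`, `g₂`. -/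
structure D2 (g g₁ g₂ : ℝ → ℝ) : Prop where
  d1 : ∀ s, HasDerivAt g (g₁ s) s
  d2 : ∀ s, HasDerivAt g₁ (g₂ s) s

/-- `exp (β (x_e + y_e))`. -/
def Ee (e : Fin n) (β : ℝ) (z : VV n) : ℝ := Real.exp (β * (z.1 e + z.2 e))

/-- The weight. -/
def Wt (e : Fin n) (β : ℝ) (φ Φ : ℝ → ℝ) (z : VV n) : ℝ :=
  φ (z.1 e) + φ (z.2 e) + Ee e β z * Φ (qq z)

/-- `δ_ie`. -/
def de (e i : Fin n) : ℝ := if i = e then 1 else 0

/-- `f` is differentiable at `z` with derivative `a` in the direction `v`. -/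
structure HD (v : VV n) (f : VV n → ℝ) (a : ℝ) (z : VV n) : Prop where
  d : DifferentiableAt ℝ f z
  e : dd v f z = a

namespace HD

variable {v z : VV n} {f g : VV n → ℝ} {a b : ℝ}

lemma add (hf : HD v f a z) (hg : HD v g b z) : HD v (fun z => f z + g z) (a + b) z :=
  ⟨hf.d.fun_add hg.d, by rw [dd_add hf.d hg.d, hf.e, hg.e]⟩

lemma mul (hf : HD v f a z) (hg : HD v g b z) :
    HD v (fun z => f z * g z) (a * g z + f z * b) z :=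
  ⟨hf.d.fun_mul hg.d, by rw [dd_mul hf.d hg.d, hf.e, hg.e]⟩

lemma cmul (c : ℝ) (hf : HD v f a z) : HD v (fun z => c * f z) (c * a) z :=
  ⟨hf.d.const_mul c, by rw [dd_const_mul, hf.e]⟩

lemma mulc (c : ℝ) (hf : HD v f a z) : HD v (fun z => f z * c) (a * c) z := by
  have h : (fun z => f z * c) = fun z => c * f z := funext fun z => mul_comm _ _
  rw [h, mul_comm a c]
  exact hf.cmul c

lemma comp {φ : ℝ → ℝ} {φ' : ℝ} (hφ : HasDerivAt φ φ' (f z)) (hf : HD v f a z) :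
    HD v (fun z => φ (f z)) (φ' * a) z :=
  ⟨DifferentiableAt.comp z hφ.differentiableAt hf.d, by rw [dd_comp hφ hf.d, hf.e]⟩

lemma fst (v z : VV n) (j : Fin n) : HD v (fun z => z.1 j) (v.1 j) z :=
  ⟨(contDiff_fst' j).contDiffAt.differentiableAt (by simp), dd_fst _ _ _⟩

lemma snd (v z : VV n) (j : Fin n) : HD v (fun z => z.2 j) (v.2 j) z :=
  ⟨(contDiff_snd' j).contDiffAt.differentiableAt (by simp), dd_snd _ _ _⟩

lemma qv (v z : VV n) (j : Fin n) : HD v (H644.qv j) (v.1 j - v.2 j) z :=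
  ⟨diff_qv j z, dd_qv _ _ _⟩

lemma qq (v z : VV n) : HD v H644.qq (dd v H644.qq z) z := ⟨diff_qq z, rfl⟩

end HD

lemma Ee_pos (e : Fin n) (β : ℝ) (z : VV n) : 0 < Ee e β z := Real.exp_pos _

lemma contDiff_Ee (e : Fin n) (β : ℝ) : ContDiff ℝ ∞ (Ee e β : VV n → ℝ) :=
  Real.contDiff_exp.comp (contDiff_const.mul ((contDiff_fst' e).add (contDiff_snd' e)))

lemma contDiff_Wt (e : Fin n) (β : ℝ) {φ Φ : ℝ → ℝ} (hφ : ContDiff ℝ ∞ φ) (hΦ : ContDiff ℝ ∞ Φ) :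
    ContDiff ℝ ∞ (Wt e β φ Φ : VV n → ℝ) :=
  ((hφ.comp (contDiff_fst' e)).add (hφ.comp (contDiff_snd' e))).add
    ((contDiff_Ee e β).mul (contDiff_rad hΦ))

lemma HD.Ee (v z : VV n) (e : Fin n) (β : ℝ) :
    HD v (H644.Ee e β) (H644.Ee e β z * (β * (v.1 e + v.2 e))) z :=
  HD.comp (Real.hasDerivAt_exp _) (((HD.fst v z e).add (HD.snd v z e)).cmul β)

lemma HD.rad {v z : VV n} {Φ : ℝ → ℝ} {Φ' : ℝ} (h : HasDerivAt Φ Φ' (H644.qq z)) :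
    HD v (fun z => Φ (H644.qq z)) (Φ' * dd v H644.qq z) z :=
  HD.comp h (HD.qq v z)

/-- Directional derivative of the weight. -/
lemma dd_Wt (v : VV n) (e : Fin n) (β : ℝ) {φ φ₁ Φ Φ₁ : ℝ → ℝ}
    (hφ : ∀ s, HasDerivAt φ (φ₁ s) s) (hΦ : ∀ s, HasDerivAt Φ (Φ₁ s) s) (z : VV n) :
    dd v (Wt e β φ Φ) z = φ₁ (z.1 e) * v.1 e + φ₁ (z.2 e) * v.2 e +
      Ee e β z * (β * (v.1 e + v.2 e) * Φ (qq z) + Φ₁ (qq z) * dd v qq z) := by
  have h := (((HD.fst v z e).comp (hφ _)).add ((HD.snd v z e).comp (hφ _))).add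
    ((HD.Ee v z e β).mul (HD.rad (hΦ _)))
  refine h.e.trans ?_
  ring

lemma dx_Wt (i e : Fin n) (β : ℝ) {φ φ₁ Φ Φ₁ : ℝ → ℝ}
    (hφ : ∀ s, HasDerivAt φ (φ₁ s) s) (hΦ : ∀ s, HasDerivAt Φ (Φ₁ s) s) (z : VV n) :
    dx i (Wt e β φ Φ) z = φ₁ (z.1 e) * de e i +
      Ee e β z * (β * de e i * Φ (qq z) + 2 * Φ₁ (qq z) * qv i z) := by
  rw [dx_eq, dd_Wt _ e β hφ hΦ, ← dx_eq, dx_qq]
  simp only [de, Pi.single_apply, Pi.zero_apply, eq_comm (a := e) (b := i)]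
  split_ifs <;> ring

lemma dy_Wt (i e : Fin n) (β : ℝ) {φ φ₁ Φ Φ₁ : ℝ → ℝ}
    (hφ : ∀ s, HasDerivAt φ (φ₁ s) s) (hΦ : ∀ s, HasDerivAt Φ (Φ₁ s) s) (z : VV n) :
    dy i (Wt e β φ Φ) z = φ₁ (z.2 e) * de e i +
      Ee e β z * (β * de e i * Φ (qq z) - 2 * Φ₁ (qq z) * qv i z) := by
  rw [dy_eq, dd_Wt _ e β hφ hΦ, ← dy_eq, dy_qq]
  simp only [de, Pi.single_apply, Pi.zero_apply, eq_comm (a := e) (b := i)]
  split_ifs <;> ring

/-- Directional derivative of `∂_{x_i} W`. -/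
lemma dd_dx_Wt (v : VV n) (i e : Fin n) (β : ℝ) {φ φ₁ φ₂ Φ Φ₁ Φ₂ : ℝ → ℝ}
    (hφ : D2 φ φ₁ φ₂) (hΦ : D2 Φ Φ₁ Φ₂) (z : VV n) :
    dd v (dx i (Wt e β φ Φ)) z = φ₂ (z.1 e) * v.1 e * de e i +
      Ee e β z * (β * (v.1 e + v.2 e) * (β * de e i * Φ (qq z) + 2 * Φ₁ (qq z) * qv i z) +
        (β * de e i * Φ₁ (qq z) + 2 * Φ₂ (qq z) * qv i z) * dd v qq z +
        2 * Φ₁ (qq z) * (v.1 i - v.2 i)) := by
  have h : dx i (Wt e β φ Φ) = fun z : VV n => φ₁ (z.1 e) * de e i +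
      Ee e β z * ((β * de e i) * Φ (qq z) + 2 * (Φ₁ (qq z) * qv i z)) := by
    funext z
    rw [dx_Wt i e β hφ.d1 hΦ.d1]
    ring
  have h1 := (((HD.fst v z e).comp (hφ.d2 _)).mulc (de e i)).add ((HD.Ee v z e β).mul
    (((HD.rad (hΦ.d1 _)).cmul (β * de e i)).add (((HD.rad (hΦ.d2 _)).mul (HD.qv v z i)).cmul 2)))
  rw [h]
  refine h1.e.trans ?_
  ring

/-- Directional derivative of `∂_{y_i} W`. -/
lemma dd_dy_Wt (v : VV n) (i e : Fin n) (β : ℝ) {φ φ₁ φ₂ Φ Φ₁ Φ₂ : ℝ → ℝ}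
    (hφ : D2 φ φ₁ φ₂) (hΦ : D2 Φ Φ₁ Φ₂) (z : VV n) :
    dd v (dy i (Wt e β φ Φ)) z = φ₂ (z.2 e) * v.2 e * de e i +
      Ee e β z * (β * (v.1 e + v.2 e) * (β * de e i * Φ (qq z) - 2 * Φ₁ (qq z) * qv i z) +
        (β * de e i * Φ₁ (qq z) - 2 * Φ₂ (qq z) * qv i z) * dd v qq z -
        2 * Φ₁ (qq z) * (v.1 i - v.2 i)) := by
  have h : dy i (Wt e β φ Φ) = fun z : VV n => φ₁ (z.2 e) * de e i +
      Ee e β z * ((β * de e i) * Φ (qq z) + (-2) * (Φ₁ (qq z) * qv i z)) := by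
    funext z
    rw [dy_Wt i e β hφ.d1 hΦ.d1]
    ring
  have h1 := (((HD.snd v z e).comp (hφ.d2 _)).mulc (de e i)).add ((HD.Ee v z e β).mul
    (((HD.rad (hΦ.d1 _)).cmul (β * de e i)).add
      (((HD.rad (hΦ.d2 _)).mul (HD.qv v z i)).cmul (-2))))
  rw [h]
  refine h1.e.trans ?_
  ring

/-! ### Sums -/

/-- `∑ q_i U_i`. -/
def qdot (z : VV n) (U : V n) : ℝ := ∑ i, qv i z * U i

lemma dd_qq' (v : VV n) (z : VV n) : dd v qq z = 2 * (qdot z v.1 - qdot z v.2) := by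
  rw [dd_qq, qdot, qdot, ← Finset.sum_sub_distrib]
  congr 1
  exact Finset.sum_congr rfl fun i _ => by ring

/-- The Hessian as a quadratic form: `∑ U_i ∂_v ∂_{x_i} W + ∑ V_i ∂_v ∂_{y_i} W`. -/
def hs (f : VV n → ℝ) (v : VV n) (z : VV n) : ℝ :=
  ∑ i, v.1 i * dd v (dx i f) z + ∑ i, v.2 i * dd v (dy i f) z

lemma sum_de (e : Fin n) (U : V n) : ∑ i, U i * de e i = U e := by
  simp [de]

lemma hs_Wt (v : VV n) (e : Fin n) (β : ℝ) {φ φ₁ φ₂ Φ Φ₁ Φ₂ : ℝ → ℝ}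
    (hφ : D2 φ φ₁ φ₂) (hΦ : D2 Φ Φ₁ Φ₂) (z : VV n) :
    hs (Wt e β φ Φ) v z = φ₂ (z.1 e) * v.1 e ^ 2 + φ₂ (z.2 e) * v.2 e ^ 2 +
      Ee e β z * (β ^ 2 * (v.1 e + v.2 e) ^ 2 * Φ (qq z) +
        4 * β * (v.1 e + v.2 e) * Φ₁ (qq z) * (qdot z v.1 - qdot z v.2) +
        2 * Φ₁ (qq z) * HY.sq (v.1 - v.2) + 4 * Φ₂ (qq z) * (qdot z v.1 - qdot z v.2) ^ 2) := by
  have key : ∀ (U : V n) (a b c d : ℝ) (w : V n),
      ∑ i, U i * (a * de e i + b * (c * de e i + d * qv i z) + w i) =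
        (a + b * c) * U e + b * d * qdot z U + ∑ i, U i * w i := by
    intro U a b c d w
    have : ∀ i, U i * (a * de e i + b * (c * de e i + d * qv i z) + w i) =
        (a + b * c) * (U i * de e i) + b * d * (qv i z * U i) + U i * w i := fun i => by ring
    simp only [this, Finset.sum_add_distrib, ← Finset.mul_sum, sum_de]
    rfl
  have hx : ∑ i, v.1 i * dd v (dx i (Wt e β φ Φ)) z =
      (φ₂ (z.1 e) * v.1 e + Ee e β z * (β * (v.1 e + v.2 e) * β * Φ (qq z) +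
        β * Φ₁ (qq z) * dd v qq z)) * v.1 e +
      Ee e β z * (β * (v.1 e + v.2 e) * 2 * Φ₁ (qq z) + 2 * Φ₂ (qq z) * dd v qq z) * qdot z v.1 +
      ∑ i, v.1 i * (Ee e β z * (2 * Φ₁ (qq z) * (v.1 i - v.2 i))) := by
    rw [← key]
    refine Finset.sum_congr rfl fun i _ => ?_
    rw [dd_dx_Wt v i e β hφ hΦ]
    ring
  have hy : ∑ i, v.2 i * dd v (dy i (Wt e β φ Φ)) z =
      (φ₂ (z.2 e) * v.2 e + Ee e β z * (β * (v.1 e + v.2 e) * β * Φ (qq z) +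
        β * Φ₁ (qq z) * dd v qq z)) * v.2 e +
      Ee e β z * (-(β * (v.1 e + v.2 e) * 2 * Φ₁ (qq z)) - 2 * Φ₂ (qq z) * dd v qq z) *
        qdot z v.2 +
      ∑ i, v.2 i * (-(Ee e β z * (2 * Φ₁ (qq z) * (v.1 i - v.2 i)))) := by
    rw [← key]
    refine Finset.sum_congr rfl fun i _ => ?_
    rw [dd_dy_Wt v i e β hφ hΦ]
    ring
  have hs2 : ∑ i, v.1 i * (Ee e β z * (2 * Φ₁ (qq z) * (v.1 i - v.2 i))) +
      ∑ i, v.2 i * (-(Ee e β z * (2 * Φ₁ (qq z) * (v.1 i - v.2 i)))) =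
      Ee e β z * (2 * Φ₁ (qq z)) * HY.sq (v.1 - v.2) := by
    unfold HY.sq
    rw [← Finset.sum_add_distrib, Finset.mul_sum]
    refine Finset.sum_congr rfl fun i _ => ?_
    simp only [Pi.sub_apply]
    ring
  unfold hs
  rw [hx, hy, dd_qq']
  linear_combination hs2

/-- The square of the length of the `x`-gradient. -/
lemma gx_Wt (e : Fin n) (β : ℝ) {φ φ₁ Φ Φ₁ : ℝ → ℝ}
    (hφ : ∀ s, HasDerivAt φ (φ₁ s) s) (hΦ : ∀ s, HasDerivAt Φ (Φ₁ s) s) (z : VV n) :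
    ∑ i, dx i (Wt e β φ Φ) z ^ 2 = (φ₁ (z.1 e) + Ee e β z * (β * Φ (qq z))) ^ 2 +
      4 * (φ₁ (z.1 e) + Ee e β z * (β * Φ (qq z))) * Ee e β z * Φ₁ (qq z) * qv e z +
      4 * Ee e β z ^ 2 * Φ₁ (qq z) ^ 2 * qq z := by
  have h1 : ∀ i, dx i (Wt e β φ Φ) z ^ 2 =
      (φ₁ (z.1 e) + Ee e β z * (β * Φ (qq z))) ^ 2 * (1 * de e i) +
      4 * (φ₁ (z.1 e) + Ee e β z * (β * Φ (qq z))) * Ee e β z * Φ₁ (qq z) * (qv i z * de e i) +
      4 * Ee e β z ^ 2 * Φ₁ (qq z) ^ 2 * qv i z ^ 2 := by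
    intro i
    rw [dx_Wt i e β hφ hΦ]
    unfold de
    split_ifs <;> ring
  have h2 : ∑ i, (1 : ℝ) * de e i = 1 := sum_de e (fun _ => 1)
  have h3 : ∑ i, qv i z * de e i = qv e z := sum_de e (fun i => qv i z)
  simp only [h1, Finset.sum_add_distrib, ← Finset.mul_sum, h2, h3, ← qq_eq]
  ring

/-- The square of the length of the `y`-gradient. -/
lemma gy_Wt (e : Fin n) (β : ℝ) {φ φ₁ Φ Φ₁ : ℝ → ℝ}
    (hφ : ∀ s, HasDerivAt φ (φ₁ s) s) (hΦ : ∀ s, HasDerivAt Φ (Φ₁ s) s) (z : VV n) :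
    ∑ i, dy i (Wt e β φ Φ) z ^ 2 = (φ₁ (z.2 e) + Ee e β z * (β * Φ (qq z))) ^ 2 -
      4 * (φ₁ (z.2 e) + Ee e β z * (β * Φ (qq z))) * Ee e β z * Φ₁ (qq z) * qv e z +
      4 * Ee e β z ^ 2 * Φ₁ (qq z) ^ 2 * qq z := by
  have h1 : ∀ i, dy i (Wt e β φ Φ) z ^ 2 =
      (φ₁ (z.2 e) + Ee e β z * (β * Φ (qq z))) ^ 2 * (1 * de e i) -
      4 * (φ₁ (z.2 e) + Ee e β z * (β * Φ (qq z))) * Ee e β z * Φ₁ (qq z) * (qv i z * de e i) +
      4 * Ee e β z ^ 2 * Φ₁ (qq z) ^ 2 * qv i z ^ 2 := by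
    intro i
    rw [dy_Wt i e β hφ hΦ]
    unfold de
    split_ifs <;> ring
  have h2 : ∑ i, (1 : ℝ) * de e i = 1 := sum_de e (fun _ => 1)
  have h3 : ∑ i, qv i z * de e i = qv e z := sum_de e (fun i => qv i z)
  simp only [h1, Finset.sum_add_distrib, Finset.sum_sub_distrib, ← Finset.mul_sum, h2, h3,
    ← qq_eq]
  ring

/-- A directional derivative in terms of partial derivatives. -/
lemma dd_split (v : VV n) (f : VV n → ℝ) (z : VV n) :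
    dd v f z = ∑ j, v.1 j * dx j f z + ∑ j, v.2 j * dy j f z := by
  have h : v = ∑ j, v.1 j • ((Pi.single j 1 : V n), (0 : V n)) +
      ∑ j, v.2 j • ((0 : V n), (Pi.single j 1 : V n)) := by
    refine Prod.ext ?_ ?_
    · funext k
      simp [Prod.fst_sum, Finset.sum_apply, Pi.single_apply]
    · funext k
      simp [Prod.snd_sum, Finset.sum_apply, Pi.single_apply]
  unfold dd dx dy
  conv_lhs => rw [h]
  simp only [map_add, map_sum, map_smul, smul_eq_mul]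

/-- The Hessian in terms of second derivatives. -/
lemma hs_eq {f : VV n → ℝ} (hf : ContDiff ℝ ∞ f) (v z : VV n) :
    hs f v z = ∑ i, ∑ j, v.1 i * v.1 j * dx j (dx i f) z +
      2 * ∑ i, ∑ j, v.1 i * v.2 j * dy j (dx i f) z + ∑ i, ∑ j, v.2 i * v.2 j * dy j (dy i f) z := by
  have hd : ∀ i, dd v (dx i f) z = ∑ j, v.1 j * dx j (dx i f) z + ∑ j, v.2 j * dy j (dx i f) z := by
    intro i
    exact dd_split v _ z
  have hd' : ∀ i, dd v (dy i f) z = ∑ j, v.1 j * dx j (dy i f) z + ∑ j, v.2 j * dy j (dy i f) z := by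
    intro i
    exact dd_split v _ z
  have hc : ∀ i j, dx j (dy i f) z = dy i (dx j f) z := by
    intro i j
    exact dd_comm hf.contDiffAt _ _
  unfold hs
  simp only [hd, hd', hc, mul_add, Finset.sum_add_distrib, Finset.mul_sum]
  have h5 : ∑ i, ∑ j, v.2 i * (v.1 j * dy i (dx j f) z) =
      ∑ i, ∑ j, v.1 i * (v.2 j * dy j (dx i f) z) := by
    rw [Finset.sum_comm]
    exact Finset.sum_congr rfl fun i _ => Finset.sum_congr rfl fun j _ => by ring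
  rw [h5]
  simp only [mul_assoc, two_mul, Finset.sum_add_distrib]
  ring

/-! ### `Φ(s) = (cosh (θ √s) - 1) / θ²`, `t = θ²` -/

/-- `Φ(s) = s St 2 (t s)`, so that `Φ(|x - y|²) = Fq t z`. -/
def Fs (t s : ℝ) : ℝ := s * St 2 (t * s)

/-- `Φ'`. -/
def Fs1 (t s : ℝ) : ℝ := St 1 (t * s) / 2

/-- `Φ''`. -/
def Fs2 (t s : ℝ) : ℝ := t * (St 2 (t * s) - St 3 (t * s)) / 4

lemma contDiff_Fs (t : ℝ) : ContDiff ℝ ∞ (Fs t) := contDiff_id.mul (contDiff_St_mul 2 t)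

lemma d2_Fs (t : ℝ) : D2 (Fs t) (Fs1 t) (Fs2 t) where
  d1 s := by
    have h := (hasDerivAt_id s).mul (hasDerivAt_St_mul 2 t s)
    have e : Fs1 t s = 1 * St 2 (t * s) + id s * (t * dSt 2 (t * s)) := by
      unfold Fs1 dSt
      rw [St_step 1 (t * s), St_step 2 (t * s)]
      norm_num [Nat.factorial]
      ring
    rw [e]
    exact h
  d2 s := by
    have h := (hasDerivAt_St_mul 1 t s).div_const 2
    have e : Fs2 t s = t * dSt 1 (t * s) / 2 := by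
      unfold Fs2 dSt
      norm_num
      ring
    rw [e]
    exact h

lemma Fs_qq (t : ℝ) (z : VV n) : Fs t (qq z) = Fq t z := rfl

/-- `Φ''` in terms of `Φ` and `Φ'`: `4 s Φ'' = cosh - 2 Φ'`. -/
lemma four_Fs2 (t s : ℝ) : 4 * s * Fs2 t s = 1 + t * Fs t s - 2 * Fs1 t s := by
  unfold Fs2 Fs1 Fs
  rw [St_step 1 (t * s)]
  norm_num
  ring

end Vale.Agent.P088.R2.H644
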