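import Vale.Agent.P088.R2.H961.W.Fin
import Vale.Agent.P088.R2.H644.W.Star
import Vale.Agent.P088.R2.H644.W.Wt

/-!
# P088: the flat slots, all quantities as plain sums of derivatives
-/

open MeasureTheory Set Filter
open scoped ContDiff Topology

noncomputable section

namespace Vale.Agent.P088.R2.H644.Ch

open Vale.Agent.P088.LR Vale.Agent.P088.HY
open Vale.Agent.P088.R2.H961.GW

variable {n : ℕ}

/-- The flat slot of the first variable. -/
def fx (n : ℕ) : Sl (VV n) (Fin n) := slx (fun _ => 1) (fun _ => 1)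

/-- The flat slot of the second variable. -/
def fy (n : ℕ) : Sl (VV n) (Fin n) := sly (fun _ => 1) (fun _ => 1)

theorem fr_id : Fr (fun _ : V n => (1 : ℝ)) (fun _ => 1) univ where
  op := isOpen_univ
  rp _ _ := one_pos
  rs := contDiffOn_const
  ss _ _ := contDiffOn_const
  sy _ i j := by rw [Matrix.one_apply, Matrix.one_apply]; simp [eq_comm]
  dv x _ j := by simp [pd]

section cal

variable {U : Set (VV n)} {W f g a b : VV n → ℝ} {z : VV n}

theorem ok_fx (hU : IsOpen U) : (fx n).Ok U fun _ => 1 := by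
  have h := okx (fr_id (n := n)).toFr0 (fr_id (n := n)).toFr0 hU (by simp)
  rwa [tht_one] at h

theorem ok_fy (hU : IsOpen U) : (fy n).Ok U fun _ => 1 := by
  have h := oky (fr_id (n := n)).toFr0 (fr_id (n := n)).toFr0 hU (by simp)
  rwa [tht_one] at h

theorem cm_f (hU : IsOpen U) : Cm (fx n) (fy n) U :=
  cmm (fr_id (n := n)).toFr0 (fr_id (n := n)).toFr0 hU (by simp)

theorem fx_D (i : Fin n) (f : VV n → ℝ) : (fx n).D i f = dx i f := Dx_one i f

theorem fy_D (i : Fin n) (f : VV n → ℝ) : (fy n).D i f = dy i f := Dy_one i f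

theorem fx_s (i j : Fin n) (z : VV n) : (fx n).s i j z = if i = j then 1 else 0 :=
  Matrix.one_apply

theorem fy_s (i j : Fin n) (z : VV n) : (fy n).s i j z = if i = j then 1 else 0 :=
  Matrix.one_apply

theorem fx_k (i : Fin n) (z : VV n) : (fx n).k i z = 0 := by simp [fx, slx, pd]

theorem fy_k (i : Fin n) (z : VV n) : (fy n).k i z = 0 := by simp [fy, sly, pd]

theorem fx_η (i : Fin n) (z : VV n) : (fx n).η i z = 0 := by simp [Sl.η, fx, slx]

theorem fy_η (i : Fin n) (z : VV n) : (fy n).η i z = 0 := by simp [Sl.η, fy, sly]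

theorem fx_Γ (f g : VV n → ℝ) (z : VV n) : (fx n).Γ f g z = ∑ i, dx i f z * dx i g z := by
  unfold Sl.Γ
  simp [fx_s, fx_D]

theorem fy_Γ (f g : VV n → ℝ) (z : VV n) : (fy n).Γ f g z = ∑ i, dy i f z * dy i g z := by
  unfold Sl.Γ
  simp [fy_s, fy_D]

theorem fx_Λ (f : VV n → ℝ) (z : VV n) : (fx n).Λ f z = ∑ i, dx i (dx i f) z := by
  rw [L_dv (fx n) f fun j => dvx (fr_id (n := n)) (mem_univ z.1) j]
  simp [fx_s, fx_D, fx_k]

theorem fy_Λ (f : VV n → ℝ) (z : VV n) : (fy n).Λ f z = ∑ i, dy i (dy i f) z := by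
  rw [L_dv (fy n) f fun j => dvy (fr_id (n := n)) (mem_univ z.2) j]
  simp [fy_s, fy_D, fy_k]

theorem fx_Gr (f : VV n → ℝ) (i : Fin n) (z : VV n) : Gr (fx n) f i z = dx i f z := by
  unfold Gr
  simp [fx_s, fx_D]

theorem fy_Gr (f : VV n → ℝ) (i : Fin n) (z : VV n) : Gr (fy n) f i z = dy i f z := by
  unfold Gr
  simp [fy_s, fy_D]

/-- The derivatives commute. -/
theorem dx_dx_comm (hU : IsOpen U) (hf : Sm U f) (i j : Fin n) (hz : z ∈ U) :
    dx i (dx j f) z = dx j (dx i f) z := by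
  have h := D_D (σ := fx n) hU (contDiffOn_const : Sm U (fx n).ρ) hf i j hz
  simp only [fx_D, fx_η] at h
  linarith

theorem dy_dy_comm (hU : IsOpen U) (hf : Sm U f) (i j : Fin n) (hz : z ∈ U) :
    dy i (dy j f) z = dy j (dy i f) z := by
  have h := D_D (σ := fy n) hU (contDiffOn_const : Sm U (fy n).ρ) hf i j hz
  simp only [fy_D, fy_η] at h
  linarith

theorem dx_dy_comm (hU : IsOpen U) (hf : Sm U f) (i j : Fin n) (hz : z ∈ U) :
    dx i (dy j f) z = dy j (dx i f) z := by
  have h := (cm_f (n := n) hU).cc f hf z hz i j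
  simpa only [fx_D, fy_D] using h

theorem sm_dx (hU : IsOpen U) (hf : Sm U f) (i : Fin n) : Sm U (dx i f) := hf.fd hU _

theorem sm_dy (hU : IsOpen U) (hf : Sm U f) (i : Fin n) : Sm U (dy i f) := hf.fd hU _

omit U W f g a b z in
theorem sum_ite2 (i l : Fin n) (F : Fin n → Fin n → ℝ) :
    (∑ x, ∑ y, if i = x then (if y = l then F x y else 0) else 0) = F i l := by
  have h : ∀ x, (∑ y, if i = x then (if y = l then F x y else 0) else 0) =
      if i = x then F x l else 0 := by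
    intro x
    split_ifs
    · simp
    · simp
  simp [h]

theorem fx_Hc (hU : IsOpen U) (hW : Sm U W) (i l : Fin n) (hz : z ∈ U) :
    (fx n).Hc W i l z = dx i (dx l W) z := by
  have h0 : ∀ (i j k : Fin n), (fx n).D i ((fx n).s j k) z = 0 := by
    intro i j k
    have : (fx n).s j k = fun _ => if j = k then (1 : ℝ) else 0 := funext fun z => fx_s j k z
    rw [this, D_const]
  unfold Sl.Hc
  simp only [h0, fx_η, fx_D, fx_s, zero_mul, mul_zero, add_zero, sub_zero]
  simp only [ite_mul, one_mul, zero_mul]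
  rw [sum_ite2]
  rw [dx_dx_comm hU hW l i hz]
  ring

theorem fy_Hc (hU : IsOpen U) (hW : Sm U W) (i l : Fin n) (hz : z ∈ U) :
    (fy n).Hc W i l z = dy i (dy l W) z := by
  have h0 : ∀ (i j k : Fin n), (fy n).D i ((fy n).s j k) z = 0 := by
    intro i j k
    have : (fy n).s j k = fun _ => if j = k then (1 : ℝ) else 0 := funext fun z => fy_s j k z
    rw [this, D_const]
  unfold Sl.Hc
  simp only [h0, fy_η, fy_D, fy_s, zero_mul, mul_zero, add_zero, sub_zero]
  simp only [ite_mul, one_mul, zero_mul]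
  rw [sum_ite2]
  rw [dy_dy_comm hU hW l i hz]
  ring

theorem f_Mc (W : VV n → ℝ) (i k : Fin n) (z : VV n) :
    Mc (fx n) (fy n) W i k z = dx i (dy k W) z := by
  unfold Mc
  simp only [fx_D, fy_D, fx_s, fy_s]
  simp only [ite_mul, one_mul, zero_mul, eq_comm (a := k)]
  rw [sum_ite2]

/-- The Hessian form. -/
theorem f_TH (hU : IsOpen U) (hW : Sm U W) (hz : z ∈ U) (A B : V n) :
    TH (fx n) (fy n) W z A B = (∑ i, ∑ l, dx i (dx l W) z * A i * A l) +
      2 * (∑ i, ∑ k, dx i (dy k W) z * A i * B k) + ∑ k, ∑ m, dy k (dy m W) z * B k * B m := by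
  unfold TH
  have h1 : ∀ i l, (fx n).Hc W i l z = dx i (dx l W) z := fun i l => fx_Hc hU hW i l hz
  have h2 : ∀ i l, (fy n).Hc W i l z = dy i (dy l W) z := fun i l => fy_Hc hU hW i l hz
  simp only [h1, h2, f_Mc]

theorem f_TH_hs (hW : ContDiff ℝ ∞ W) (z : VV n) (A B : V n) :
    TH (fx n) (fy n) W z A B = hs W (A, B) z := by
  rw [f_TH isOpen_univ hW.contDiffOn (mem_univ z), hs_eq hW]
  congr 1
  · congr 1
    · rw [Finset.sum_comm]
      exact Finset.sum_congr rfl fun i _ => Finset.sum_congr rfl fun j _ => by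
        ring
    · congr 1
      refine Finset.sum_congr rfl fun i _ => Finset.sum_congr rfl fun j _ => ?_
      rw [dx_dy_comm isOpen_univ hW.contDiffOn i j (mem_univ z)]
      ring
  · rw [Finset.sum_comm]
    exact Finset.sum_congr rfl fun i _ => Finset.sum_congr rfl fun j _ => by ring

/-- `|W_xx|²`. -/
theorem fx_G2 (hU : IsOpen U) (hW : Sm U W) (hz : z ∈ U) :
    G2 (fx n) W z = ∑ i, ∑ l, dx i (dx l W) z ^ 2 := by
  have ok := ok_fx (n := n) hU
  have sd : ∀ l, Sm U (dx l W) := fun l => sm_dx hU hW l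
  have sdd : ∀ i l, Sm U (dx i (dx l W)) := fun i l => sm_dx hU (sd l) i
  have e0 : ∀ w ∈ U, (fx n).F W w = ∑ l, dx l W w ^ 2 := fun w _ => by
    unfold Sl.F
    rw [fx_Γ]
    exact Finset.sum_congr rfl fun l _ => by ring
  have e1 : (fx n).Λ ((fx n).F W) z = ∑ i, ∑ l, (2 * (dx i (dx l W) z * dx i (dx l W) z) +
      2 * (dx l W z * dx i (dx i (dx l W)) z)) := by
    rw [fx_Λ]
    refine Finset.sum_congr rfl fun i _ => ?_
    have h1 : ∀ w ∈ U, (fx n).D i ((fx n).F W) w = ∑ l, 2 * (dx l W w * dx i (dx l W) w) := by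
      intro w hw
      rw [D_congr (fx n) hU e0 i hw, D_sum (fx n) hU _ (fun l _ => (sd l).pow 2) i hw]
      refine Finset.sum_congr rfl fun l _ => ?_
      rw [D_sq (fx n) hU (sd l) i hw, fx_D]
      ring
    have h2 : dx i (dx i ((fx n).F W)) z = (fx n).D i ((fx n).D i ((fx n).F W)) z := by
      rw [fx_D, fx_D]
    rw [h2, D_congr (fx n) hU h1 i hz, D_sum (fx n) hU _ (fun l _ => contDiffOn_const.mul
      ((sd l).mul (sdd i l))) i hz]
    refine Finset.sum_congr rfl fun l _ => ?_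
    rw [D_cmul (fx n) hU 2 ((sd l).mul (sdd i l)) i hz, D_mul (fx n) hU (sd l) (sdd i l) i hz,
      fx_D, fx_D]
    ring
  have e2 : (fx n).Γ W ((fx n).Λ W) z = ∑ i, ∑ l, dx l W z * dx i (dx i (dx l W)) z := by
    rw [fx_Γ, Finset.sum_comm]
    refine Finset.sum_congr rfl fun l _ => ?_
    rw [← Finset.mul_sum]
    congr 1
    have h1 : dx l ((fx n).Λ W) z = (fx n).D l (fun w => ∑ i, dx i (dx i W) w) z := by
      rw [← fx_D]
      exact D_congr (fx n) hU (fun w _ => fx_Λ W w) l hz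
    rw [h1, D_sum (fx n) hU _ (fun i _ => sdd i i) l hz]
    refine Finset.sum_congr rfl fun i _ => ?_
    rw [fx_D, dx_dx_comm hU (sd i) l i hz]
    have h3 : (fx n).D i (dx l (dx i W)) z = (fx n).D i (dx i (dx l W)) z :=
      D_congr (fx n) hU (fun w hw => dx_dx_comm hU hW l i hw) i hz
    rw [fx_D, fx_D] at h3
    exact h3
  unfold G2
  rw [e1, e2, Finset.mul_sum, ← Finset.sum_sub_distrib]
  refine Finset.sum_congr rfl fun i _ => ?_
  rw [Finset.mul_sum, ← Finset.sum_sub_distrib]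
  refine Finset.sum_congr rfl fun l _ => ?_
  ring

theorem fy_G2 (hU : IsOpen U) (hW : Sm U W) (hz : z ∈ U) :
    G2 (fy n) W z = ∑ i, ∑ l, dy i (dy l W) z ^ 2 := by
  have ok := ok_fy (n := n) hU
  have sd : ∀ l, Sm U (dy l W) := fun l => sm_dy hU hW l
  have sdd : ∀ i l, Sm U (dy i (dy l W)) := fun i l => sm_dy hU (sd l) i
  have e0 : ∀ w ∈ U, (fy n).F W w = ∑ l, dy l W w ^ 2 := fun w _ => by
    unfold Sl.F
    rw [fy_Γ]
    exact Finset.sum_congr rfl fun l _ => by ring
  have e1 : (fy n).Λ ((fy n).F W) z = ∑ i, ∑ l, (2 * (dy i (dy l W) z * dy i (dy l W) z) +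
      2 * (dy l W z * dy i (dy i (dy l W)) z)) := by
    rw [fy_Λ]
    refine Finset.sum_congr rfl fun i _ => ?_
    have h1 : ∀ w ∈ U, (fy n).D i ((fy n).F W) w = ∑ l, 2 * (dy l W w * dy i (dy l W) w) := by
      intro w hw
      rw [D_congr (fy n) hU e0 i hw, D_sum (fy n) hU _ (fun l _ => (sd l).pow 2) i hw]
      refine Finset.sum_congr rfl fun l _ => ?_
      rw [D_sq (fy n) hU (sd l) i hw, fy_D]
      ring
    have h2 : dy i (dy i ((fy n).F W)) z = (fy n).D i ((fy n).D i ((fy n).F W)) z := by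
      rw [fy_D, fy_D]
    rw [h2, D_congr (fy n) hU h1 i hz, D_sum (fy n) hU _ (fun l _ => contDiffOn_const.mul
      ((sd l).mul (sdd i l))) i hz]
    refine Finset.sum_congr rfl fun l _ => ?_
    rw [D_cmul (fy n) hU 2 ((sd l).mul (sdd i l)) i hz, D_mul (fy n) hU (sd l) (sdd i l) i hz,
      fy_D, fy_D]
    ring
  have e2 : (fy n).Γ W ((fy n).Λ W) z = ∑ i, ∑ l, dy l W z * dy i (dy i (dy l W)) z := by
    rw [fy_Γ, Finset.sum_comm]
    refine Finset.sum_congr rfl fun l _ => ?_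
    rw [← Finset.mul_sum]
    congr 1
    have h1 : dy l ((fy n).Λ W) z = (fy n).D l (fun w => ∑ i, dy i (dy i W) w) z := by
      rw [← fy_D]
      exact D_congr (fy n) hU (fun w _ => fy_Λ W w) l hz
    rw [h1, D_sum (fy n) hU _ (fun i _ => sdd i i) l hz]
    refine Finset.sum_congr rfl fun i _ => ?_
    rw [fy_D, dy_dy_comm hU (sd i) l i hz]
    have h3 : (fy n).D i (dy l (dy i W)) z = (fy n).D i (dy i (dy l W)) z :=
      D_congr (fy n) hU (fun w hw => dy_dy_comm hU hW l i hw) i hz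
    rw [fy_D, fy_D] at h3
    exact h3
  unfold G2
  rw [e1, e2, Finset.mul_sum, ← Finset.sum_sub_distrib]
  refine Finset.sum_congr rfl fun i _ => ?_
  rw [Finset.mul_sum, ← Finset.sum_sub_distrib]
  refine Finset.sum_congr rfl fun l _ => ?_
  ring

/-- `|W_xy|²`. -/
theorem f_M2 (W : VV n → ℝ) (z : VV n) :
    M2 (fx n) (fy n) W W z = ∑ i, ∑ k, dx i (dy k W) z ^ 2 := by
  unfold M2
  simp only [fx_Γ, fy_D, fy_s]
  simp only [ite_mul, one_mul, zero_mul, Finset.sum_ite_eq, Finset.mem_univ, if_true]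
  rw [Finset.sum_comm]
  exact Finset.sum_congr rfl fun i _ => Finset.sum_congr rfl fun j _ => by ring

theorem fx_XX (W a : VV n → ℝ) (z : VV n) (i : Fin n) :
    XX (fx n) W a z i = a z * dx i W z - dx i a z := by
  unfold XX
  rw [fx_D, fx_D]

theorem fy_XX (W a : VV n → ℝ) (z : VV n) (i : Fin n) :
    XX (fy n) W a z i = a z * dy i W z - dy i a z := by
  unfold XX
  rw [fy_D, fy_D]

theorem fx_X1 (W f a : VV n → ℝ) (z : VV n) :
    X1 (fx n) W f a z = ∑ i, dx i f z * (a z * dx i W z - dx i a z) := by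
  unfold X1
  rw [fx_Γ, fx_Γ, Finset.mul_sum, ← Finset.sum_sub_distrib]
  exact Finset.sum_congr rfl fun i _ => by ring

theorem fy_X1 (W f a : VV n → ℝ) (z : VV n) :
    X1 (fy n) W f a z = ∑ i, dy i f z * (a z * dy i W z - dy i a z) := by
  unfold X1
  rw [fy_Γ, fy_Γ, Finset.mul_sum, ← Finset.sum_sub_distrib]
  exact Finset.sum_congr rfl fun i _ => by ring

omit U W f g a b z in
theorem haar_VV : (volume : Measure (VV n)).IsAddHaarMeasure :=
  Measure.prod.instIsAddHaarMeasure (volume : Measure (V n)) (volume : Measure (V n))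

/-- **The exact formula for `T` in the flat frame**, all quantities as sums of derivatives. -/
theorem tflat (hU : IsOpen U) (hW : Sm U W) (ha : Te U a) (hb : Te U b) :
    TT (fx n) (fy n) U (fun _ => 1) (fun _ => 0) (fun _ => 0) W a b =
      (In U (fun _ => 1) (fun z => (fx n).P (fun _ => 0) W a z ^ 2) +
        In U (fun _ => 1) (fun z => (fy n).P (fun _ => 0) W b z ^ 2) +
        In U (fun _ => 1) (fun z => (fy n).P (fun _ => 0) W a z ^ 2) +
        In U (fun _ => 1) (fun z => (fx n).P (fun _ => 0) W b z ^ 2)) +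
      8 * In U (fun _ => 1) (fun z => TH (fx n) (fy n) W z (fun i => a z * dx i W z - dx i a z)
        (fun i => b z * dy i W z - dy i b z)) -
      8 * (In U (fun _ => 1) (fun z => (∑ i, ∑ l, dx i (dx l W) z ^ 2) * a z ^ 2) +
        2 * In U (fun _ => 1) (fun z => (∑ i, ∑ k, dx i (dy k W) z ^ 2) * (a z * b z)) +
        In U (fun _ => 1) (fun z => (∑ i, ∑ l, dy i (dy l W) z ^ 2) * b z ^ 2)) -
      8 * (In U (fun _ => 1) (fun z => a z * ∑ i, dx i ((fx n).Λ W) z *
          (a z * dx i W z - dx i a z)) +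
        In U (fun _ => 1) (fun z => b z * ∑ i, dx i ((fy n).Λ W) z *
          (a z * dx i W z - dx i a z)) +
        In U (fun _ => 1) (fun z => a z * ∑ i, dy i ((fx n).Λ W) z *
          (b z * dy i W z - dy i b z)) +
        In U (fun _ => 1) (fun z => b z * ∑ i, dy i ((fy n).Λ W) z *
          (b z * dy i W z - dy i b z))) +
      2 * (In U (fun _ => 1) (fun z => (fx n).Λ ((fx n).Λ W) z * a z ^ 2) +
        2 * In U (fun _ => 1) (fun z => (fx n).Λ ((fy n).Λ W) z * (a z * b z)) +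
        In U (fun _ => 1) (fun z => (fy n).Λ ((fy n).Λ W) z * b z ^ 2)) := by
  haveI := haar_VV (n := n)
  have ok := ok_fx (n := n) hU
  have ot := ok_fy (n := n) hU
  have h := tstar ok ot (cm_f hU) (v₁ := fun _ => 0) (v₂ := fun _ => 0) contDiffOn_const
    contDiffOn_const (fun z _ k => D_const _ _ _ _) (fun z _ k => D_const _ _ _ _) hW ha hb
  have g1 : In U (fun _ => 1) (fun z => (fx n).Γ W (fun _ => 0) z * a z ^ 2) = 0 := by
    rw [← In_zero U (fun _ : VV n => (1 : ℝ))]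
    refine In_congr hU fun z _ => ?_
    rw [fx_Γ]
    simp [dx]
  have g2 : In U (fun _ => 1) (fun z => (fy n).Γ W (fun _ => 0) z * b z ^ 2) = 0 := by
    rw [← In_zero U (fun _ : VV n => (1 : ℝ))]
    refine In_congr hU fun z _ => ?_
    rw [fy_Γ]
    simp [dy]
  have e1 : In U (fun _ => 1) (fun z => G2 (fx n) W z * a z ^ 2) =
      In U (fun _ => 1) (fun z => (∑ i, ∑ l, dx i (dx l W) z ^ 2) * a z ^ 2) :=
    In_congr hU fun z hz => by rw [fx_G2 hU hW hz]
  have e2 : In U (fun _ => 1) (fun z => G2 (fy n) W z * b z ^ 2) =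
      In U (fun _ => 1) (fun z => (∑ i, ∑ l, dy i (dy l W) z ^ 2) * b z ^ 2) :=
    In_congr hU fun z hz => by rw [fy_G2 hU hW hz]
  have e3 : XX (fx n) W a = fun z i => a z * dx i W z - dx i a z :=
    funext fun z => funext fun i => fx_XX W a z i
  have e4 : XX (fy n) W b = fun z i => b z * dy i W z - dy i b z :=
    funext fun z => funext fun i => fy_XX W b z i
  simp only [f_M2, fx_X1, fy_X1, e3, e4] at h
  rw [e1, e2, g1, g2] at h
  rw [h]
  ring

end cal

end Vale.Agent.P088.R2.H644.Ch
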