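import Vale.Agent.P088.R2.H644.W.Lam

/-!
# P088: the stiff part `e^u Φ(ρ)`, uniformly over families of `u`, `ρ`

`Φ(s) = (cosh (θ √s) - 1) / θ²`; off the diagonal (`ρ > c`): `D log F = O(1)`, `D² log F = O(1/√ρ)`,
`|D^k F| ≤ C F`; near the diagonal `|D^k F| ≤ C e^u`.
-/

open Set Filter
open scoped ContDiff Topology

noncomputable section

namespace Vale.Agent.P088.R2.H644.Sy

variable {α E F : Type*} [NormedAddCommGroup E] [NormedSpace ℝ E] [NormedAddCommGroup F]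
  [NormedSpace ℝ F]

/-- Sums of sizes. -/
theorem Sf.add' {U : α → Set E} {ρ g₁ g₂ : α → E → ℝ} {k : ℕ} {f f' : α → E → F}
    (hU : ∀ a, IsOpen (U a)) (hρ : ∀ a, ∀ z ∈ U a, 0 < ρ a z) (h1 : ∀ a, ∀ z ∈ U a, 0 ≤ g₁ a z)
    (h2 : ∀ a, ∀ z ∈ U a, 0 ≤ g₂ a z) (h : Sf U ρ g₁ k f) (h' : Sf U ρ g₂ k f') :
    Sf U ρ (fun a z => g₁ a z + g₂ a z) k fun a z => f a z + f' a z :=
  (h.mono hρ h1 (A := 1) fun a z hz => by
    rw [one_mul]; exact le_add_of_nonneg_right (h2 a z hz)).add hU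
    (h'.mono hρ h2 (A := 1) fun a z hz => by
      rw [one_mul]; exact le_add_of_nonneg_left (h1 a z hz))

/-- Second derivatives in fixed directions. -/
theorem Sf.ap2 {U : α → Set E} {ρ g : α → E → ℝ} {k : ℕ} {f : α → E → ℝ}
    (hU : ∀ a, IsOpen (U a)) (hf : ∀ a, ContDiffOn ℝ ∞ (f a) (U a))
    (h : Sf U ρ g k (fun a => fderiv ℝ (fderiv ℝ (f a)))) (v w : E) :
    Sf U ρ g k fun a z => fderiv ℝ (fun z => fderiv ℝ (f a) z v) z w := by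
  have h1 := (h.clm hU (ContinuousLinearMap.apply ℝ (E →L[ℝ] ℝ) w)).clm hU
    (ContinuousLinearMap.apply ℝ ℝ v)
  refine h1.congr hU fun a z hz => ?_
  have hd : DifferentiableAt ℝ (fderiv ℝ (f a)) z := by
    have h2 : ContDiffOn ℝ ∞ (fderiv ℝ (f a)) (U a) := (hf a).fderiv_of_isOpen (hU a) (by norm_num)
    exact ((h2 z hz).contDiffAt ((hU a).mem_nhds hz)).differentiableAt (by simp)
  have h3 := hd.hasFDerivAt.clm_apply (hasFDerivAt_const v z)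
  rw [h3.fderiv]
  simp

end Vale.Agent.P088.R2.H644.Sy

namespace Vale.Agent.P088.R2.H644.Ch

open Vale.Agent.P088.R2.H644.Sy Vale.Agent.P088.R2.H644

variable {α E : Type*} [NormedAddCommGroup E] [NormedSpace ℝ E]

/-- The stiff part. -/
def Fw (θ : ℝ) (u ρ : α → E → ℝ) (a : α) (z : E) : ℝ := Real.exp (u a z) * Fs (θ ^ 2) (ρ a z)

/-- Its logarithmic derivative. -/
def lw (θ : ℝ) (u ρ : α → E → ℝ) (a : α) (z : E) : E →L[ℝ] ℝ :=
  fderiv ℝ (u a) z + (Fs1 (θ ^ 2) (ρ a z) / Fs (θ ^ 2) (ρ a z)) • fderiv ℝ (ρ a) z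

/-- Families of exponents `u` and squared distances `ρ > c`, of order `k`. -/
structure Wf (U : α → Set E) (u ρ : α → E → ℝ) (k : ℕ) (c : ℝ) : Prop where
  op : ∀ a, IsOpen (U a)
  su : ∀ a, ContDiffOn ℝ ∞ (u a) (U a)
  hρ : ∀ a, ∀ z ∈ U a, c < ρ a z
  du : Sf U (fun a z => √(ρ a z)) (fun _ _ => 1) k (fun a => fderiv ℝ (u a))
  dρ : Sf U (fun a z => √(ρ a z)) ρ (k + 1) ρ

theorem Fs_pos {θ s : ℝ} (hs : 0 < s) : 0 < Fs (θ ^ 2) s := by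
  have h := one_div_le_St (s := θ ^ 2 * s) (by positivity) 2
  unfold Fs
  have h2 : (0 : ℝ) < 1 / ((2 : ℕ).factorial : ℝ) := by positivity
  exact mul_pos hs (lt_of_lt_of_le (by positivity) h)

section far

variable {U : α → Set E} {u ρ : α → E → ℝ} {k : ℕ} {c θ : ℝ}

theorem Wf.rp (w : Wf U u ρ k c) (hc : 0 < c) : ∀ a, ∀ z ∈ U a, 0 < √(ρ a z) := fun a z hz =>
  Real.sqrt_pos.2 (hc.trans (w.hρ a z hz))

theorem Wf.mono_k {l : ℕ} (w : Wf U u ρ k c) (hl : l ≤ k) : Wf U u ρ l c :=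
  ⟨w.op, w.su, w.hρ, w.du.mono_k hl, w.dρ.mono_k (Nat.succ_le_succ hl)⟩

/-- `Φ'/Φ (ρ)`. -/
theorem Wf.lam (w : Wf U u ρ k c) (hθ : 0 < θ) (hc : 0 < c) :
    Sf U (fun a z => √(ρ a z)) (fun a z => (√(ρ a z))⁻¹) k
      fun a z => Fs1 (θ ^ 2) (ρ a z) / Fs (θ ^ 2) (ρ a z) := by
  refine Sf.comp1 (I := fun _ => Ioi c) w.op (fun a z hz => (hc.trans (w.hρ a z hz)).ne')
    (fun _ => isOpen_Ioi) w.hρ k (fun _ s => Fs1 (θ ^ 2) s / Fs (θ ^ 2) s) _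
    (fun _ => (s1_lam hθ hc k).sm ()) (fun j hj => ?_) (w.dρ.mono_k (Nat.le_succ k))
  obtain ⟨C, hC⟩ := (s1_lam hθ hc k).bd' hj
  exact ⟨C, fun a z hz => hC _ (w.hρ a z hz)⟩

/-- **`D log F = O(1)`.** -/
theorem Wf.lw (w : Wf U u ρ k c) (hθ : 0 < θ) (hc : 0 < c) :
    Sf U (fun a z => √(ρ a z)) (fun _ _ => 1) k (Ch.lw θ u ρ) := by
  have h1 := (w.lam hθ hc).smul w.op (w.dρ.fd w.op)
  refine w.du.add w.op (h1.wcongr fun a z hz => ?_)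
  have h2 := (w.rp hc a z hz).ne'
  have h3 : √(ρ a z) * √(ρ a z) = ρ a z := Real.mul_self_sqrt (hc.trans (w.hρ a z hz)).le
  rw [← h3, Real.sqrt_mul_self (w.rp hc a z hz).le]
  field_simp

/-- **`D² log F = O(1/√ρ)`.** -/
theorem Wf.dlw (w : Wf U u ρ (k + 1) c) (hθ : 0 < θ) (hc : 0 < c) :
    Sf U (fun a z => √(ρ a z)) (fun a z => (√(ρ a z))⁻¹) k (fun a => fderiv ℝ (Ch.lw θ u ρ a)) :=
  ((w.lw hθ hc).fd w.op).wcongr fun a z _ => by simp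

theorem Wf.sF (w : Wf U u ρ k c) (a : α) : ContDiffOn ℝ ∞ (Fw θ u ρ a) (U a) :=
  (w.su a).exp.mul ((contDiff_Fs (θ ^ 2)).comp_contDiffOn (w.dρ.sm a))

theorem Wf.F_pos (w : Wf U u ρ k c) (hc : 0 < c) (a : α) {z : E} (hz : z ∈ U a) :
    0 < Fw θ u ρ a z := mul_pos (Real.exp_pos _) (Fs_pos (hc.trans (w.hρ a z hz)))

theorem Wf.fdF (w : Wf U u ρ k c) (hc : 0 < c) (a : α) {z : E} (hz : z ∈ U a) :
    HasFDerivAt (Fw θ u ρ a) (Fw θ u ρ a z • Ch.lw θ u ρ a z) z := by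
  have d1 : DifferentiableAt ℝ (u a) z :=
    ((w.su a z hz).contDiffAt ((w.op a).mem_nhds hz)).differentiableAt (by simp)
  have d2 : DifferentiableAt ℝ (ρ a) z :=
    ((w.dρ.sm a z hz).contDiffAt ((w.op a).mem_nhds hz)).differentiableAt (by simp)
  have h1 : HasFDerivAt (fun z => Fs (θ ^ 2) (ρ a z)) (Fs1 (θ ^ 2) (ρ a z) • fderiv ℝ (ρ a) z) z :=
    ((d2_Fs (θ ^ 2)).d1 (ρ a z)).comp_hasFDerivAt z d2.hasFDerivAt
  have h2 := d1.hasFDerivAt.exp.mul h1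
  have hF := (Fs_pos (θ := θ) (hc.trans (w.hρ a z hz))).ne'
  have h3 : Real.exp (u a z) • (Fs1 (θ ^ 2) (ρ a z) • fderiv ℝ (ρ a) z) +
      Fs (θ ^ 2) (ρ a z) • (Real.exp (u a z) • fderiv ℝ (u a) z) =
      Fw θ u ρ a z • Ch.lw θ u ρ a z := by
    unfold Fw Ch.lw
    refine ContinuousLinearMap.ext fun v => ?_
    simp only [_root_.add_apply, _root_.smul_apply, smul_eq_mul]
    field_simp
    ring
  rw [h3] at h2
  exact h2

/-- **All derivatives of the stiff part off the diagonal.** -/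
theorem Wf.F (w : Wf U u ρ k c) (hθ : 0 < θ) (hc : 0 < c) :
    Sf U (fun _ _ => 1) (Fw θ u ρ) (k + 1) (Fw θ u ρ) := by
  have h1 : Sf U (fun _ _ => 1) (fun _ _ => 1) k (Ch.lw θ u ρ) :=
    (w.lw hθ hc).mono_ρ (w.rp hc) (fun _ _ _ => one_pos) (fun _ _ _ => zero_le_one)
      (A := (√c)⁻¹) fun a z hz => by
        rw [← div_eq_inv_mul, one_le_div₀ (Real.sqrt_pos.2 hc)]
        exact Real.sqrt_le_sqrt (w.hρ a z hz).le
  have h2 := Sf.log (k := k) (ρ := fun _ _ => 1) w.op (fun a => w.sF a)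
    (fun a z hz => (w.fdF hc a hz).fderiv) (h1.wcongr fun a z _ => by simp)
  exact h2.wcongr fun a z hz => (abs_of_pos (w.F_pos hc a hz)).symm

end far

/-! ## Near the diagonal -/

/-- Families near the diagonal, of order `k`. -/
structure Wn (U : α → Set E) (u ρ : α → E → ℝ) (k : ℕ) (c : ℝ) : Prop where
  op : ∀ a, IsOpen (U a)
  su : ∀ a, ContDiffOn ℝ ∞ (u a) (U a)
  h0 : ∀ a, ∀ z ∈ U a, 0 ≤ ρ a z
  h1 : ∀ a, ∀ z ∈ U a, ρ a z ≤ c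
  du : Sf U (fun _ _ => 1) (fun _ _ => 1) k (fun a => fderiv ℝ (u a))
  dρ : Sf U (fun _ _ => 1) (fun _ _ => 1) (k + 1) ρ

section near

variable {U : α → Set E} {u ρ : α → E → ℝ} {k : ℕ} {c θ : ℝ}

/-- Smooth functions of `ρ`. -/
theorem Wn.phi (w : Wn U u ρ k c) {Φ : ℝ → ℝ} (hΦ : ContDiff ℝ ∞ Φ) :
    Sf U (fun _ _ => 1) (fun _ _ => 1) (k + 1) fun a z => Φ (ρ a z) := by
  refine Sf.comp1 (I := fun _ => univ) w.op (fun _ _ _ => one_ne_zero) (fun _ => isOpen_univ)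
    (fun _ _ _ => mem_univ _) (k + 1) (fun _ => Φ) (fun _ _ => 1) (fun _ => hΦ.contDiffOn)
    (fun j _ => ?_) w.dρ
  have hcont : Continuous (iteratedDeriv j Φ) :=
    hΦ.continuous_iteratedDeriv j (by exact_mod_cast le_top)
  obtain ⟨C, hC⟩ := (isCompact_Icc (a := (0 : ℝ)) (b := c)).exists_bound_of_continuousOn
    hcont.continuousOn
  exact ⟨C, fun a z hz => by simpa using hC _ ⟨w.h0 a z hz, w.h1 a z hz⟩⟩

theorem Wn.eu (w : Wn U u ρ k c) :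
    Sf U (fun _ _ => 1) (fun a z => Real.exp (u a z)) (k + 1) fun a z => Real.exp (u a z) :=
  Sf.exp w.op w.su (w.du.wcongr fun a z _ => by simp)

/-- **All derivatives of the stiff part near the diagonal.** -/
theorem Wn.F (w : Wn U u ρ k c) :
    Sf U (fun _ _ => 1) (fun a z => Real.exp (u a z)) (k + 1) (Fw θ u ρ) :=
  ((w.eu).mul w.op (w.phi (contDiff_Fs (θ ^ 2)))).wcongr fun a z _ => by simp

end near

end Vale.Agent.P088.R2.H644.Ch
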