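import Vale.Agent.P088.R2.H644.W.Star
import Vale.Agent.P088.R2.H644.W.Wei

/-!
# P088: slots with the scale `1`: symbols and the exact formula for `Γ₂`
-/

open Set Filter
open scoped ContDiff Topology

noncomputable section

namespace Vale.Agent.P088.R2.H644.Sy

open Vale.Agent.P088.R2.H961.GW

variable {α E F G : Type*} [NormedAddCommGroup E] [NormedSpace ℝ E] [NormedAddCommGroup F]
  [NormedSpace ℝ F] [NormedAddCommGroup G] [NormedSpace ℝ G]

/-- Directional derivatives. -/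
theorem Sf.dir {U : α → Set E} {ρ g : α → E → ℝ} {k : ℕ} {f : α → E → F}
    (hU : ∀ a, IsOpen (U a)) (h : Sf U ρ g k (fun a => fderiv ℝ (f a))) (v : E) :
    Sf U ρ g k fun a z => fderiv ℝ (f a) z v :=
  h.clm hU (ContinuousLinearMap.apply ℝ F v)

/-- Compositions with continuous linear maps. -/
theorem Sf.linR {U : α → Set G} {ρ g : α → G → ℝ} {k : ℕ} {f : α → G → F}
    (hU : ∀ a, IsOpen (U a)) (h : Sf U ρ g k f) (L : E →L[ℝ] G) :
    Sf (fun a => L ⁻¹' U a) (fun a z => ρ a (L z)) (fun a z => g a (L z)) k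
      fun a z => f a (L z) where
  sm a := (h.sm a).comp L.contDiff.contDiffOn fun _ hz => hz
  bd j hj := by
    obtain ⟨C, hC⟩ := h.bd j hj
    refine ⟨‖L‖ ^ j * C, fun a z hz => ?_⟩
    have hL : IsOpen (L ⁻¹' U a) := (hU a).preimage L.continuous
    have e1 := L.iteratedFDerivWithin_comp_right (f := f a) (h.sm a) (hU a).uniqueDiffOn
      hL.uniqueDiffOn (x := z) hz (i := j) (by exact_mod_cast le_top)
    rw [iteratedFDerivWithin_of_isOpen j hL hz, iteratedFDerivWithin_of_isOpen j (hU a) hz] at e1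
    have e2 : iteratedFDeriv ℝ j (fun z => f a (L z)) z = iteratedFDeriv ℝ j (f a ∘ L) z := rfl
    rw [e2, e1]
    refine (ContinuousMultilinearMap.norm_compContinuousLinearMap_le _ _).trans ?_
    rw [Finset.prod_const, Finset.card_univ, Fintype.card_fin]
    calc ‖iteratedFDeriv ℝ j (f a) (L z)‖ * ‖L‖ ^ j ≤
        (C * (g a (L z) * (ρ a (L z))⁻¹ ^ j)) * ‖L‖ ^ j :=
          mul_le_mul_of_nonneg_right (hC a _ hz) (pow_nonneg (norm_nonneg L) j)
      _ = _ := by ring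

variable {ι κ : Type*} [Fintype ι] [Fintype κ]

/-- Families of slots with the scale `1`. -/
structure FS (σ : α → Sl E ι) (e : ι → E) (U : α → Set E) (ρ : α → E → ℝ) (k : ℕ) : Prop where
  one : ∀ a z, (σ a).ρ z = 1
  dir : ∀ a i, (σ a).e i = e i
  k0 : ∀ a i z, (σ a).k i z = 0
  ss : ∀ i j, Sf U ρ (fun _ _ => 1) k (fun a => (σ a).s i j)

section fs

variable {σ : α → Sl E ι} {τ : α → Sl E κ} {e : ι → E} {e' : κ → E} {U : α → Set E}
  {ρ g g₁ g₂ : α → E → ℝ} {k l : ℕ} {f h : α → E → ℝ}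

omit [Fintype ι] in
theorem FS.mono_k (s : FS σ e U ρ k) (hl : l ≤ k) : FS σ e U ρ l :=
  ⟨s.one, s.dir, s.k0, fun i j => (s.ss i j).mono_k hl⟩

omit [Fintype ι] in
theorem FS.mono_ρ {ρ' : α → E → ℝ} (s : FS σ e U ρ k)
    (hρ : ∀ a, ∀ z ∈ U a, 0 < ρ a z) (hρ' : ∀ a, ∀ z ∈ U a, 0 < ρ' a z) {A : ℝ}
    (hA : ∀ a, ∀ z ∈ U a, ρ' a z ≤ A * ρ a z) : FS σ e U ρ' k :=
  ⟨s.one, s.dir, s.k0, fun i j => (s.ss i j).mono_ρ hρ hρ' (fun _ _ _ => zero_le_one) hA⟩

omit [Fintype ι] in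
theorem FS.D_eq (s : FS σ e U ρ k) (a : α) (i : ι) (f : E → ℝ) (z : E) :
    (σ a).D i f z = fderiv ℝ f z (e i) := by
  simp only [Sl.D, s.one, s.dir, one_mul]

omit [Fintype ι] in
/-- `D_i f` from `Df`. -/
theorem FS.D' (s : FS σ e U ρ l) (hU : ∀ a, IsOpen (U a))
    (hf : Sf U ρ g k (fun a => fderiv ℝ (f a))) (i : ι) :
    Sf U ρ g k fun a => (σ a).D i (f a) :=
  (hf.dir hU (e i)).congr hU fun a z _ => s.D_eq a i (f a) z

omit [Fintype ι] in
/-- `D_i f`. -/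
theorem FS.D (s : FS σ e U ρ l) (hU : ∀ a, IsOpen (U a)) (hf : Sf U ρ g (k + 1) f) (i : ι) :
    Sf U ρ (fun a z => g a z * (ρ a z)⁻¹) k fun a => (σ a).D i (f a) :=
  s.D' hU (hf.fd hU) i

/-- `Γ(f, h)` from `Df`, `Dh`. -/
theorem FS.G' (s : FS σ e U ρ k) (hU : ∀ a, IsOpen (U a))
    (hf : Sf U ρ g₁ k (fun a => fderiv ℝ (f a))) (hh : Sf U ρ g₂ k (fun a => fderiv ℝ (h a))) :
    Sf U ρ (fun a z => g₁ a z * g₂ a z) k fun a => (σ a).Γ (f a) (h a) :=
  Sf.sum hU _ fun i _ => Sf.sum hU _ fun j _ =>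
    (((s.ss i j).mul hU (s.D' hU hf i)).mul hU (s.D' hU hh j)).wcongr fun _ _ _ => by ring

/-- `Λ f` from `Df`. -/
theorem FS.L' (s : FS σ e U ρ (k + 1)) (hU : ∀ a, IsOpen (U a))
    (hf : Sf U ρ g (k + 1) (fun a => fderiv ℝ (f a))) :
    Sf U ρ (fun a z => g a z * (ρ a z)⁻¹) k fun a => (σ a).Λ (f a) := by
  refine Sf.sum hU _ fun i _ => Sf.sum hU _ fun j _ => ?_
  have s0 := s.mono_k k.le_succ
  have h1 := (s0.ss i j).mul hU (s.D hU (s.D' hU hf j) i)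
  have h2 := (s.D hU (s.ss i j) i).mul hU (s0.D' hU (hf.mono_k k.le_succ) j)
  have h3 := (h1.wcongr (g₁ := fun a z => g a z * (ρ a z)⁻¹) fun _ _ _ => by ring).add hU
    (h2.wcongr (g₁ := fun a z => g a z * (ρ a z)⁻¹) fun _ _ _ => by ring)
  refine h3.congr hU fun a z _ => ?_
  rw [s.k0, zero_mul, add_zero]

/-- `Λ f` from `D²f`. -/
theorem FS.L'' (s : FS σ e U ρ (k + 1)) (hU : ∀ a, IsOpen (U a))
    (hρ : ∀ a, ∀ z ∈ U a, 0 < ρ a z) (hs : ∀ a, ContDiffOn ℝ ∞ (f a) (U a))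
    (hf : Sf U ρ g k (fun a => fderiv ℝ (fderiv ℝ (f a))))
    (hf1 : Sf U ρ (fun a z => g a z * ρ a z) k (fun a => fderiv ℝ (f a))) :
    Sf U ρ g k fun a => (σ a).Λ (f a) := by
  refine Sf.sum hU _ fun i _ => Sf.sum hU _ fun j _ => ?_
  have s0 := s.mono_k k.le_succ
  have h1 := (s0.ss i j).mul hU (hf.ap2 hU hs (e j) (e i))
  have h2 := (s.D hU (s.ss i j) i).mul hU (s0.D' hU hf1 j)
  have h3 := (h1.wcongr (g₁ := g) fun _ _ _ => by ring).add hU
    (h2.wcongr (g₁ := g) fun a z hz => by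
      have := (hρ a z hz).ne'
      field_simp)
  refine h3.congr hU fun a z hz => ?_
  rw [s.k0, zero_mul, add_zero, s.D_eq (f := (σ a).D j (f a))]
  have e1 : (σ a).D j (f a) = fun z => fderiv ℝ (f a) z (e j) := funext fun z => s.D_eq a j _ z
  rw [e1]

end fs

end Vale.Agent.P088.R2.H644.Sy

namespace Vale.Agent.P088.R2.H644.Ch

open Vale.Agent.P088.R2.H961.GW

section alg

variable {ι : Type*} [Fintype ι]

/-- Quadruple sums. -/
def Q4 (f : ι → ι → ι → ι → ℝ) : ℝ := ∑ a, ∑ b, ∑ k, ∑ l, f a b k l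

theorem Q4_add (f g : ι → ι → ι → ι → ℝ) :
    Q4 (fun a b k l => f a b k l + g a b k l) = Q4 f + Q4 g := by
  simp only [Q4, Finset.sum_add_distrib]

theorem Q4_cmul (c : ℝ) (f : ι → ι → ι → ι → ℝ) :
    Q4 (fun a b k l => c * f a b k l) = c * Q4 f := by
  simp only [Q4, Finset.mul_sum]

theorem Q4_s1 (f : ι → ι → ι → ι → ℝ) : Q4 f = Q4 fun a b k l => f b a k l := by
  unfold Q4
  rw [Finset.sum_comm]

theorem Q4_s2 (f : ι → ι → ι → ι → ℝ) : Q4 f = Q4 fun a b k l => f a b l k := by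
  unfold Q4
  exact Finset.sum_congr rfl fun a _ => Finset.sum_congr rfl fun b _ => Finset.sum_comm

theorem Q4_s3 (f : ι → ι → ι → ι → ℝ) : Q4 f = Q4 fun a b k l => f k l a b := by
  unfold Q4
  have h1 : ∀ a, (∑ b, ∑ k, ∑ l, f a b k l) = ∑ k, ∑ l, ∑ b, f a b k l := by
    intro a
    rw [Finset.sum_comm]
    exact Finset.sum_congr rfl fun k _ => Finset.sum_comm
  simp only [h1]
  rw [Finset.sum_comm]
  exact Finset.sum_congr rfl fun k _ => Finset.sum_comm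

theorem sm_abs (g : ι → ℝ) (c : ℝ) (hg : ∀ i, |g i| ≤ c) : |∑ i, g i| ≤ Fintype.card ι * c := by
  refine (Finset.abs_sum_le_sum_abs _ _).trans ((Finset.sum_le_sum fun i _ => hg i).trans ?_)
  simp

theorem Q4_abs {f : ι → ι → ι → ι → ℝ} {C : ℝ} (h : ∀ a b k l, |f a b k l| ≤ C) :
    |Q4 f| ≤ Fintype.card ι ^ 4 * C := by
  have h1 := sm_abs _ _ fun a => sm_abs _ _ fun b => sm_abs _ _ fun k => sm_abs _ _ fun l =>
    h a b k l
  refine h1.trans (le_of_eq ?_)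
  ring

/-- The algebra of the formula for `Γ₂`. -/
theorem G2_alg (S H : ι → ι → ℝ) (dS T : ι → ι → ι → ℝ) (ddS : ι → ι → ι → ι → ℝ) (w : ι → ℝ)
    (hS : ∀ a b, S a b = S b a) (hd : ∀ j a b, dS j a b = dS j b a) :
    1 / 2 * (∑ a, ∑ b, S a b * ∑ k, ∑ l, ((ddS a b k l * w k * w l + dS b k l * H a k * w l +
        dS b k l * w k * H a l) + (dS a k l * H b k * w l + S k l * T a b k * w l +
        S k l * H b k * H a l) + (dS a k l * w k * H b l + S k l * H a k * H b l +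
        S k l * w k * T a b l))) -
      (∑ k, ∑ l, S k l * w k * ∑ a, ∑ b, (dS l a b * H a b + S a b * T a b l)) =
    Q4 fun a b k l => S a b * S k l * H a k * H b l + 2 * (S a b * dS a k l * H b k * w l) +
      1 / 2 * (S a b * ddS a b k l * w k * w l) + -1 * (S k l * dS l a b * w k * H a b) := by
  set t1 : ι → ι → ι → ι → ℝ := fun a b k l => S a b * ddS a b k l * w k * w l with ht1
  set t2 : ι → ι → ι → ι → ℝ := fun a b k l => S a b * dS b k l * H a k * w l with ht2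
  set t3 : ι → ι → ι → ι → ℝ := fun a b k l => S a b * dS b k l * w k * H a l with ht3
  set t4 : ι → ι → ι → ι → ℝ := fun a b k l => S a b * dS a k l * H b k * w l with ht4
  set t5 : ι → ι → ι → ι → ℝ := fun a b k l => S a b * S k l * T a b k * w l with ht5
  set t6 : ι → ι → ι → ι → ℝ := fun a b k l => S a b * S k l * H b k * H a l with ht6
  set t7 : ι → ι → ι → ι → ℝ := fun a b k l => S a b * dS a k l * w k * H b l with ht7
  set t8 : ι → ι → ι → ι → ℝ := fun a b k l => S a b * S k l * H a k * H b l with ht8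
  set t9 : ι → ι → ι → ι → ℝ := fun a b k l => S a b * S k l * w k * T a b l with ht9
  set u1 : ι → ι → ι → ι → ℝ := fun a b k l => S k l * dS l a b * w k * H a b with hu1
  have e1 : (∑ a, ∑ b, S a b * ∑ k, ∑ l, ((ddS a b k l * w k * w l + dS b k l * H a k * w l +
        dS b k l * w k * H a l) + (dS a k l * H b k * w l + S k l * T a b k * w l +
        S k l * H b k * H a l) + (dS a k l * w k * H b l + S k l * H a k * H b l +
        S k l * w k * T a b l))) =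
      Q4 t1 + Q4 t2 + Q4 t3 + Q4 t4 + Q4 t5 + Q4 t6 + Q4 t7 + Q4 t8 + Q4 t9 := by
    simp only [Q4, Finset.mul_sum, ← Finset.sum_add_distrib, ht1, ht2, ht3, ht4, ht5, ht6, ht7,
      ht8, ht9]
    refine Finset.sum_congr rfl fun a _ => Finset.sum_congr rfl fun b _ =>
      Finset.sum_congr rfl fun k _ => Finset.sum_congr rfl fun l _ => ?_
    ring
  have e2 : (∑ k, ∑ l, S k l * w k * ∑ a, ∑ b, (dS l a b * H a b + S a b * T a b l)) =
      Q4 u1 + Q4 t9 := by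
    rw [Q4_s3 u1, Q4_s3 t9]
    simp only [Q4, Finset.mul_sum, ← Finset.sum_add_distrib, hu1, ht9]
    refine Finset.sum_congr rfl fun a _ => Finset.sum_congr rfl fun b _ =>
      Finset.sum_congr rfl fun k _ => Finset.sum_congr rfl fun l _ => ?_
    ring
  have s2 : Q4 t2 = Q4 t4 := by
    rw [Q4_s1 t2]
    refine congrArg Q4 ?_
    funext a b k l
    simp only [ht2, ht4]
    rw [hS b a]
  have s7 : Q4 t7 = Q4 t4 := by
    rw [Q4_s2 t7]
    refine congrArg Q4 ?_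
    funext a b k l
    simp only [ht7, ht4]
    rw [hd a l k]; ring
  have s3 : Q4 t3 = Q4 t4 := by
    rw [← s7, Q4_s1 t3]
    refine congrArg Q4 ?_
    funext a b k l
    simp only [ht3, ht7]
    rw [hS b a]
  have s5 : Q4 t5 = Q4 t9 := by
    rw [Q4_s2 t5]
    refine congrArg Q4 ?_
    funext a b k l
    simp only [ht5, ht9]
    rw [hS l k]; ring
  have s6 : Q4 t6 = Q4 t8 := by
    rw [Q4_s1 t6]
    refine congrArg Q4 ?_
    funext a b k l
    simp only [ht6, ht8]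
    rw [hS b a]
  have e3 : Q4 (fun a b k l => S a b * S k l * H a k * H b l +
      2 * (S a b * dS a k l * H b k * w l) + 1 / 2 * (S a b * ddS a b k l * w k * w l) +
      -1 * (S k l * dS l a b * w k * H a b)) =
      Q4 t8 + 2 * Q4 t4 + 1 / 2 * Q4 t1 + -1 * Q4 u1 := by
    rw [← Q4_cmul, ← Q4_cmul, ← Q4_cmul, ← Q4_add, ← Q4_add, ← Q4_add]
  rw [e1, e2, e3, s2, s3, s5, s6, s7]
  ring

end alg

section g2

variable {E ι κ : Type*} [NormedAddCommGroup E] [NormedSpace ℝ E] [Fintype ι] [Fintype κ]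
  {σ : Sl E ι} {τ : Sl E κ} {U : Set E} {θ θ' : E → ℝ} {W f g h : E → ℝ} {z : E}

omit [Fintype ι] in
/-- The derivations of a slot with the scale `1` commute. -/
theorem DD_comm (hU : IsOpen U) (h1 : ∀ z, σ.ρ z = 1) (hf : Sm U f) (i j : ι) (hz : z ∈ U) :
    σ.D i (σ.D j f) z = σ.D j (σ.D i f) z := by
  have hρ : σ.ρ = fun _ => 1 := funext h1
  have h := D_D (σ := σ) hU (by rw [hρ]; exact contDiffOn_const) hf i j hz
  have hη : ∀ i, σ.η i z = 0 := fun i => by simp [Sl.η, hρ]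
  rw [hη, hη] at h
  linarith

theorem L_eq0 (h0 : ∀ i z, σ.k i z = 0) (f : E → ℝ) (z : E) :
    σ.Λ f z = (∑ i, ∑ j, σ.s i j z * σ.D i (σ.D j f) z) + ∑ j, σ.dv j z * σ.D j f z := by
  rw [L_split]
  congr 1
  exact Finset.sum_congr rfl fun i _ => Finset.sum_congr rfl fun j _ => by
    rw [h0, zero_mul, add_zero]

omit [Fintype κ] in
/-- The derivative of `Λ W`. -/
theorem D_L (ok : σ.Ok U θ) (h0 : ∀ i z, σ.k i z = 0) (hW : Sm U W) (τ : Sl E κ) (l : κ)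
    (hz : z ∈ U) : τ.D l (σ.Λ W) z =
      (∑ a, ∑ b, (τ.D l (σ.s a b) z * σ.D a (σ.D b W) z +
        σ.s a b z * τ.D l (σ.D a (σ.D b W)) z)) +
      ∑ j, (τ.D l (σ.dv j) z * σ.D j W z + σ.dv j z * τ.D l (σ.D j W) z) := by
  have hU := ok.op
  have s1 : ∀ a b, Sm U fun z => σ.s a b z * σ.D a (σ.D b W) z := fun a b =>
    (ok.ss a b).mul (ok.sD (ok.sD hW b) a)
  have s2 : ∀ j, Sm U fun z => σ.dv j z * σ.D j W z := fun j => (ok.sdv j).mul (ok.sD hW j)
  rw [D_congr τ hU (fun z _ => L_eq0 h0 W z) l hz,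
    D_add τ hU (Sm.sum _ fun k _ => Sm.sum _ fun l _ => s1 k l) (Sm.sum _ fun j _ => s2 j) l hz,
    D_sum τ hU _ (fun k _ => Sm.sum _ fun l _ => s1 k l) l hz,
    D_sum τ hU _ (fun j _ => s2 j) l hz]
  congr 1
  · refine Finset.sum_congr rfl fun a _ => ?_
    rw [D_sum τ hU _ (fun b _ => s1 a b) l hz]
    refine Finset.sum_congr rfl fun b _ => ?_
    rw [D_mul τ hU (ok.ss a b) (ok.sD (ok.sD hW b) a) l hz]
  · exact Finset.sum_congr rfl fun j _ => D_mul τ hU (ok.sdv j) (ok.sD hW j) l hz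

/-- Algebra of the divergence terms. -/
theorem dv_alg (S H dd : ι → ι → ℝ) (dS : ι → ι → ι → ℝ) (w d : ι → ℝ)
    (hS : ∀ i j, S i j = S j i) (hH : ∀ i j, H i j = H j i) :
    1 / 2 * (∑ j, d j * ∑ k, ∑ l, (dS j k l * w k * w l + S k l * H j k * w l +
      S k l * w k * H j l)) - ∑ k, ∑ l, S k l * w k * ∑ j, (dd l j * w j + d j * H l j) =
    ∑ j, ∑ k, ∑ l, (1 / 2 * (d j * dS j k l * w k * w l) - S k l * dd l j * w k * w j) := by
  have e1 : ∀ j, ∑ k, ∑ l, S k l * H j k * w l = ∑ k, ∑ l, S k l * w k * H j l := by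
    intro j
    rw [Finset.sum_comm]
    exact Finset.sum_congr rfl fun k _ => Finset.sum_congr rfl fun l _ => by rw [hS l k]; ring
  have e2 : ∑ k, ∑ l, S k l * w k * ∑ j, (dd l j * w j + d j * H l j) =
      ∑ j, ∑ k, ∑ l, (S k l * dd l j * w k * w j + d j * (S k l * w k * H j l)) := by
    have h : ∀ k, (∑ l, S k l * w k * ∑ j, (dd l j * w j + d j * H l j)) =
        ∑ j, ∑ l, (S k l * dd l j * w k * w j + d j * (S k l * w k * H j l)) := by
      intro k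
      rw [Finset.sum_comm]
      refine Finset.sum_congr rfl fun l _ => ?_
      rw [Finset.mul_sum]
      exact Finset.sum_congr rfl fun j _ => by rw [hH l j]; ring
    rw [Finset.sum_congr rfl fun k _ => h k, Finset.sum_comm]
  rw [e2, Finset.mul_sum, ← Finset.sum_sub_distrib]
  refine Finset.sum_congr rfl fun j _ => ?_
  simp only [Finset.sum_add_distrib, Finset.sum_sub_distrib, e1 j, Finset.mul_sum]
  have e3 : ∀ x y u : ℝ, 1 / 2 * (d j * (x + y + y)) - (u + d j * y) = 1 / 2 * (d j * x) - u := by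
    intro x y u; ring
  have := e3 (∑ k, ∑ l, dS j k l * w k * w l) (∑ k, ∑ l, S k l * w k * H j l)
    (∑ k, ∑ l, S k l * dd l j * w k * w j)
  simp only [Finset.mul_sum] at this
  rw [this]
  congr 1
  exact Finset.sum_congr rfl fun k _ => Finset.sum_congr rfl fun l _ => by ring

/-- The divergence part of `Γ₂`. -/
def G2d (σ : Sl E ι) (W : E → ℝ) (z : E) : ℝ := ∑ j, ∑ k, ∑ l,
  (1 / 2 * (σ.dv j z * σ.D j (σ.s k l) z * σ.D k W z * σ.D l W z) -
    σ.s k l z * σ.D l (σ.dv j) z * σ.D k W z * σ.D j W z)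

/-- **The exact formula for `Γ₂`.** -/
theorem G2_eq (ok : σ.Ok U θ) (h1 : ∀ z, σ.ρ z = 1) (h0 : ∀ i z, σ.k i z = 0) (hW : Sm U W)
    (hz : z ∈ U) : G2 σ W z =
      (Q4 fun a b k l => σ.s a b z * σ.s k l z * σ.D a (σ.D k W) z * σ.D b (σ.D l W) z +
        2 * (σ.s a b z * σ.D a (σ.s k l) z * σ.D b (σ.D k W) z * σ.D l W z) +
        1 / 2 * (σ.s a b z * σ.D a (σ.D b (σ.s k l)) z * σ.D k W z * σ.D l W z) +
        -1 * (σ.s k l z * σ.D l (σ.s a b) z * σ.D k W z * σ.D a (σ.D b W) z)) + G2d σ W z := by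
  have hU := ok.op
  have hd : ∀ j a b, σ.D j (σ.s a b) z = σ.D j (σ.s b a) z := by
    intro j a b
    have : σ.s a b = σ.s b a := funext fun z => ok.sy a b z
    rw [this]
  have e1 : ∀ a b, σ.D a (σ.D b (σ.F W)) z = ∑ k, ∑ l,
      ((σ.D a (σ.D b (σ.s k l)) z * σ.D k W z * σ.D l W z +
        σ.D b (σ.s k l) z * σ.D a (σ.D k W) z * σ.D l W z +
        σ.D b (σ.s k l) z * σ.D k W z * σ.D a (σ.D l W) z) +
      (σ.D a (σ.s k l) z * σ.D b (σ.D k W) z * σ.D l W z +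
        σ.s k l z * σ.D a (σ.D b (σ.D k W)) z * σ.D l W z +
        σ.s k l z * σ.D b (σ.D k W) z * σ.D a (σ.D l W) z) +
      (σ.D a (σ.s k l) z * σ.D k W z * σ.D b (σ.D l W) z +
        σ.s k l z * σ.D a (σ.D k W) z * σ.D b (σ.D l W) z +
        σ.s k l z * σ.D k W z * σ.D a (σ.D b (σ.D l W)) z)) := by
    intro a b
    have m1 : ∀ k l, Sm U fun z => σ.D b (σ.s k l) z * σ.D k W z * σ.D l W z := fun k l =>
      ((ok.sD (ok.ss k l) b).mul (ok.sD hW k)).mul (ok.sD hW l)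
    have m2 : ∀ k l, Sm U fun z => σ.s k l z * σ.D b (σ.D k W) z * σ.D l W z := fun k l =>
      ((ok.ss k l).mul (ok.sD (ok.sD hW k) b)).mul (ok.sD hW l)
    have m3 : ∀ k l, Sm U fun z => σ.s k l z * σ.D k W z * σ.D b (σ.D l W) z := fun k l =>
      ((ok.ss k l).mul (ok.sD hW k)).mul (ok.sD (ok.sD hW l) b)
    have hc := D_congr σ hU (f := σ.D b (σ.F W)) (fun z hz => D_G' ok hW hW b hz) a hz
    rw [hc, D_sum σ hU _ (fun k _ => Sm.sum _ fun l _ => ((m1 k l).add (m2 k l)).add (m3 k l)) a hz]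
    refine Finset.sum_congr rfl fun k _ => ?_
    rw [D_sum σ hU _ (fun l _ => ((m1 k l).add (m2 k l)).add (m3 k l)) a hz]
    refine Finset.sum_congr rfl fun l _ => ?_
    rw [D_add σ hU ((m1 k l).add (m2 k l)) (m3 k l) a hz, D_add σ hU (m1 k l) (m2 k l) a hz,
      D_mul σ hU ((ok.sD (ok.ss k l) b).mul (ok.sD hW k)) (ok.sD hW l) a hz,
      D_mul σ hU (ok.sD (ok.ss k l) b) (ok.sD hW k) a hz,
      D_mul σ hU ((ok.ss k l).mul (ok.sD (ok.sD hW k) b)) (ok.sD hW l) a hz,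
      D_mul σ hU (ok.ss k l) (ok.sD (ok.sD hW k) b) a hz,
      D_mul σ hU ((ok.ss k l).mul (ok.sD hW k)) (ok.sD (ok.sD hW l) b) a hz,
      D_mul σ hU (ok.ss k l) (ok.sD hW k) a hz]
    ring
  have e2 : ∀ l, σ.D l (σ.Λ W) z = (∑ a, ∑ b, (σ.D l (σ.s a b) z * σ.D a (σ.D b W) z +
      σ.s a b z * σ.D a (σ.D b (σ.D l W)) z)) +
      ∑ j, (σ.D l (σ.dv j) z * σ.D j W z + σ.dv j z * σ.D l (σ.D j W) z) := by
    intro l
    rw [D_L ok h0 hW σ l hz]
    congr 1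
    refine Finset.sum_congr rfl fun a _ => Finset.sum_congr rfl fun b _ => ?_
    rw [DD_comm hU h1 (ok.sD hW b) l a hz,
      D_congr σ hU (fun z hz => DD_comm hU h1 hW l b hz) a hz]
  have key := G2_alg (fun a b => σ.s a b z) (fun a b => σ.D a (σ.D b W) z)
    (fun j a b => σ.D j (σ.s a b) z) (fun a b l => σ.D a (σ.D b (σ.D l W)) z)
    (fun a b k l => σ.D a (σ.D b (σ.s k l)) z) (fun k => σ.D k W z)
    (fun a b => ok.sy a b z) hd
  have key2 := dv_alg (fun a b => σ.s a b z) (fun a b => σ.D a (σ.D b W) z)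
    (fun l j => σ.D l (σ.dv j) z) (fun j a b => σ.D j (σ.s a b) z) (fun k => σ.D k W z)
    (fun j => σ.dv j z) (fun a b => ok.sy a b z) (fun a b => DD_comm hU h1 hW a b hz)
  unfold G2d
  rw [← key, ← key2]
  unfold G2
  rw [L_eq0 h0]
  have e3 : ∀ j, σ.D j (σ.F W) z = ∑ k, ∑ l, (σ.D j (σ.s k l) z * σ.D k W z * σ.D l W z +
      σ.s k l z * σ.D j (σ.D k W) z * σ.D l W z + σ.s k l z * σ.D k W z * σ.D j (σ.D l W) z) :=
    fun j => D_G' ok hW hW j hz
  have e4 : σ.Γ W (σ.Λ W) z = (∑ k, ∑ l, σ.s k l z * σ.D k W z *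
      ∑ a, ∑ b, (σ.D l (σ.s a b) z * σ.D a (σ.D b W) z +
        σ.s a b z * σ.D a (σ.D b (σ.D l W)) z)) +
      ∑ k, ∑ l, σ.s k l z * σ.D k W z *
        ∑ j, (σ.D l (σ.dv j) z * σ.D j W z + σ.dv j z * σ.D l (σ.D j W) z) := by
    unfold Sl.Γ
    simp only [e2, mul_add, Finset.sum_add_distrib]
  rw [e4]
  simp only [e1, e3]
  ring

/-- The bound for the divergence part of `Γ₂`. -/
theorem G2d_bd (ok : σ.Ok U θ) (hz : z ∈ U) {S δ₁ δ₂ w₁ : ℝ} (bS : ∀ i j, |σ.s i j z| ≤ S)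
    (b1 : ∀ l i j, |σ.D l (σ.s i j) z| ≤ δ₁) (b2 : ∀ l k i j, |σ.D l (σ.D k (σ.s i j)) z| ≤ δ₂)
    (c1 : ∀ i, |σ.D i W z| ≤ w₁) :
    |G2d σ W z| ≤ Fintype.card ι ^ 4 * (1 / 2 * δ₁ ^ 2 * w₁ ^ 2 + S * δ₂ * w₁ ^ 2) := by
  have hU := ok.op
  have d1 : ∀ j, |σ.dv j z| ≤ Fintype.card ι * δ₁ := fun j => sm_abs _ _ fun i => b1 i i j
  have d2 : ∀ l j, |σ.D l (σ.dv j) z| ≤ Fintype.card ι * δ₂ := fun l j => by
    have e : σ.D l (σ.dv j) z = ∑ i, σ.D l (σ.D i (σ.s i j)) z :=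
      D_sum σ hU _ (fun i _ => ok.sD (ok.ss i j) i) l hz
    rw [e]
    exact sm_abs _ _ fun i => b2 l i i j
  have h : |G2d σ W z| ≤ Fintype.card ι * (Fintype.card ι * (Fintype.card ι *
      (1 / 2 * ((Fintype.card ι * δ₁) * δ₁ * w₁ * w₁) +
        S * (Fintype.card ι * δ₂) * w₁ * w₁))) := by
    refine sm_abs _ _ fun j => sm_abs _ _ fun k => sm_abs _ _ fun l => ?_
    have hS := (abs_nonneg _).trans (bS j j)
    have hd1 := (abs_nonneg _).trans (b1 j j j)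
    have hd2 := (abs_nonneg _).trans (b2 j j j j)
    have hw1 := (abs_nonneg _).trans (c1 j)
    have hc : (0 : ℝ) ≤ Fintype.card ι := Nat.cast_nonneg _
    refine (abs_sub _ _).trans (add_le_add ?_ ?_)
    · rw [abs_mul, abs_of_pos (by norm_num : (0 : ℝ) < 1 / 2), abs_mul, abs_mul, abs_mul]
      gcongr
      · exact d1 j
      · exact b1 j k l
      · exact c1 k
      · exact c1 l
    · rw [abs_mul, abs_mul, abs_mul]
      gcongr
      · exact bS k l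
      · exact d2 l j
      · exact c1 k
      · exact c1 j
  refine h.trans (le_of_eq ?_)
  ring

/-- The bound for `Γ₂`. -/
theorem G2_bd (ok : σ.Ok U θ) (h1 : ∀ z, σ.ρ z = 1) (h0 : ∀ i z, σ.k i z = 0) (hW : Sm U W)
    (hz : z ∈ U) {S δ₁ δ₂ w₁ w₂ : ℝ} (bS : ∀ i j, |σ.s i j z| ≤ S)
    (b1 : ∀ l i j, |σ.D l (σ.s i j) z| ≤ δ₁) (b2 : ∀ l k i j, |σ.D l (σ.D k (σ.s i j)) z| ≤ δ₂)
    (c1 : ∀ i, |σ.D i W z| ≤ w₁) (c2 : ∀ i j, |σ.D i (σ.D j W) z| ≤ w₂) :
    |G2 σ W z| ≤ Fintype.card ι ^ 4 * (S ^ 2 * w₂ ^ 2 + 3 * (S * δ₁ * w₁ * w₂) +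
      1 / 2 * (S * δ₂ * w₁ ^ 2)) +
      Fintype.card ι ^ 4 * (1 / 2 * δ₁ ^ 2 * w₁ ^ 2 + S * δ₂ * w₁ ^ 2) := by
  rw [G2_eq ok h1 h0 hW hz]
  refine (abs_add_le _ _).trans (add_le_add ?_ (G2d_bd ok hz bS b1 b2 c1))
  refine Q4_abs fun a b k l => ?_
  have hS := (abs_nonneg _).trans (bS a a)
  have hd1 := (abs_nonneg _).trans (b1 a a a)
  have hd2 := (abs_nonneg _).trans (b2 a a a a)
  have hw1 := (abs_nonneg _).trans (c1 a)
  have hw2 := (abs_nonneg _).trans (c2 a a)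
  have q1 : |σ.s a b z * σ.s k l z * σ.D a (σ.D k W) z * σ.D b (σ.D l W) z| ≤ S * S * w₂ * w₂ := by
    rw [abs_mul, abs_mul, abs_mul]
    gcongr
    · exact bS a b
    · exact bS k l
    · exact c2 a k
    · exact c2 b l
  have q2 : |σ.s a b z * σ.D a (σ.s k l) z * σ.D b (σ.D k W) z * σ.D l W z| ≤
      S * δ₁ * w₂ * w₁ := by
    rw [abs_mul, abs_mul, abs_mul]
    gcongr
    · exact bS a b
    · exact b1 a k l
    · exact c2 b k
    · exact c1 l
  have q3 : |σ.s a b z * σ.D a (σ.D b (σ.s k l)) z * σ.D k W z * σ.D l W z| ≤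
      S * δ₂ * w₁ * w₁ := by
    rw [abs_mul, abs_mul, abs_mul]
    gcongr
    · exact bS a b
    · exact b2 a b k l
    · exact c1 k
    · exact c1 l
  have q4 : |σ.s k l z * σ.D l (σ.s a b) z * σ.D k W z * σ.D a (σ.D b W) z| ≤
      S * δ₁ * w₁ * w₂ := by
    rw [abs_mul, abs_mul, abs_mul]
    gcongr
    · exact bS k l
    · exact b1 l a b
    · exact c1 k
    · exact c2 a b
  refine (abs_add_le _ _).trans ?_
  refine (add_le_add ((abs_add_le _ _).trans (add_le_add (abs_add_le _ _) le_rfl)) le_rfl).trans ?_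
  rw [abs_mul 2, abs_mul (1 / 2), abs_mul (-1), abs_two, abs_neg, abs_one,
    abs_of_pos (by norm_num : (0 : ℝ) < 1 / 2)]
  nlinarith [q1, q2, q3, q4]

/-- The bound for the mixed term. -/
theorem M2_bd {S S' w : ℝ} (bS : ∀ i j, |σ.s i j z| ≤ S) (bS' : ∀ i j, |τ.s i j z| ≤ S')
    (c2 : ∀ i k, |σ.D i (τ.D k W) z| ≤ w) :
    |M2 σ τ W W z| ≤ Fintype.card κ ^ 2 * (Fintype.card ι ^ 2 * (S' * S * w ^ 2)) := by
  have h1 : ∀ k l, |τ.s k l z * σ.Γ (τ.D k W) (τ.D l W) z| ≤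
      Fintype.card ι * (Fintype.card ι * (S' * S * w ^ 2)) := by
    intro k l
    unfold Sl.Γ
    simp only [Finset.mul_sum]
    refine sm_abs _ _ fun i => sm_abs _ _ fun j => ?_
    have a1 := bS' k l
    have a2 := bS i j
    have a3 := c2 i k
    have a4 := c2 j l
    have hS := (abs_nonneg _).trans a2
    have hS' := (abs_nonneg _).trans a1
    have hw := (abs_nonneg _).trans a3
    rw [abs_mul, abs_mul, abs_mul]
    calc |τ.s k l z| * (|σ.s i j z| * |σ.D i (τ.D k W) z| * |σ.D j (τ.D l W) z|) ≤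
        S' * (S * w * w) := by gcongr
      _ = S' * S * w ^ 2 := by ring
  have h2 : |M2 σ τ W W z| ≤ Fintype.card κ * (Fintype.card κ *
      (Fintype.card ι * (Fintype.card ι * (S' * S * w ^ 2)))) :=
    sm_abs _ _ fun k => sm_abs _ _ fun l => h1 k l
  refine h2.trans (le_of_eq ?_)
  ring

end g2

end Vale.Agent.P088.R2.H644.Ch
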