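import Vale.Agent.P088.R2.H961.W.Exp

/-!
# P088: chain rules for the derivations, `Γ`, `Λ` and the Hessian tensor

In the slot language of helper961: the Hessian tensor on pairs of covectors
`TH W U V = ∑ Hc U_i U_l + 2 ∑ Mc U_i V_k + ∑ Hc V_k V_m`, its behaviour under sums, products and
compositions, `TH (e^φ) = e^φ ((φ_x U + φ_y V)² + TH φ)`.
-/

open Set Filter
open scoped ContDiff Topology

noncomputable section

namespace Vale.Agent.P088.R2.H644.Ch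

open Vale.Agent.P088.R2.H961.GW

variable {E ι κ : Type*} [NormedAddCommGroup E] [NormedSpace ℝ E] [Fintype ι] [Fintype κ]

/-- The gradient `∑ s_ij D_j f`. -/
def Gr (σ : Sl E ι) (f : E → ℝ) (i : ι) (z : E) : ℝ := ∑ j, σ.s i j z * σ.D j f z

/-- The mixed Hessian tensor. -/
def Mc (σ : Sl E ι) (τ : Sl E κ) (W : E → ℝ) (i : ι) (k : κ) (z : E) : ℝ :=
  ∑ j, ∑ l, σ.s i j z * τ.s k l z * σ.D j (τ.D l W) z

/-- The Hessian form on pairs of covectors. -/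
def TH (σ : Sl E ι) (τ : Sl E κ) (W : E → ℝ) (z : E) (A : ι → ℝ) (B : κ → ℝ) : ℝ :=
  (∑ i, ∑ l, σ.Hc W i l z * A i * A l) + 2 * (∑ i, ∑ k, Mc σ τ W i k z * A i * B k) +
    ∑ k, ∑ m, τ.Hc W k m z * B k * B m

/-- The composition `Ψ ∘ u`. -/
structure Cp (U : Set E) (u : E → ℝ) (Ψ Ψ₁ Ψ₂ : ℝ → ℝ) : Prop where
  su : Sm U u
  s0 : Sm U fun z => Ψ (u z)
  s1 : Sm U fun z => Ψ₁ (u z)
  d1 : ∀ z ∈ U, HasDerivAt Ψ (Ψ₁ (u z)) (u z)
  d2 : ∀ z ∈ U, HasDerivAt Ψ₁ (Ψ₂ (u z)) (u z)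

theorem Cp.of {U : Set E} {u : E → ℝ} {Ψ Ψ₁ Ψ₂ : ℝ → ℝ} (hu : Sm U u) (s0 : ContDiff ℝ ∞ Ψ)
    (s1 : ContDiff ℝ ∞ Ψ₁) (d1 : ∀ t, HasDerivAt Ψ (Ψ₁ t) t) (d2 : ∀ t, HasDerivAt Ψ₁ (Ψ₂ t) t) :
    Cp U u Ψ Ψ₁ Ψ₂ where
  su := hu
  s0 := s0.comp_contDiffOn hu
  s1 := s1.comp_contDiffOn hu
  d1 := fun z _ => d1 (u z)
  d2 := fun z _ => d2 (u z)

theorem Cp.exp {U : Set E} {u : E → ℝ} (hu : Sm U u) : Cp U u Real.exp Real.exp Real.exp :=
  Cp.of hu Real.contDiff_exp Real.contDiff_exp Real.hasDerivAt_exp Real.hasDerivAt_exp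

section pw

variable {σ : Sl E ι} {τ : Sl E κ} {U : Set E} {θ θ' : E → ℝ} {u W f g h : E → ℝ}
  {Ψ Ψ₁ Ψ₂ : ℝ → ℝ} {z : E}

omit [Fintype ι] in
theorem D_comp (hU : IsOpen U) (c : Cp U u Ψ Ψ₁ Ψ₂) (i : ι) (hz : z ∈ U) :
    σ.D i (fun z => Ψ (u z)) z = Ψ₁ (u z) * σ.D i u z := by
  simp only [Sl.D]
  have h1 : HasFDerivAt (fun z => Ψ (u z)) (Ψ₁ (u z) • fderiv ℝ u z) z :=
    (c.d1 z hz).comp_hasFDerivAt z (c.su.diff hU hz).hasFDerivAt
  rw [h1.fderiv]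
  simp only [_root_.smul_apply, smul_eq_mul]; ring

omit [Fintype ι] in
theorem D_comp1 (hU : IsOpen U) (c : Cp U u Ψ Ψ₁ Ψ₂) (i : ι) (hz : z ∈ U) :
    σ.D i (fun z => Ψ₁ (u z)) z = Ψ₂ (u z) * σ.D i u z := by
  simp only [Sl.D]
  have h1 : HasFDerivAt (fun z => Ψ₁ (u z)) (Ψ₂ (u z) • fderiv ℝ u z) z :=
    (c.d2 z hz).comp_hasFDerivAt z (c.su.diff hU hz).hasFDerivAt
  rw [h1.fderiv]
  simp only [_root_.smul_apply, smul_eq_mul]; ring

theorem DD_comp (ok : σ.Ok U θ) (ot : τ.Ok U θ') (c : Cp U u Ψ Ψ₁ Ψ₂) (i : ι) (k : κ)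
    (hz : z ∈ U) : σ.D i (τ.D k (fun z => Ψ (u z))) z =
      Ψ₁ (u z) * σ.D i (τ.D k u) z + Ψ₂ (u z) * σ.D i u z * τ.D k u z := by
  rw [D_congr σ ok.op (fun z hz => D_comp ot.op c k hz) i hz,
    D_mul σ ok.op c.s1 (ot.sD c.su k) i hz, D_comp1 ok.op c i hz]
  ring

theorem DD_mul (ok : σ.Ok U θ) (ot : τ.Ok U θ') (hf : Sm U f) (hg : Sm U g) (i : ι) (k : κ)
    (hz : z ∈ U) : σ.D i (τ.D k (fun z => f z * g z)) z =
      f z * σ.D i (τ.D k g) z + g z * σ.D i (τ.D k f) z + σ.D i f z * τ.D k g z +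
        σ.D i g z * τ.D k f z := by
  rw [D_congr σ ok.op (fun z hz => D_mul τ ot.op hf hg k hz) i hz,
    D_add σ ok.op ((ot.sD hf k).mul hg) (hf.mul (ot.sD hg k)) i hz,
    D_mul σ ok.op (ot.sD hf k) hg i hz, D_mul σ ok.op hf (ot.sD hg k) i hz]
  ring

theorem DD_add (ok : σ.Ok U θ) (ot : τ.Ok U θ') (hf : Sm U f) (hg : Sm U g) (i : ι) (k : κ)
    (hz : z ∈ U) : σ.D i (τ.D k (fun z => f z + g z)) z =
      σ.D i (τ.D k f) z + σ.D i (τ.D k g) z := by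
  rw [D_congr σ ok.op (fun z hz => D_add τ ot.op hf hg k hz) i hz,
    D_add σ ok.op (ot.sD hf k) (ot.sD hg k) i hz]

theorem DD_cmul (ok : σ.Ok U θ) (ot : τ.Ok U θ') (a : ℝ) (hg : Sm U g) (i : ι) (k : κ)
    (hz : z ∈ U) : σ.D i (τ.D k (fun z => a * g z)) z = a * σ.D i (τ.D k g) z := by
  rw [D_congr σ ok.op (fun z hz => D_cmul τ ot.op a hg k hz) i hz,
    D_cmul σ ok.op a (ot.sD hg k) i hz]

theorem G_comp (ok : σ.Ok U θ) (f : E → ℝ) (c : Cp U u Ψ Ψ₁ Ψ₂) (hz : z ∈ U) :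
    σ.Γ f (fun z => Ψ (u z)) z = Ψ₁ (u z) * σ.Γ f u z := by
  unfold Sl.Γ
  simp only [Finset.mul_sum]
  refine Finset.sum_congr rfl fun i _ => Finset.sum_congr rfl fun j _ => ?_
  rw [D_comp ok.op c j hz]; ring

theorem L_comp (ok : σ.Ok U θ) (c : Cp U u Ψ Ψ₁ Ψ₂) (hz : z ∈ U) :
    σ.Λ (fun z => Ψ (u z)) z = Ψ₁ (u z) * σ.Λ u z + Ψ₂ (u z) * σ.Γ u u z := by
  unfold Sl.Λ Sl.Γ
  simp only [Finset.mul_sum, ← Finset.sum_add_distrib]
  refine Finset.sum_congr rfl fun i _ => Finset.sum_congr rfl fun j _ => ?_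
  rw [DD_comp ok ok c i j hz, D_comp ok.op c j hz]
  ring

theorem Gr_comp (ok : σ.Ok U θ) (c : Cp U u Ψ Ψ₁ Ψ₂) (i : ι) (hz : z ∈ U) :
    Gr σ (fun z => Ψ (u z)) i z = Ψ₁ (u z) * Gr σ u i z := by
  unfold Gr
  simp only [Finset.mul_sum]
  refine Finset.sum_congr rfl fun j _ => ?_
  rw [D_comp ok.op c j hz]; ring

theorem Gr_add (ok : σ.Ok U θ) (hf : Sm U f) (hg : Sm U g) (i : ι) (hz : z ∈ U) :
    Gr σ (fun z => f z + g z) i z = Gr σ f i z + Gr σ g i z := by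
  unfold Gr
  simp only [← Finset.sum_add_distrib]
  refine Finset.sum_congr rfl fun j _ => ?_
  rw [D_add σ ok.op hf hg j hz]; ring

theorem Gr_mul (ok : σ.Ok U θ) (hf : Sm U f) (hg : Sm U g) (i : ι) (hz : z ∈ U) :
    Gr σ (fun z => f z * g z) i z = f z * Gr σ g i z + g z * Gr σ f i z := by
  unfold Gr
  simp only [Finset.mul_sum, ← Finset.sum_add_distrib]
  refine Finset.sum_congr rfl fun j _ => ?_
  rw [D_mul σ ok.op hf hg j hz]; ring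

theorem Gr_cmul (ok : σ.Ok U θ) (a : ℝ) (hg : Sm U g) (i : ι) (hz : z ∈ U) :
    Gr σ (fun z => a * g z) i z = a * Gr σ g i z := by
  unfold Gr
  simp only [Finset.mul_sum]
  refine Finset.sum_congr rfl fun j _ => ?_
  rw [D_cmul σ ok.op a hg j hz]; ring

/-! ## The Hessian tensor of one slot -/

theorem Gr_mul_Gr (ok : σ.Ok U θ) (f g : E → ℝ) (i l : ι) (z : E) :
    Gr σ f i z * Gr σ g l z = ∑ j, ∑ k, σ.s i j z * σ.s k l z * (σ.D j f z * σ.D k g z) := by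
  unfold Gr
  rw [Finset.sum_mul_sum]
  refine Finset.sum_congr rfl fun j _ => Finset.sum_congr rfl fun k _ => ?_
  rw [ok.sy l k]; ring

theorem Hc_comp (ok : σ.Ok U θ) (c : Cp U u Ψ Ψ₁ Ψ₂) (i l : ι) (hz : z ∈ U) :
    σ.Hc (fun z => Ψ (u z)) i l z =
      Ψ₁ (u z) * σ.Hc u i l z + Ψ₂ (u z) * (Gr σ u i z * Gr σ u l z) := by
  have e1 : ∀ k, σ.D k (fun z => Ψ (u z)) z = Ψ₁ (u z) * σ.D k u z := fun k =>
    D_comp ok.op c k hz
  have e2 : ∀ j k, σ.D j (σ.D k (fun z => Ψ (u z))) z =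
      Ψ₁ (u z) * σ.D j (σ.D k u) z + Ψ₂ (u z) * σ.D j u z * σ.D k u z := fun j k =>
    DD_comp ok ok c j k hz
  rw [Gr_mul_Gr ok]
  unfold Sl.Hc
  simp only [e1, e2, Finset.mul_sum, ← Finset.sum_add_distrib]
  refine Finset.sum_congr rfl fun j _ => Finset.sum_congr rfl fun k _ => ?_
  ring

theorem Hc_add (ok : σ.Ok U θ) (hf : Sm U f) (hg : Sm U g) (i l : ι) (hz : z ∈ U) :
    σ.Hc (fun z => f z + g z) i l z = σ.Hc f i l z + σ.Hc g i l z := by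
  have e1 : ∀ k, σ.D k (fun z => f z + g z) z = σ.D k f z + σ.D k g z := fun k =>
    D_add σ ok.op hf hg k hz
  have e2 : ∀ j k, σ.D j (σ.D k (fun z => f z + g z)) z =
      σ.D j (σ.D k f) z + σ.D j (σ.D k g) z := fun j k => DD_add ok ok hf hg j k hz
  unfold Sl.Hc
  simp only [e1, e2, Finset.mul_sum, ← Finset.sum_add_distrib]
  refine Finset.sum_congr rfl fun j _ => Finset.sum_congr rfl fun k _ => ?_
  ring

theorem Hc_cmul (ok : σ.Ok U θ) (a : ℝ) (hg : Sm U g) (i l : ι) (hz : z ∈ U) :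
    σ.Hc (fun z => a * g z) i l z = a * σ.Hc g i l z := by
  have e1 : ∀ k, σ.D k (fun z => a * g z) z = a * σ.D k g z := fun k =>
    D_cmul σ ok.op a hg k hz
  have e2 : ∀ j k, σ.D j (σ.D k (fun z => a * g z)) z = a * σ.D j (σ.D k g) z := fun j k =>
    DD_cmul ok ok a hg j k hz
  unfold Sl.Hc
  simp only [e1, e2, Finset.mul_sum]
  refine Finset.sum_congr rfl fun j _ => Finset.sum_congr rfl fun k _ => ?_
  ring

theorem Hc_mul (ok : σ.Ok U θ) (hf : Sm U f) (hg : Sm U g) (i l : ι) (hz : z ∈ U) :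
    σ.Hc (fun z => f z * g z) i l z = f z * σ.Hc g i l z + g z * σ.Hc f i l z +
      Gr σ f i z * Gr σ g l z + Gr σ g i z * Gr σ f l z := by
  have e1 : ∀ k, σ.D k (fun z => f z * g z) z = σ.D k f z * g z + f z * σ.D k g z := fun k =>
    D_mul σ ok.op hf hg k hz
  have e2 : ∀ j k, σ.D j (σ.D k (fun z => f z * g z)) z =
      f z * σ.D j (σ.D k g) z + g z * σ.D j (σ.D k f) z + σ.D j f z * σ.D k g z +
        σ.D j g z * σ.D k f z := fun j k => DD_mul ok ok hf hg j k hz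
  rw [Gr_mul_Gr ok, Gr_mul_Gr ok]
  unfold Sl.Hc
  simp only [e1, e2, Finset.mul_sum, ← Finset.sum_add_distrib]
  refine Finset.sum_congr rfl fun j _ => Finset.sum_congr rfl fun k _ => ?_
  ring

/-! ## The mixed tensor -/

theorem Gr_mul_Gr' (σ : Sl E ι) (τ : Sl E κ) (f g : E → ℝ) (i : ι) (k : κ) (z : E) :
    Gr σ f i z * Gr τ g k z = ∑ j, ∑ l, σ.s i j z * τ.s k l z * (σ.D j f z * τ.D l g z) := by
  unfold Gr
  rw [Finset.sum_mul_sum]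
  refine Finset.sum_congr rfl fun j _ => Finset.sum_congr rfl fun k _ => ?_
  ring

theorem Mc_comp (ok : σ.Ok U θ) (ot : τ.Ok U θ') (c : Cp U u Ψ Ψ₁ Ψ₂) (i : ι) (k : κ)
    (hz : z ∈ U) : Mc σ τ (fun z => Ψ (u z)) i k z =
      Ψ₁ (u z) * Mc σ τ u i k z + Ψ₂ (u z) * (Gr σ u i z * Gr τ u k z) := by
  have e2 : ∀ j k, σ.D j (τ.D k (fun z => Ψ (u z))) z =
      Ψ₁ (u z) * σ.D j (τ.D k u) z + Ψ₂ (u z) * σ.D j u z * τ.D k u z := fun j k =>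
    DD_comp ok ot c j k hz
  rw [Gr_mul_Gr']
  unfold Mc
  simp only [e2, Finset.mul_sum, ← Finset.sum_add_distrib]
  refine Finset.sum_congr rfl fun j _ => Finset.sum_congr rfl fun k _ => ?_
  ring

theorem Mc_add (ok : σ.Ok U θ) (ot : τ.Ok U θ') (hf : Sm U f) (hg : Sm U g) (i : ι) (k : κ)
    (hz : z ∈ U) : Mc σ τ (fun z => f z + g z) i k z = Mc σ τ f i k z + Mc σ τ g i k z := by
  have e2 : ∀ j k, σ.D j (τ.D k (fun z => f z + g z)) z =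
      σ.D j (τ.D k f) z + σ.D j (τ.D k g) z := fun j k => DD_add ok ot hf hg j k hz
  unfold Mc
  simp only [e2, ← Finset.sum_add_distrib]
  refine Finset.sum_congr rfl fun j _ => Finset.sum_congr rfl fun k _ => ?_
  ring

theorem Mc_cmul (ok : σ.Ok U θ) (ot : τ.Ok U θ') (a : ℝ) (hg : Sm U g) (i : ι) (k : κ)
    (hz : z ∈ U) : Mc σ τ (fun z => a * g z) i k z = a * Mc σ τ g i k z := by
  have e2 : ∀ j k, σ.D j (τ.D k (fun z => a * g z)) z = a * σ.D j (τ.D k g) z := fun j k =>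
    DD_cmul ok ot a hg j k hz
  unfold Mc
  simp only [e2, Finset.mul_sum]
  refine Finset.sum_congr rfl fun j _ => Finset.sum_congr rfl fun k _ => ?_
  ring

theorem Mc_mul (ok : σ.Ok U θ) (ot : τ.Ok U θ') (hf : Sm U f) (hg : Sm U g) (i : ι) (k : κ)
    (hz : z ∈ U) : Mc σ τ (fun z => f z * g z) i k z = f z * Mc σ τ g i k z +
      g z * Mc σ τ f i k z + Gr σ f i z * Gr τ g k z + Gr σ g i z * Gr τ f k z := by
  have e2 : ∀ j k, σ.D j (τ.D k (fun z => f z * g z)) z =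
      f z * σ.D j (τ.D k g) z + g z * σ.D j (τ.D k f) z + σ.D j f z * τ.D k g z +
        σ.D j g z * τ.D k f z := fun j k => DD_mul ok ot hf hg j k hz
  rw [Gr_mul_Gr', Gr_mul_Gr']
  unfold Mc
  simp only [e2, Finset.mul_sum, ← Finset.sum_add_distrib]
  refine Finset.sum_congr rfl fun j _ => Finset.sum_congr rfl fun k _ => ?_
  ring

/-! ## The form on pairs of covectors -/

/-- The pairing of the gradient of `f` and a pair of covectors. -/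
def GA (σ : Sl E ι) (τ : Sl E κ) (f : E → ℝ) (z : E) (A : ι → ℝ) (B : κ → ℝ) : ℝ :=
  (∑ i, Gr σ f i z * A i) + ∑ k, Gr τ f k z * B k

theorem GA_mul_GA (σ : Sl E ι) (τ : Sl E κ) (f g : E → ℝ) (z : E) (A : ι → ℝ) (B : κ → ℝ) :
    GA σ τ f z A B * GA σ τ g z A B =
      (∑ i, ∑ l, (Gr σ f i z * Gr σ g l z) * A i * A l) +
      (∑ i, ∑ k, (Gr σ f i z * Gr τ g k z + Gr σ g i z * Gr τ f k z) * A i * B k) +
      ∑ k, ∑ m, (Gr τ f k z * Gr τ g m z) * B k * B m := by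
  unfold GA
  rw [add_mul, mul_add, mul_add, Finset.sum_mul_sum, Finset.sum_mul_sum, Finset.sum_mul_sum,
    Finset.sum_mul_sum]
  rw [Finset.sum_comm (f := fun i j => Gr τ f i z * B i * (Gr σ g j z * A j))]
  have e1 : (∑ i, ∑ j, Gr σ f i z * A i * (Gr σ g j z * A j)) =
      ∑ i, ∑ l, (Gr σ f i z * Gr σ g l z) * A i * A l :=
    Finset.sum_congr rfl fun i _ => Finset.sum_congr rfl fun j _ => by ring
  have e2 : (∑ i, ∑ j, Gr τ f i z * B i * (Gr τ g j z * B j)) =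
      ∑ k, ∑ m, (Gr τ f k z * Gr τ g m z) * B k * B m :=
    Finset.sum_congr rfl fun i _ => Finset.sum_congr rfl fun j _ => by ring
  have e3 : (∑ i, ∑ k, (Gr σ f i z * Gr τ g k z + Gr σ g i z * Gr τ f k z) * A i * B k) =
      (∑ i, ∑ j, Gr σ f i z * A i * (Gr τ g j z * B j)) +
        ∑ i, ∑ j, Gr τ f j z * B j * (Gr σ g i z * A i) := by
    simp only [← Finset.sum_add_distrib]
    exact Finset.sum_congr rfl fun i _ => Finset.sum_congr rfl fun j _ => by ring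
  rw [e1, e2, e3]
  ring

theorem TH_comp (ok : σ.Ok U θ) (ot : τ.Ok U θ') (c : Cp U u Ψ Ψ₁ Ψ₂) (hz : z ∈ U)
    (A : ι → ℝ) (B : κ → ℝ) : TH σ τ (fun z => Ψ (u z)) z A B =
      Ψ₁ (u z) * TH σ τ u z A B + Ψ₂ (u z) * GA σ τ u z A B ^ 2 := by
  have e1 : ∀ i l, σ.Hc (fun z => Ψ (u z)) i l z = Ψ₁ (u z) * σ.Hc u i l z +
      Ψ₂ (u z) * (Gr σ u i z * Gr σ u l z) := fun i l => Hc_comp ok c i l hz
  have e2 : ∀ i l, τ.Hc (fun z => Ψ (u z)) i l z = Ψ₁ (u z) * τ.Hc u i l z +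
      Ψ₂ (u z) * (Gr τ u i z * Gr τ u l z) := fun i l => Hc_comp ot c i l hz
  have e3 : ∀ i k, Mc σ τ (fun z => Ψ (u z)) i k z = Ψ₁ (u z) * Mc σ τ u i k z +
      Ψ₂ (u z) * (Gr σ u i z * Gr τ u k z) := fun i k => Mc_comp ok ot c i k hz
  have e4 := GA_mul_GA σ τ u u z A B
  rw [sq, e4]
  unfold TH
  simp only [e1, e2, e3]
  have s1 : (∑ i, ∑ l, (Ψ₁ (u z) * σ.Hc u i l z + Ψ₂ (u z) * (Gr σ u i z * Gr σ u l z)) * A i *
      A l) = Ψ₁ (u z) * (∑ i, ∑ l, σ.Hc u i l z * A i * A l) +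
        Ψ₂ (u z) * ∑ i, ∑ l, (Gr σ u i z * Gr σ u l z) * A i * A l := by
    simp only [Finset.mul_sum, ← Finset.sum_add_distrib]
    exact Finset.sum_congr rfl fun i _ => Finset.sum_congr rfl fun j _ => by ring
  have s2 : (∑ i, ∑ l, (Ψ₁ (u z) * τ.Hc u i l z + Ψ₂ (u z) * (Gr τ u i z * Gr τ u l z)) * B i *
      B l) = Ψ₁ (u z) * (∑ i, ∑ l, τ.Hc u i l z * B i * B l) +
        Ψ₂ (u z) * ∑ i, ∑ l, (Gr τ u i z * Gr τ u l z) * B i * B l := by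
    simp only [Finset.mul_sum, ← Finset.sum_add_distrib]
    exact Finset.sum_congr rfl fun i _ => Finset.sum_congr rfl fun j _ => by ring
  have s3 : 2 * (∑ i, ∑ k, (Ψ₁ (u z) * Mc σ τ u i k z + Ψ₂ (u z) * (Gr σ u i z * Gr τ u k z)) *
      A i * B k) = Ψ₁ (u z) * (2 * ∑ i, ∑ k, Mc σ τ u i k z * A i * B k) +
        Ψ₂ (u z) * ∑ i, ∑ k, (Gr σ u i z * Gr τ u k z + Gr σ u i z * Gr τ u k z) * A i * B k := by
    simp only [Finset.mul_sum, ← Finset.sum_add_distrib]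
    exact Finset.sum_congr rfl fun i _ => Finset.sum_congr rfl fun j _ => by ring
  rw [s1, s2, s3]
  ring

theorem TH_add (ok : σ.Ok U θ) (ot : τ.Ok U θ') (hf : Sm U f) (hg : Sm U g) (hz : z ∈ U)
    (A : ι → ℝ) (B : κ → ℝ) : TH σ τ (fun z => f z + g z) z A B =
      TH σ τ f z A B + TH σ τ g z A B := by
  have e1 : ∀ i l, σ.Hc (fun z => f z + g z) i l z = σ.Hc f i l z + σ.Hc g i l z :=
    fun i l => Hc_add ok hf hg i l hz
  have e2 : ∀ i l, τ.Hc (fun z => f z + g z) i l z = τ.Hc f i l z + τ.Hc g i l z :=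
    fun i l => Hc_add ot hf hg i l hz
  have e3 : ∀ i k, Mc σ τ (fun z => f z + g z) i k z = Mc σ τ f i k z + Mc σ τ g i k z :=
    fun i k => Mc_add ok ot hf hg i k hz
  unfold TH
  simp only [e1, e2, e3, add_mul, Finset.sum_add_distrib, mul_add]
  ring

theorem TH_cmul (ok : σ.Ok U θ) (ot : τ.Ok U θ') (a : ℝ) (hg : Sm U g) (hz : z ∈ U)
    (A : ι → ℝ) (B : κ → ℝ) : TH σ τ (fun z => a * g z) z A B = a * TH σ τ g z A B := by
  have e1 : ∀ i l, σ.Hc (fun z => a * g z) i l z = a * σ.Hc g i l z :=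
    fun i l => Hc_cmul ok a hg i l hz
  have e2 : ∀ i l, τ.Hc (fun z => a * g z) i l z = a * τ.Hc g i l z :=
    fun i l => Hc_cmul ot a hg i l hz
  have e3 : ∀ i k, Mc σ τ (fun z => a * g z) i k z = a * Mc σ τ g i k z :=
    fun i k => Mc_cmul ok ot a hg i k hz
  unfold TH
  simp only [e1, e2, e3, mul_assoc, ← Finset.mul_sum]
  ring

theorem TH_mul (ok : σ.Ok U θ) (ot : τ.Ok U θ') (hf : Sm U f) (hg : Sm U g) (hz : z ∈ U)
    (A : ι → ℝ) (B : κ → ℝ) : TH σ τ (fun z => f z * g z) z A B =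
      f z * TH σ τ g z A B + g z * TH σ τ f z A B +
        2 * (GA σ τ f z A B * GA σ τ g z A B) := by
  have e1 : ∀ i l, σ.Hc (fun z => f z * g z) i l z = f z * σ.Hc g i l z + g z * σ.Hc f i l z +
      Gr σ f i z * Gr σ g l z + Gr σ g i z * Gr σ f l z := fun i l => Hc_mul ok hf hg i l hz
  have e2 : ∀ i l, τ.Hc (fun z => f z * g z) i l z = f z * τ.Hc g i l z + g z * τ.Hc f i l z +
      Gr τ f i z * Gr τ g l z + Gr τ g i z * Gr τ f l z := fun i l => Hc_mul ot hf hg i l hz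
  have e3 : ∀ i k, Mc σ τ (fun z => f z * g z) i k z = f z * Mc σ τ g i k z +
      g z * Mc σ τ f i k z + Gr σ f i z * Gr τ g k z + Gr σ g i z * Gr τ f k z := fun i k =>
    Mc_mul ok ot hf hg i k hz
  have e4 := GA_mul_GA σ τ f g z A B
  have e5 := GA_mul_GA σ τ g f z A B
  have e6 : 2 * (GA σ τ f z A B * GA σ τ g z A B) = GA σ τ f z A B * GA σ τ g z A B +
      GA σ τ g z A B * GA σ τ f z A B := by ring
  rw [e6, e4, e5]
  unfold TH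
  simp only [e1, e2, e3]
  have s1 : (∑ i, ∑ l, (f z * σ.Hc g i l z + g z * σ.Hc f i l z +
      Gr σ f i z * Gr σ g l z + Gr σ g i z * Gr σ f l z) * A i * A l) =
      f z * (∑ i, ∑ l, σ.Hc g i l z * A i * A l) + g z * (∑ i, ∑ l, σ.Hc f i l z * A i * A l) +
        (∑ i, ∑ l, (Gr σ f i z * Gr σ g l z) * A i * A l) +
        ∑ i, ∑ l, (Gr σ g i z * Gr σ f l z) * A i * A l := by
    simp only [Finset.mul_sum, ← Finset.sum_add_distrib]
    exact Finset.sum_congr rfl fun i _ => Finset.sum_congr rfl fun j _ => by ring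
  have s2 : (∑ i, ∑ l, (f z * τ.Hc g i l z + g z * τ.Hc f i l z +
      Gr τ f i z * Gr τ g l z + Gr τ g i z * Gr τ f l z) * B i * B l) =
      f z * (∑ i, ∑ l, τ.Hc g i l z * B i * B l) + g z * (∑ i, ∑ l, τ.Hc f i l z * B i * B l) +
        (∑ i, ∑ l, (Gr τ f i z * Gr τ g l z) * B i * B l) +
        ∑ i, ∑ l, (Gr τ g i z * Gr τ f l z) * B i * B l := by
    simp only [Finset.mul_sum, ← Finset.sum_add_distrib]
    exact Finset.sum_congr rfl fun i _ => Finset.sum_congr rfl fun j _ => by ring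
  have s3 : 2 * (∑ i, ∑ k, (f z * Mc σ τ g i k z + g z * Mc σ τ f i k z +
      Gr σ f i z * Gr τ g k z + Gr σ g i z * Gr τ f k z) * A i * B k) =
      f z * (2 * ∑ i, ∑ k, Mc σ τ g i k z * A i * B k) +
        g z * (2 * ∑ i, ∑ k, Mc σ τ f i k z * A i * B k) +
        (∑ i, ∑ k, (Gr σ f i z * Gr τ g k z + Gr σ g i z * Gr τ f k z) * A i * B k) +
        ∑ i, ∑ k, (Gr σ g i z * Gr τ f k z + Gr σ f i z * Gr τ g k z) * A i * B k := by
    simp only [Finset.mul_sum, ← Finset.sum_add_distrib]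
    exact Finset.sum_congr rfl fun i _ => Finset.sum_congr rfl fun j _ => by ring
  rw [s1, s2, s3]
  ring

/-- **The exponential.** -/
theorem TH_exp (ok : σ.Ok U θ) (ot : τ.Ok U θ') (hu : Sm U u) (hz : z ∈ U)
    (A : ι → ℝ) (B : κ → ℝ) : TH σ τ (fun z => Real.exp (u z)) z A B =
      Real.exp (u z) * (GA σ τ u z A B ^ 2 + TH σ τ u z A B) := by
  rw [TH_comp ok ot (Cp.exp hu) hz]
  ring

theorem GA_add (ok : σ.Ok U θ) (ot : τ.Ok U θ') (hf : Sm U f) (hg : Sm U g) (hz : z ∈ U)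
    (A : ι → ℝ) (B : κ → ℝ) : GA σ τ (fun z => f z + g z) z A B =
      GA σ τ f z A B + GA σ τ g z A B := by
  have e1 : ∀ i, Gr σ (fun z => f z + g z) i z = Gr σ f i z + Gr σ g i z :=
    fun i => Gr_add ok hf hg i hz
  have e2 : ∀ i, Gr τ (fun z => f z + g z) i z = Gr τ f i z + Gr τ g i z :=
    fun i => Gr_add ot hf hg i hz
  unfold GA
  simp only [e1, e2, add_mul, Finset.sum_add_distrib]
  ring

theorem GA_comp (ok : σ.Ok U θ) (ot : τ.Ok U θ') (c : Cp U u Ψ Ψ₁ Ψ₂) (hz : z ∈ U)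
    (A : ι → ℝ) (B : κ → ℝ) : GA σ τ (fun z => Ψ (u z)) z A B =
      Ψ₁ (u z) * GA σ τ u z A B := by
  have e1 : ∀ i, Gr σ (fun z => Ψ (u z)) i z = Ψ₁ (u z) * Gr σ u i z :=
    fun i => Gr_comp ok c i hz
  have e2 : ∀ i, Gr τ (fun z => Ψ (u z)) i z = Ψ₁ (u z) * Gr τ u i z :=
    fun i => Gr_comp ot c i hz
  unfold GA
  simp only [e1, e2, mul_assoc, ← Finset.mul_sum]
  ring

/-- **The weight `Ψ(u) + e^u Φ(ρ)`.** -/
theorem TH_weight {Φ Φ₁ Φ₂ : ℝ → ℝ} {ρ : E → ℝ} (ok : σ.Ok U θ) (ot : τ.Ok U θ')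
    (c : Cp U u Ψ Ψ₁ Ψ₂) (d : Cp U ρ Φ Φ₁ Φ₂) (hz : z ∈ U) (A : ι → ℝ) (B : κ → ℝ) :
    TH σ τ (fun z => Ψ (u z) + Real.exp (u z) * Φ (ρ z)) z A B =
      (Ψ₂ (u z) * GA σ τ u z A B ^ 2 + Ψ₁ (u z) * TH σ τ u z A B) +
      Real.exp (u z) * (Φ (ρ z) * GA σ τ u z A B ^ 2 +
        2 * Φ₁ (ρ z) * GA σ τ u z A B * GA σ τ ρ z A B +
        Φ₂ (ρ z) * GA σ τ ρ z A B ^ 2 + Φ₁ (ρ z) * TH σ τ ρ z A B +
        Φ (ρ z) * TH σ τ u z A B) := by
  have se : Sm U fun z => Real.exp (u z) := c.su.exp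
  rw [TH_add ok ot c.s0 (se.mul d.s0) hz, TH_mul ok ot se d.s0 hz, TH_comp ok ot c hz,
    TH_comp ok ot d hz, TH_exp ok ot c.su hz, GA_comp ok ot (Cp.exp c.su) hz, GA_comp ok ot d hz]
  ring

end pw

end Vale.Agent.P088.R2.H644.Ch
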