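import Vale.Agent.P088.R2.H644.W.Gam2
import Vale.Agent.P088.R2.H747.S.Sem

/-!
# P088: the quantum part `qf` of the weight `W = Φ(u) + F`, uniformly over families

`|qf (A, B, x, y)| ≤ C (κ (|A| + |B|) (|x| + |y|) + (κ² + κ + δ (N + G)² + ν (N + G)) (x² + y²))`,
`κ = K + N w + G`, `δ` the size of `D s`, `ν` the size of `D v`.
-/

open Set Filter
open scoped ContDiff Topology

noncomputable section

namespace Vale.Agent.P088.R2.H644.Sy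

open Vale.Agent.P088.R2.H961.GW Vale.Agent.P088.R2.H747.S

variable {α E ι κ : Type*} [NormedAddCommGroup E] [NormedSpace ℝ E] [Fintype ι] [Fintype κ]

/-- A pointwise bound for `qf`. -/
theorem qf_pt {σ : Sl E ι} {τ : Sl E κ} {v₁ v₂ W : E → ℝ} {z : E} {g m b₁ b₂ l p : ℝ}
    (hg : |Ch.G2 σ W z| ≤ g) (hg' : |Ch.G2 τ W z| ≤ g) (hm : |M2 σ τ W W z| ≤ m)
    (h11 : ∀ A : ι → ℝ, |gA σ (σ.Λ W) z A| ≤ b₁ * ∑ i, |A i|)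
    (h12 : ∀ A : ι → ℝ, |gA σ (τ.Λ W) z A| ≤ b₁ * ∑ i, |A i|)
    (h21 : ∀ B : κ → ℝ, |gA τ (σ.Λ W) z B| ≤ b₂ * ∑ i, |B i|)
    (h22 : ∀ B : κ → ℝ, |gA τ (τ.Λ W) z B| ≤ b₂ * ∑ i, |B i|)
    (l11 : |σ.Λ (σ.Λ W) z| ≤ l) (l12 : |σ.Λ (τ.Λ W) z| ≤ l) (l22 : |τ.Λ (τ.Λ W) z| ≤ l)
    (p1 : |σ.Γ W v₁ z| ≤ p) (p2 : |τ.Γ W v₂ z| ≤ p) (A : ι → ℝ) (B : κ → ℝ) (x y : ℝ) :
    |qf σ τ v₁ v₂ W z A B x y| ≤ 8 * ((b₁ * ∑ i, |A i|) + b₂ * ∑ i, |B i|) * (|x| + |y|) +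
      (8 * g + 8 * m + 4 * l + 4 * p) * (x ^ 2 + y ^ 2) := by
  have m1 : ∀ {s t S : ℝ}, |s| ≤ S → |s * t| ≤ S * |t| := fun {s t S} h => by
    rw [abs_mul]; exact mul_le_mul_of_nonneg_right h (abs_nonneg t)
  have m2 : ∀ {s t S : ℝ}, |s| ≤ S → |t * s| ≤ S * |t| := fun {s t S} h => by
    rw [mul_comm]; exact m1 h
  have a1 : |Ch.G2 σ W z * x ^ 2 + 2 * (M2 σ τ W W z * (x * y)) + Ch.G2 τ W z * y ^ 2| ≤
      (g + m) * (x ^ 2 + y ^ 2) := by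
    have q1 := m1 (t := x ^ 2) hg
    have q2 := m1 (t := x * y) hm
    have q3 := m1 (t := y ^ 2) hg'
    rw [abs_of_nonneg (sq_nonneg x)] at q1
    rw [abs_of_nonneg (sq_nonneg y)] at q3
    have q4 : 2 * |x * y| ≤ x ^ 2 + y ^ 2 := by
      rw [abs_mul]
      nlinarith [sq_nonneg (|x| - |y|), sq_abs x, sq_abs y]
    have hm0 := (abs_nonneg _).trans hm
    refine (abs_add_le _ _).trans ((add_le_add (abs_add_le _ _) le_rfl).trans ?_)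
    rw [abs_mul 2, abs_two]
    nlinarith [mul_le_mul_of_nonneg_left q4 hm0]
  have a2 : |x * gA σ (σ.Λ W) z A + y * gA σ (τ.Λ W) z A + x * gA τ (σ.Λ W) z B +
      y * gA τ (τ.Λ W) z B| ≤ ((b₁ * ∑ i, |A i|) + b₂ * ∑ i, |B i|) * (|x| + |y|) := by
    have q1 := m2 (t := x) (h11 A)
    have q2 := m2 (t := y) (h12 A)
    have q3 := m2 (t := x) (h21 B)
    have q4 := m2 (t := y) (h22 B)
    refine (abs_add_le _ _).trans ((add_le_add ((abs_add_le _ _).trans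
      (add_le_add (abs_add_le _ _) le_rfl)) le_rfl).trans ?_)
    nlinarith [q1, q2, q3, q4]
  have a3 : |σ.Λ (σ.Λ W) z * x ^ 2 + 2 * (σ.Λ (τ.Λ W) z * (x * y)) + τ.Λ (τ.Λ W) z * y ^ 2| ≤
      2 * l * (x ^ 2 + y ^ 2) := by
    have q1 := m1 (t := x ^ 2) l11
    have q2 := m1 (t := x * y) l12
    have q3 := m1 (t := y ^ 2) l22
    rw [abs_of_nonneg (sq_nonneg x)] at q1
    rw [abs_of_nonneg (sq_nonneg y)] at q3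
    have q4 : 2 * |x * y| ≤ x ^ 2 + y ^ 2 := by
      rw [abs_mul]
      nlinarith [sq_nonneg (|x| - |y|), sq_abs x, sq_abs y]
    have hm0 := (abs_nonneg _).trans l11
    refine (abs_add_le _ _).trans ((add_le_add (abs_add_le _ _) le_rfl).trans ?_)
    rw [abs_mul 2, abs_two]
    nlinarith [mul_le_mul_of_nonneg_left q4 hm0, mul_nonneg hm0 (sq_nonneg x),
      mul_nonneg hm0 (sq_nonneg y)]
  have a4 : |σ.Γ W v₁ z * x ^ 2 + τ.Γ W v₂ z * y ^ 2| ≤ p * (x ^ 2 + y ^ 2) := by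
    have q1 := m1 (t := x ^ 2) p1
    have q3 := m1 (t := y ^ 2) p2
    rw [abs_of_nonneg (sq_nonneg x)] at q1
    rw [abs_of_nonneg (sq_nonneg y)] at q3
    refine (abs_add_le _ _).trans ?_
    linarith
  unfold qf
  have t1 := abs_le.1 a1
  have t2 := abs_le.1 a2
  have t3 := abs_le.1 a3
  have t4 := abs_le.1 a4
  rw [abs_le]
  constructor <;> nlinarith [t1.1, t1.2, t2.1, t2.2, t3.1, t3.2, t4.1, t4.2]

/-- The bound for `gA`. -/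
theorem gA_le {σ : Sl E ι} {f : E → ℝ} {z : E} {S d : ℝ} (hS : ∀ i j, |σ.s i j z| ≤ S)
    (hd : ∀ i, |σ.D i f z| ≤ d) (A : ι → ℝ) :
    |gA σ f z A| ≤ Fintype.card ι * (S * d) * ∑ i, |A i| := by
  unfold gA
  refine (Finset.abs_sum_le_sum_abs _ _).trans ?_
  have h : ∀ i, |∑ j, σ.s i j z * σ.D i f z * A j| ≤ S * d * ∑ j, |A j| := by
    intro i
    refine (Finset.abs_sum_le_sum_abs _ _).trans ?_
    rw [Finset.mul_sum]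
    refine Finset.sum_le_sum fun j _ => ?_
    rw [abs_mul, abs_mul]
    have h1 := hS i j
    have h2 := hd i
    have h3 := (abs_nonneg _).trans h1
    have := abs_nonneg (A j)
    gcongr
  refine (Finset.sum_le_sum fun i _ => h i).trans (le_of_eq ?_)
  rw [Finset.sum_const, Finset.card_univ, nsmul_eq_mul]
  ring

/-- The bound for `Γ`. -/
theorem G_le {σ : Sl E ι} {f h : E → ℝ} {z : E} {S c d : ℝ} (hS : ∀ i j, |σ.s i j z| ≤ S)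
    (hc : ∀ i, |σ.D i f z| ≤ c) (hd : ∀ i, |σ.D i h z| ≤ d) :
    |σ.Γ f h z| ≤ Fintype.card ι ^ 2 * (S * c * d) := by
  unfold Sl.Γ
  have h1 : ∀ i j, |σ.s i j z * σ.D i f z * σ.D j h z| ≤ S * c * d := by
    intro i j
    rw [abs_mul, abs_mul]
    have h1 := hS i j
    have h2 := hc i
    have h3 := hd j
    have h4 := (abs_nonneg _).trans h1
    have h5 := (abs_nonneg _).trans h2
    gcongr
  have h2 := Ch.sm_abs _ _ fun i => Ch.sm_abs _ _ fun j => h1 i j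
  refine h2.trans (le_of_eq ?_)
  ring

section fam

variable {σ : α → Sl E ι} {τ : α → Sl E κ} {e : ι → E} {e' : κ → E} {δ ν : α → E → ℝ}
  {U : α → Set E} {u F : α → E → ℝ} {Φ : α → ℝ → ℝ} {N K w G : α → E → ℝ} {v₁ v₂ : α → E → ℝ}
  {θ θ' : α → E → ℝ}

/-- The common bounds at a point. -/
structure B0 (σ : Sl E ι) (τ : Sl E κ) (W : E → ℝ) (z : E) (C n κ δ : ℝ) : Prop where
  C0 : 0 ≤ C
  n0 : 0 ≤ n
  k0 : 0 ≤ κ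
  δ0 : 0 ≤ δ
  δ1 : δ ≤ 1
  s1 : ∀ i j, |σ.s i j z| ≤ C
  s2 : ∀ i j, |τ.s i j z| ≤ C
  ds1 : ∀ l i j, |σ.D l (σ.s i j) z| ≤ C * δ
  ds2 : ∀ l i j, |τ.D l (τ.s i j) z| ≤ C * δ
  dds1 : ∀ l k i j, |σ.D l (σ.D k (σ.s i j)) z| ≤ C * δ
  dds2 : ∀ l k i j, |τ.D l (τ.D k (τ.s i j)) z| ≤ C * δ
  d1 : ∀ i, |σ.D i W z| ≤ C * n
  d2 : ∀ i, |τ.D i W z| ≤ C * n
  d11 : ∀ i j, |σ.D i (σ.D j W) z| ≤ C * κ
  d12 : ∀ i j, |σ.D i (τ.D j W) z| ≤ C * κ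
  d22 : ∀ i j, |τ.D i (τ.D j W) z| ≤ C * κ
  L1 : |σ.Λ W z| ≤ C * κ
  L2 : |τ.Λ W z| ≤ C * κ
  D11 : ∀ i, |σ.D i (σ.Λ W) z| ≤ C * κ
  D12 : ∀ i, |σ.D i (τ.Λ W) z| ≤ C * κ
  D21 : ∀ i, |τ.D i (σ.Λ W) z| ≤ C * κ
  D22 : ∀ i, |τ.D i (τ.Λ W) z| ≤ C * κ
  L11 : |σ.Λ (σ.Λ W) z| ≤ C * κ
  L12 : |σ.Λ (τ.Λ W) z| ≤ C * κ
  L22 : |τ.Λ (τ.Λ W) z| ≤ C * κ

omit [NormedAddCommGroup E] [NormedSpace ℝ E] in
/-- A bound holds for all large constants. -/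
theorem ev_of {f g : α → E → ℝ} (g0 : ∀ a, ∀ z ∈ U a, 0 ≤ g a z)
    (h : ∃ C, ∀ a, ∀ z ∈ U a, |f a z| ≤ C * g a z) :
    ∀ᶠ C : ℝ in atTop, ∀ a, ∀ z ∈ U a, |f a z| ≤ C * g a z := by
  obtain ⟨c, hc⟩ := h
  filter_upwards [eventually_ge_atTop c] with C hC a z hz
  exact (hc a z hz).trans (mul_le_mul_of_nonneg_right hC (g0 a z hz))

theorem Sf.ev {g f : α → E → ℝ} {k : ℕ} (h : Sf U (fun _ _ => 1) g k f)
    (g0 : ∀ a, ∀ z ∈ U a, 0 ≤ g a z) :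
    ∀ᶠ C : ℝ in atTop, ∀ a, ∀ z ∈ U a, |f a z| ≤ C * g a z := by
  obtain ⟨C, hC⟩ := h.norm_le
  exact ev_of g0 ⟨C, fun a z hz => by simpa using hC a z hz⟩

theorem FT.ev_s (f : FT σ e U δ 2) (hU : ∀ a, IsOpen (U a)) (δ0 : ∀ a, ∀ z ∈ U a, 0 ≤ δ a z) :
    ∀ᶠ C : ℝ in atTop, ∀ a, ∀ z ∈ U a, (∀ i j, |(σ a).s i j z| ≤ C) ∧
      (∀ l i j, |(σ a).D l ((σ a).s i j) z| ≤ C * δ a z) ∧
      ∀ l k i j, |(σ a).D l ((σ a).D k ((σ a).s i j)) z| ≤ C * δ a z := by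
  have e1 : ∀ᶠ C : ℝ in atTop, ∀ i j, ∀ a, ∀ z ∈ U a, |(σ a).s i j z| ≤ C * 1 :=
    eventually_all.2 fun i => eventually_all.2 fun j =>
      (f.ss i j).ev fun _ _ _ => zero_le_one
  have e2 : ∀ᶠ C : ℝ in atTop, ∀ l i j, ∀ a, ∀ z ∈ U a,
      |(σ a).D l ((σ a).s i j) z| ≤ C * δ a z :=
    eventually_all.2 fun l => eventually_all.2 fun i => eventually_all.2 fun j =>
      (f.ds i j l).ev δ0
  have e3 : ∀ᶠ C : ℝ in atTop, ∀ l k i j, ∀ a, ∀ z ∈ U a,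
      |(σ a).D l ((σ a).D k ((σ a).s i j)) z| ≤ C * δ a z :=
    eventually_all.2 fun l => eventually_all.2 fun k => eventually_all.2 fun i =>
      eventually_all.2 fun j => (f.D1 hU ((f.ds i j k).mono_k (Nat.le_succ 1)) l).ev δ0
  filter_upwards [e1, e2, e3] with C h1 h2 h3 a z hz
  exact ⟨fun i j => by simpa using h1 i j a z hz, fun l i j => h2 l i j a z hz,
    fun l k i j => h3 l k i j a z hz⟩

theorem Wg.ev_1 (W : Wg U u Φ F N K w G δ 2) (f : FT σ e U δ 2) :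
    ∀ᶠ C : ℝ in atTop, ∀ a, ∀ z ∈ U a,
      (∀ i, |(σ a).D i (Wt2 Φ u F a) z| ≤ C * (N a z + G a z)) ∧
      |(σ a).Λ (Wt2 Φ u F a) z| ≤ C * kp N K w G a z := by
  have e1 : ∀ᶠ C : ℝ in atTop, ∀ i, ∀ a, ∀ z ∈ U a,
      |(σ a).D i (Wt2 Φ u F a) z| ≤ C * (N a z + G a z) :=
    eventually_all.2 fun i => (W.d1 f i).ev W.NG0
  filter_upwards [e1, (W.L f).ev W.kp0] with C h1 h2 a z hz
  exact ⟨fun i => h1 i a z hz, h2 a z hz⟩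

theorem Wg.ev_2 (W : Wg U u Φ F N K w G δ 2) (f : FT σ e U δ 2) (t : FT τ e' U δ 2) :
    ∀ᶠ C : ℝ in atTop, ∀ a, ∀ z ∈ U a,
      (∀ i j, |(σ a).D i ((τ a).D j (Wt2 Φ u F a)) z| ≤ C * kp N K w G a z) ∧
      (∀ i, |(σ a).D i ((τ a).Λ (Wt2 Φ u F a)) z| ≤ C * kp N K w G a z) ∧
      |(σ a).Λ ((τ a).Λ (Wt2 Φ u F a)) z| ≤ C * kp N K w G a z := by
  have e1 : ∀ᶠ C : ℝ in atTop, ∀ i j, ∀ a, ∀ z ∈ U a,
      |(σ a).D i ((τ a).D j (Wt2 Φ u F a)) z| ≤ C * kp N K w G a z :=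
    eventually_all.2 fun i => eventually_all.2 fun j => (W.d2 f t i j).ev W.kp0
  have W1 : Wg U u Φ F N K w G δ (1 + 1) := W
  have t1 : FT τ e' U δ (1 + 1) := t
  have e2 : ∀ᶠ C : ℝ in atTop, ∀ i, ∀ a, ∀ z ∈ U a,
      |(σ a).D i ((τ a).Λ (Wt2 Φ u F a)) z| ≤ C * kp N K w G a z :=
    eventually_all.2 fun i => (W1.DL t1 f i).ev W.kp0
  have W0 : Wg U u Φ F N K w G δ (0 + 2) := W
  have t0 : FT τ e' U δ (0 + 2) := t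
  have e3 := (W0.LL t0 (f.mono_k (Nat.zero_le _))).ev W.kp0
  filter_upwards [e1, e2, e3] with C h1 h2 h3 a z hz
  exact ⟨fun i j => h1 i j a z hz, fun i => h2 i a z hz, h3 a z hz⟩

/-- **All slot quantities of the weight.** -/
theorem Wg.b0 (W : Wg U u Φ F N K w G δ 2) (f : FT σ e U δ 2) (t : FT τ e' U δ 2) :
    ∀ᶠ C : ℝ in atTop, ∀ a, ∀ z ∈ U a, B0 (σ a) (τ a) (Wt2 Φ u F a) z C (N a z + G a z)
      (kp N K w G a z) (δ a z) := by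
  filter_upwards [f.ev_s W.op W.δ0, t.ev_s W.op W.δ0, W.ev_1 f, W.ev_1 t, W.ev_2 f f,
    W.ev_2 f t, W.ev_2 t f, W.ev_2 t t, eventually_ge_atTop 0] with C h1 h2 h3 h4 h5 h6 h7 h8 h9
    a z hz
  exact
    { C0 := h9
      n0 := W.NG0 a z hz
      k0 := W.kp0 a z hz
      δ0 := W.δ0 a z hz
      δ1 := W.δ1 a z hz
      s1 := (h1 a z hz).1
      s2 := (h2 a z hz).1
      ds1 := (h1 a z hz).2.1
      ds2 := (h2 a z hz).2.1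
      dds1 := (h1 a z hz).2.2
      dds2 := (h2 a z hz).2.2
      d1 := (h3 a z hz).1
      d2 := (h4 a z hz).1
      d11 := (h5 a z hz).1
      d12 := (h6 a z hz).1
      d22 := (h8 a z hz).1
      L1 := (h3 a z hz).2
      L2 := (h4 a z hz).2
      D11 := (h5 a z hz).2.1
      D12 := (h6 a z hz).2.1
      D21 := (h7 a z hz).2.1
      D22 := (h8 a z hz).2.1
      L11 := (h5 a z hz).2.2
      L12 := (h6 a z hz).2.2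
      L22 := (h8 a z hz).2.2 }

end fam

section pt

variable {σ : Sl E ι} {τ : Sl E κ} {U : Set E} {θ θ' W : E → ℝ} {z : E} {C n κ' δ : ℝ}

/-- The arithmetic of `Γ₂`. -/
theorem g2_arith {m C n κ' δ x : ℝ} (hd : 0 ≤ δ) (hd1 : δ ≤ 1) (hx : x ≤ m ^ 4 * (C ^ 2 * (C * κ') ^ 2 +
      3 * (C * (C * δ) * (C * n) * (C * κ')) +
      (3 / 2 * (C * (C * δ)) + 1 / 2 * (C * δ) ^ 2) * (C * n) ^ 2)) :
    x ≤ 4 * m ^ 4 * C ^ 4 * (κ' ^ 2 + δ * n ^ 2) := by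
  refine hx.trans ?_
  have r1 : δ ^ 2 ≤ δ := by nlinarith
  have r2 : δ * n * κ' ≤ 1 / 2 * (κ' ^ 2 + δ * n ^ 2) := by
    have s1 := sq_nonneg (κ' - δ * n)
    have s2 : (δ * n) ^ 2 ≤ δ * n ^ 2 := by
      rw [mul_pow]
      exact mul_le_mul_of_nonneg_right r1 (sq_nonneg _)
    nlinarith
  have r3 : δ ^ 2 * n ^ 2 ≤ δ * n ^ 2 := mul_le_mul_of_nonneg_right r1 (sq_nonneg _)
  have hC4 : 0 ≤ C ^ 4 := by positivity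
  have hm4 : 0 ≤ m ^ 4 := by positivity
  have r4 : C ^ 2 * (C * κ') ^ 2 + 3 * (C * (C * δ) * (C * n) * (C * κ')) +
      (3 / 2 * (C * (C * δ)) + 1 / 2 * (C * δ) ^ 2) * (C * n) ^ 2 =
      C ^ 4 * (κ' ^ 2 + 3 * (δ * n * κ') + 3 / 2 * (δ * n ^ 2) + 1 / 2 * (δ ^ 2 * n ^ 2)) := by
    ring
  have r5 : κ' ^ 2 + 3 * (δ * n * κ') + 3 / 2 * (δ * n ^ 2) + 1 / 2 * (δ ^ 2 * n ^ 2) ≤
      4 * (κ' ^ 2 + δ * n ^ 2) := by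
    have s1 : 0 ≤ κ' ^ 2 := sq_nonneg _
    have s2 : 0 ≤ δ * n ^ 2 := mul_nonneg hd (sq_nonneg _)
    linarith
  rw [r4]
  calc m ^ 4 * (C ^ 4 * _) ≤ m ^ 4 * (C ^ 4 * (4 * (κ' ^ 2 + δ * n ^ 2))) :=
        mul_le_mul_of_nonneg_left (mul_le_mul_of_nonneg_left r5 hC4) hm4
    _ = _ := by ring

theorem B0.G1 (b : B0 σ τ W z C n κ' δ) (ok : σ.Ok U θ) (h1 : ∀ z, σ.ρ z = 1)
    (hL : Ch.Lx σ U) (hW : Sm U W) (hz : z ∈ U) :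
    |Ch.G2 σ W z| ≤ 4 * (Fintype.card ι : ℝ) ^ 4 * C ^ 4 * (κ' ^ 2 + δ * n ^ 2) :=
  g2_arith b.δ0 b.δ1
    (Ch.G2_bd' ok h1 hL hW hz b.s1 b.ds1 b.dds1 b.d1 b.d11)

theorem B0.G2 (b : B0 σ τ W z C n κ' δ) (ot : τ.Ok U θ) (h1 : ∀ z, τ.ρ z = 1)
    (hL : Ch.Lx τ U) (hW : Sm U W) (hz : z ∈ U) :
    |Ch.G2 τ W z| ≤ 4 * (Fintype.card κ : ℝ) ^ 4 * C ^ 4 * (κ' ^ 2 + δ * n ^ 2) :=
  g2_arith b.δ0 b.δ1
    (Ch.G2_bd' ot h1 hL hW hz b.s2 b.ds2 b.dds2 b.d2 b.d22)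

theorem B0.M (b : B0 σ τ W z C n κ' δ) : |M2 σ τ W W z| ≤
    (Fintype.card κ : ℝ) ^ 2 * ((Fintype.card ι : ℝ) ^ 2 * (C * C * (C * κ') ^ 2)) :=
  Ch.M2_bd b.s1 b.s2 b.d12

/-- The constant of `B0.qf`. -/
def Cqf (a b C : ℝ) : ℝ := 8 * (a + b) * C ^ 2 + 4 * C + 32 * (a ^ 4 + b ^ 4) * C ^ 4 +
  8 * (b ^ 2 * a ^ 2) * C ^ 4 + 4 * (a ^ 2 + b ^ 2) * C ^ 3

/-- The arithmetic of the quantum part. -/
theorem qf_arith {a b C n κ' δ ν S1 S2 X Y : ℝ} (ha : 0 ≤ a) (hb : 0 ≤ b) (hC : 0 ≤ C)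
    (hn : 0 ≤ n) (hk : 0 ≤ κ') (hd : 0 ≤ δ) (hν : 0 ≤ ν) (h1 : 0 ≤ S1) (h2 : 0 ≤ S2)
    (hX : 0 ≤ X) (hY : 0 ≤ Y) :
    8 * ((a * (C * (C * κ')) * S1) + b * (C * (C * κ')) * S2) * X +
      (8 * (4 * (a ^ 4 + b ^ 4) * C ^ 4 * (κ' ^ 2 + δ * n ^ 2)) +
        8 * (b ^ 2 * (a ^ 2 * (C * C * (C * κ') ^ 2))) + 4 * (C * κ') +
        4 * ((a ^ 2 + b ^ 2) * (C * (C * n) * (C * ν)))) * Y ≤
      Cqf a b C * (κ' * (S1 + S2) * X + (κ' ^ 2 + κ' + δ * n ^ 2 + ν * n) * Y) := by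
  have e : Cqf a b C * (κ' * (S1 + S2) * X + (κ' ^ 2 + κ' + δ * n ^ 2 + ν * n) * Y) -
      (8 * ((a * (C * (C * κ')) * S1) + b * (C * (C * κ')) * S2) * X +
      (8 * (4 * (a ^ 4 + b ^ 4) * C ^ 4 * (κ' ^ 2 + δ * n ^ 2)) +
        8 * (b ^ 2 * (a ^ 2 * (C * C * (C * κ') ^ 2))) + 4 * (C * κ') +
        4 * ((a ^ 2 + b ^ 2) * (C * (C * n) * (C * ν)))) * Y) =
      (8 * C ^ 2 * κ' * (b * S1 + a * S2) * X +
        (4 * C + 32 * (a ^ 4 + b ^ 4) * C ^ 4 + 8 * (b ^ 2 * a ^ 2) * C ^ 4 +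
          4 * (a ^ 2 + b ^ 2) * C ^ 3) * (κ' * (S1 + S2) * X)) +
      (8 * (a + b) * C ^ 2 * (κ' ^ 2 + κ' + δ * n ^ 2 + ν * n) +
        4 * C * (κ' ^ 2 + δ * n ^ 2 + ν * n) +
        32 * (a ^ 4 + b ^ 4) * C ^ 4 * (κ' + ν * n) +
        8 * (b ^ 2 * a ^ 2) * C ^ 4 * (κ' + δ * n ^ 2 + ν * n) +
        4 * (a ^ 2 + b ^ 2) * C ^ 3 * (κ' ^ 2 + κ' + δ * n ^ 2)) * Y := by
    unfold Cqf; ring
  have p : 0 ≤ (8 * C ^ 2 * κ' * (b * S1 + a * S2) * X +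
        (4 * C + 32 * (a ^ 4 + b ^ 4) * C ^ 4 + 8 * (b ^ 2 * a ^ 2) * C ^ 4 +
          4 * (a ^ 2 + b ^ 2) * C ^ 3) * (κ' * (S1 + S2) * X)) +
      (8 * (a + b) * C ^ 2 * (κ' ^ 2 + κ' + δ * n ^ 2 + ν * n) +
        4 * C * (κ' ^ 2 + δ * n ^ 2 + ν * n) +
        32 * (a ^ 4 + b ^ 4) * C ^ 4 * (κ' + ν * n) +
        8 * (b ^ 2 * a ^ 2) * C ^ 4 * (κ' + δ * n ^ 2 + ν * n) +
        4 * (a ^ 2 + b ^ 2) * C ^ 3 * (κ' ^ 2 + κ' + δ * n ^ 2)) * Y := by positivity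
  linarith

/-- **The quantum part at a point.** -/
theorem B0.qf {v₁ v₂ : E → ℝ} {ν : ℝ} (b : B0 σ τ W z C n κ' δ) (ok : σ.Ok U θ)
    (ot : τ.Ok U θ') (h1 : ∀ z, σ.ρ z = 1) (h1' : ∀ z, τ.ρ z = 1) (hL : Ch.Lx σ U)
    (hL' : Ch.Lx τ U) (hW : Sm U W) (hz : z ∈ U) (hν : 0 ≤ ν)
    (hv₁ : ∀ i, |σ.D i v₁ z| ≤ C * ν) (hv₂ : ∀ i, |τ.D i v₂ z| ≤ C * ν) (A : ι → ℝ)
    (B : κ → ℝ) (x y : ℝ) :
    |qf σ τ v₁ v₂ W z A B x y| ≤ Cqf (Fintype.card ι) (Fintype.card κ) C *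
      (κ' * ((∑ i, |A i|) + ∑ i, |B i|) * (|x| + |y|) +
        (κ' ^ 2 + κ' + δ * n ^ 2 + ν * n) * (x ^ 2 + y ^ 2)) := by
  set a : ℝ := (Fintype.card ι : ℝ) with ha
  set c : ℝ := (Fintype.card κ : ℝ) with hc
  have hC4 : 0 ≤ C ^ 4 := by have := b.C0; positivity
  have hk2 : 0 ≤ κ' ^ 2 + δ * n ^ 2 := by have := b.δ0; positivity
  have e1 : |Ch.G2 σ W z| ≤ 4 * (a ^ 4 + c ^ 4) * C ^ 4 * (κ' ^ 2 + δ * n ^ 2) := by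
    refine (b.G1 ok h1 hL hW hz).trans (mul_le_mul_of_nonneg_right
      (mul_le_mul_of_nonneg_right ?_ hC4) hk2)
    have : 0 ≤ c ^ 4 := by positivity
    linarith
  have e2 : |Ch.G2 τ W z| ≤ 4 * (a ^ 4 + c ^ 4) * C ^ 4 * (κ' ^ 2 + δ * n ^ 2) := by
    refine (b.G2 ot h1' hL' hW hz).trans (mul_le_mul_of_nonneg_right
      (mul_le_mul_of_nonneg_right ?_ hC4) hk2)
    have : 0 ≤ a ^ 4 := by positivity
    linarith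
  have q : 0 ≤ C * (C * n) * (C * ν) := by
    have h1 := b.C0
    have h2 := b.n0
    positivity
  have p1 : |σ.Γ W v₁ z| ≤ (a ^ 2 + c ^ 2) * (C * (C * n) * (C * ν)) := by
    refine (G_le b.s1 b.d1 hv₁).trans (mul_le_mul_of_nonneg_right ?_ q)
    have : 0 ≤ c ^ 2 := by positivity
    linarith
  have p2 : |τ.Γ W v₂ z| ≤ (a ^ 2 + c ^ 2) * (C * (C * n) * (C * ν)) := by
    refine (G_le b.s2 b.d2 hv₂).trans (mul_le_mul_of_nonneg_right ?_ q)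
    have : 0 ≤ a ^ 2 := by positivity
    linarith
  have key := qf_pt e1 e2 b.M (fun A => gA_le (A := A) b.s1 b.D11)
    (fun A => gA_le (A := A) b.s1 b.D12) (fun A => gA_le (A := A) b.s2 b.D21)
    (fun A => gA_le (A := A) b.s2 b.D22) b.L11 b.L12 b.L22 p1 p2 A B x y
  exact key.trans (qf_arith (by positivity) (by positivity) b.C0 b.n0 b.k0 b.δ0 hν
    (Finset.sum_nonneg fun _ _ => abs_nonneg _) (Finset.sum_nonneg fun _ _ => abs_nonneg _)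
    (by positivity) (by positivity))

end pt

end Vale.Agent.P088.R2.H644.Sy
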