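import Vale.Agent.P088.R2.H644.W.Prof
import Vale.Agent.P088.R2.H644.W.Wt

/-!
# The radial slow profile `S(r) = Φ(r²)`
-/

open Filter Set MeasureTheory
open scoped ContDiff Topology

noncomputable section

namespace Vale.Agent.P088.R2.H644

/-- `(L₀ - L)(√σ) / (2 √σ)`, `0` near `0`. -/
def kz (θ Li ε r₁ δ σ : ℝ) : ℝ :=
  if σ ≤ r₁ ^ 2 / 2 then 0 else (Lz θ √σ - Lf θ Li ε r₁ δ √σ) / (2 * √σ)

/-- Its integral. -/
def Dz (θ Li ε r₁ δ σ : ℝ) : ℝ := ∫ u in (0 : ℝ)..σ, kz θ Li ε r₁ δ u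

/-- The profile as a function of `s = r²`. -/
def Ph (θ Li ε r₁ δ s : ℝ) : ℝ := Fs (θ ^ 2) s * Real.exp (-Dz θ Li ε r₁ δ s)

/-- `Φ'`. -/
def Ph1 (θ Li ε r₁ δ s : ℝ) : ℝ :=
  (Fs1 (θ ^ 2) s - Fs (θ ^ 2) s * kz θ Li ε r₁ δ s) * Real.exp (-Dz θ Li ε r₁ δ s)

/-- `Φ''`. -/
def Ph2 (θ Li ε r₁ δ s : ℝ) : ℝ :=
  (Fs2 (θ ^ 2) s - 2 * Fs1 (θ ^ 2) s * kz θ Li ε r₁ δ s -
    Fs (θ ^ 2) s * deriv (kz θ Li ε r₁ δ) s + Fs (θ ^ 2) s * kz θ Li ε r₁ δ s ^ 2) *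
    Real.exp (-Dz θ Li ε r₁ δ s)

section prof

variable {θ Li ε r₁ δ : ℝ} (h : PP θ Li ε r₁ δ)
include h

lemma PP.sqrt_le {σ : ℝ} (h1 : σ ≤ r₁ ^ 2) : √σ ≤ r₁ := by
  rw [← Real.sqrt_sq h.r0.le]
  exact Real.sqrt_le_sqrt h1

lemma PP.kz_zero {σ : ℝ} (h1 : σ ≤ r₁ ^ 2) : kz θ Li ε r₁ δ σ = 0 := by
  unfold kz
  split_ifs with h2
  · rfl
  · have h3 : 0 < σ := lt_of_le_of_lt (by positivity) (not_le.1 h2)
    rw [h.Lf_eq (Real.sqrt_pos.2 h3) (h.sqrt_le h1)]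
    simp

lemma PP.kz_eq {σ : ℝ} (h1 : 0 < σ) :
    kz θ Li ε r₁ δ σ = (Lz θ √σ - Lf θ Li ε r₁ δ √σ) / (2 * √σ) := by
  rcases le_total σ (r₁ ^ 2) with h2 | h2
  · rw [h.kz_zero h2, h.Lf_eq (Real.sqrt_pos.2 h1) (h.sqrt_le h2)]
    simp
  · unfold kz
    rw [if_neg (not_le.2 _)]
    have := h.r0
    nlinarith [sq_nonneg r₁, mul_pos h.r0 h.r0]

lemma PP.contDiff_kz : ContDiff ℝ ∞ (kz θ Li ε r₁ δ) := by
  rw [contDiff_iff_contDiffAt]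
  intro σ
  have hr2 : 0 < r₁ ^ 2 := pow_pos h.r0 2
  rcases lt_or_ge σ (r₁ ^ 2) with h1 | h1
  · have h2 : kz θ Li ε r₁ δ =ᶠ[𝓝 σ] fun _ => (0 : ℝ) := by
      filter_upwards [Iio_mem_nhds h1] with u hu using h.kz_zero (le_of_lt hu)
    exact contDiffAt_const.congr_of_eventuallyEq h2
  · have h0 : 0 < σ := hr2.trans_le h1
    have h2 : kz θ Li ε r₁ δ =ᶠ[𝓝 σ]
        fun σ => (Lz θ √σ - Lf θ Li ε r₁ δ √σ) / (2 * √σ) := by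
      filter_upwards [Ioi_mem_nhds h0] with u hu using h.kz_eq hu
    refine ContDiffAt.congr_of_eventuallyEq ?_ h2
    have hs : 0 < √σ := Real.sqrt_pos.2 h0
    have c0 : ContDiffAt ℝ ∞ (fun σ : ℝ => √σ) σ := Real.contDiffAt_sqrt h0.ne'
    have hsh := sinh_half_pos h.θ0 hs
    have c1 : ContDiffAt ℝ ∞ (fun σ : ℝ => θ * √σ / 2) σ := (contDiffAt_const.mul c0).div_const 2
    have c2 : ContDiffAt ℝ ∞ (fun σ => Lz θ √σ) σ :=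
      (contDiffAt_const.mul (Real.contDiff_cosh.contDiffAt.comp σ c1)).div
        (Real.contDiff_sinh.contDiffAt.comp σ c1) hsh.ne'
    have c3 : ContDiffAt ℝ ∞ (fun σ => Lf θ Li ε r₁ δ √σ) σ :=
      ((h.contDiffOn_Lf _ hs).contDiffAt (Ioi_mem_nhds hs)).comp σ c0
    exact (c2.sub c3).div (contDiffAt_const.mul c0) (by positivity)

lemma PP.hasDerivAt_Dz (σ : ℝ) : HasDerivAt (Dz θ Li ε r₁ δ) (kz θ Li ε r₁ δ σ) σ :=
  hasDerivAt_integral h.contDiff_kz.continuous _ _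

lemma PP.contDiff_Dz : ContDiff ℝ ∞ (Dz θ Li ε r₁ δ) :=
  contDiff_of_hasDerivAt h.hasDerivAt_Dz h.contDiff_kz

lemma PP.Dz_zero {σ : ℝ} (h1 : σ ≤ r₁ ^ 2) : Dz θ Li ε r₁ δ σ = 0 := by
  unfold Dz
  rw [intervalIntegral.integral_congr (g := fun _ => (0 : ℝ))]
  · simp
  · intro u hu
    refine h.kz_zero ?_
    rcases Set.mem_uIcc.1 hu with ⟨_, h2⟩ | ⟨_, h2⟩
    · exact h2.trans h1
    · exact h2.trans (by positivity)

/-- `Φ` is smooth. -/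
lemma PP.contDiff_Ph : ContDiff ℝ ∞ (Ph θ Li ε r₁ δ) :=
  (contDiff_Fs _).mul h.contDiff_Dz.neg.exp

lemma PP.Ph_eq {s : ℝ} (h1 : s ≤ r₁ ^ 2) : Ph θ Li ε r₁ δ s = Fs (θ ^ 2) s := by
  unfold Ph
  rw [h.Dz_zero h1]
  simp

lemma PP.hasDerivAt_expDz (s : ℝ) : HasDerivAt (fun s => Real.exp (-Dz θ Li ε r₁ δ s))
    (-(kz θ Li ε r₁ δ s) * Real.exp (-Dz θ Li ε r₁ δ s)) s := by
  refine (h.hasDerivAt_Dz s).fun_neg.exp.congr_deriv ?_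
  ring

lemma PP.d2_Ph : D2 (Ph θ Li ε r₁ δ) (Ph1 θ Li ε r₁ δ) (Ph2 θ Li ε r₁ δ) where
  d1 s := by
    refine (((d2_Fs (θ ^ 2)).d1 s).mul (h.hasDerivAt_expDz s)).congr_deriv ?_
    unfold Ph1
    ring
  d2 s := by
    have hk : HasDerivAt (kz θ Li ε r₁ δ) (deriv (kz θ Li ε r₁ δ) s) s :=
      (h.contDiff_kz.differentiable (by simp) s).hasDerivAt
    have h1 := (((d2_Fs (θ ^ 2)).d2 s).sub (((d2_Fs (θ ^ 2)).d1 s).mul hk)).mul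
      (h.hasDerivAt_expDz s)
    refine h1.congr_deriv ?_
    unfold Ph2
    simp only [Pi.sub_apply, Pi.mul_apply]
    ring

lemma PP.Ph1_eq {s : ℝ} (h1 : s ≤ r₁ ^ 2) : Ph1 θ Li ε r₁ δ s = Fs1 (θ ^ 2) s := by
  unfold Ph1
  rw [h.Dz_zero h1, h.kz_zero h1]
  simp

lemma PP.Ph2_eq {s : ℝ} (h1 : s < r₁ ^ 2) : Ph2 θ Li ε r₁ δ s = Fs2 (θ ^ 2) s := by
  have h2 : kz θ Li ε r₁ δ =ᶠ[𝓝 s] fun _ => (0 : ℝ) := by
    filter_upwards [Iio_mem_nhds h1] with u hu using h.kz_zero (le_of_lt hu)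
  have h3 : deriv (kz θ Li ε r₁ δ) s = 0 := by
    rw [h2.deriv_eq]
    simp
  unfold Ph2
  rw [h.Dz_zero h1.le, h.kz_zero h1.le, h3]
  simp

omit h in
lemma Fs_sq_mul (θ r : ℝ) : θ ^ 2 * Fs (θ ^ 2) (r ^ 2) = Real.cosh (θ * r) - 1 := by
  have h1 := sq_mul_St_two_sq (θ * r)
  unfold Fs
  rw [← h1, mul_pow]
  ring

omit h in
lemma Fs1_sq_mul (θ r : ℝ) : 2 * (θ * r) * Fs1 (θ ^ 2) (r ^ 2) = Real.sinh (θ * r) := by
  have h1 := mul_St_one_sq (θ * r)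
  unfold Fs1
  rw [← h1, mul_pow]
  ring

/-- `2 r Φ₀' = L₀ Φ₀`. -/
lemma PP.Fs1_L {r : ℝ} (hr : 0 < r) :
    2 * r * Fs1 (θ ^ 2) (r ^ 2) = Lz θ r * Fs (θ ^ 2) (r ^ 2) := by
  have h1 := Fs1_sq_mul θ r
  have h2 := Fs_sq_mul θ r
  have h3 := Lz_mul h.θ0 hr
  rw [← h1, ← h2] at h3
  have hθ := h.θ0.ne'
  have h4 : θ ^ 2 * (2 * r * Fs1 (θ ^ 2) (r ^ 2)) = θ ^ 2 * (Lz θ r * Fs (θ ^ 2) (r ^ 2)) := by
    linear_combination -h3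
  exact mul_left_cancel₀ (pow_ne_zero 2 hθ) h4

/-- `2 r Φ'(r²) = L Φ(r²)`. -/
lemma PP.Ph1_L {r : ℝ} (hr : 0 < r) :
    2 * r * Ph1 θ Li ε r₁ δ (r ^ 2) = Lf θ Li ε r₁ δ r * Ph θ Li ε r₁ δ (r ^ 2) := by
  have h1 := h.Fs1_L hr
  have h2 : 2 * r * kz θ Li ε r₁ δ (r ^ 2) = Lz θ r - Lf θ Li ε r₁ δ r := by
    rw [h.kz_eq (by positivity), Real.sqrt_sq hr.le]
    field_simp
  unfold Ph1 Ph
  linear_combination (Real.exp (-Dz θ Li ε r₁ δ (r ^ 2))) * h1 -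
    Fs (θ ^ 2) (r ^ 2) * (Real.exp (-Dz θ Li ε r₁ δ (r ^ 2))) * h2

/-- `S' = L S`. -/
lemma PP.hasDerivAt_S {r : ℝ} (hr : 0 < r) : HasDerivAt (fun r => Ph θ Li ε r₁ δ (r ^ 2))
    (Lf θ Li ε r₁ δ r * Ph θ Li ε r₁ δ (r ^ 2)) r := by
  have h1 : HasDerivAt (fun r : ℝ => r ^ 2) (2 * r) r := by
    simpa using hasDerivAt_pow 2 r
  refine ((h.d2_Ph.d1 (r ^ 2)).comp r h1).congr_deriv ?_
  rw [← h.Ph1_L hr]
  ring

/-- `4 r² Φ''(r²) = S (L² - (1 + e) L / r)`. -/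
lemma PP.Ph2_L {r : ℝ} (hr : 0 < r) :
    4 * r ^ 2 * Ph2 θ Li ε r₁ δ (r ^ 2) = Ph θ Li ε r₁ δ (r ^ 2) *
      (Lf θ Li ε r₁ δ r ^ 2 - (1 + ef θ Li ε r₁ δ r) * Lf θ Li ε r₁ δ r / r) := by
  have h1 : HasDerivAt (fun r : ℝ => r ^ 2) (2 * r) r := by
    simpa using hasDerivAt_pow 2 r
  have hl := ((hasDerivAt_id r).const_mul 2).mul ((h.d2_Ph.d2 (r ^ 2)).comp r h1)
  have hrr := (h.hasDerivAt_Lf hr).mul (h.hasDerivAt_S hr)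
  have he : ((fun r : ℝ => 2 * id r) * (Ph1 θ Li ε r₁ δ ∘ fun r => r ^ 2)) =ᶠ[𝓝 r]
      (Lf θ Li ε r₁ δ * fun r => Ph θ Li ε r₁ δ (r ^ 2)) := by
    filter_upwards [Ioi_mem_nhds hr] with u hu
    exact h.Ph1_L hu
  have h3 := (hrr.congr_of_eventuallyEq he).unique hl
  simp only [id, Function.comp_apply] at h3
  have h4 := h.Ph1_L hr
  have hr' := hr.ne'
  field_simp at h3 ⊢
  linear_combination (-1 : ℝ) * h3 - h4

lemma PP.S_pos {s : ℝ} (hs : 0 < s) : 0 < Ph θ Li ε r₁ δ s := by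
  refine mul_pos (mul_pos hs (St_pos ?_ 2)) (Real.exp_pos _)
  have := h.θ0
  positivity

lemma PP.Ph1_pos {s : ℝ} (hs : 0 ≤ s) : 0 < Ph1 θ Li ε r₁ δ s := by
  rcases hs.eq_or_lt with rfl | hs
  · rw [h.Ph1_eq (by positivity)]
    unfold Fs1
    have := St_pos (s := θ ^ 2 * 0) (by simp) 1
    positivity
  · have h1 : 0 < √s := Real.sqrt_pos.2 hs
    have h2 := h.Ph1_L h1
    rw [Real.sq_sqrt hs.le] at h2
    have h3 : 0 < 2 * √s * Ph1 θ Li ε r₁ δ s := by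
      rw [h2]
      exact mul_pos (h.Lf_pos _) (h.S_pos hs)
    exact (mul_pos_iff_of_pos_left (by positivity)).1 h3

/-- Exponential growth at rate `Li`. -/
lemma PP.S_far {R₁ : ℝ} (hR : 0 < R₁) (h1 : ∀ r, R₁ ≤ r → Lf θ Li ε r₁ δ r = Li) {r : ℝ}
    (hr : R₁ ≤ r) : Ph θ Li ε r₁ δ (r ^ 2) =
      Ph θ Li ε r₁ δ (R₁ ^ 2) * Real.exp (Li * (r - R₁)) := by
  have key : ∀ u ∈ Icc R₁ r, Ph θ Li ε r₁ δ (u ^ 2) * Real.exp (-(Li * u)) =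
      Ph θ Li ε r₁ δ (R₁ ^ 2) * Real.exp (-(Li * R₁)) := by
    refine constant_of_derivWithin_zero ?_ ?_
    · intro u hu
      have hu0 : 0 < u := hR.trans_le hu.1
      have hd : HasDerivAt (fun u => Real.exp (-(Li * u))) (Real.exp (-(Li * u)) * (-Li)) u := by
        have := ((hasDerivAt_id u).const_mul Li).fun_neg.exp
        simpa using this
      exact ((h.hasDerivAt_S hu0).mul hd).differentiableAt.differentiableWithinAt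
    · intro u hu
      have hu0 : 0 < u := hR.trans_le hu.1
      have hd : HasDerivAt (fun u => Real.exp (-(Li * u))) (Real.exp (-(Li * u)) * (-Li)) u := by
        have := ((hasDerivAt_id u).const_mul Li).fun_neg.exp
        simpa using this
      have h2 := ((h.hasDerivAt_S hu0).mul hd).hasDerivWithinAt (s := Icc R₁ r)
      have h3 := h2.derivWithin (uniqueDiffOn_Icc (hu.1.trans_lt hu.2) u ⟨hu.1, hu.2.le⟩)
      refine h3.trans ?_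
      rw [h1 u hu.1]
      ring
  have h2 := key r ⟨hr, le_rfl⟩
  have h3 : Real.exp (Li * (r - R₁)) = Real.exp (Li * r) * Real.exp (-(Li * R₁)) := by
    rw [← Real.exp_add]
    congr 1
    ring
  have h4 : Real.exp (-(Li * r)) * Real.exp (Li * r) = 1 := by
    rw [← Real.exp_add]
    simp
  rw [h3]
  linear_combination Real.exp (Li * r) * h2 - Ph θ Li ε r₁ δ (r ^ 2) * h4

/-- All derivatives of `L` are bounded away from `0`. -/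
lemma PP.exists_bound (k : ℕ) {c₀ : ℝ} (hc : 0 < c₀) :
    ∃ C, ∀ r, c₀ ≤ r → |iteratedDeriv k (Lf θ Li ε r₁ δ) r| ≤ C := by
  obtain ⟨R₁, hR, hR1⟩ := h.exists_R
  have hcont : ContinuousOn (iteratedDeriv k (Lf θ Li ε r₁ δ)) (Ioi 0) := by
    have : ∀ k : ℕ, ContDiffOn ℝ ∞ (iteratedDeriv k (Lf θ Li ε r₁ δ)) (Ioi 0) := by
      intro k
      induction k with
      | zero => rw [iteratedDeriv_zero]; exact h.contDiffOn_Lf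
      | succ k ih => rw [iteratedDeriv_succ]; exact ih.deriv_of_isOpen isOpen_Ioi (by simp)
    exact (this k).continuousOn
  obtain ⟨C, hC⟩ := (isCompact_Icc (a := c₀) (b := R₁ + 1)).exists_bound_of_continuousOn
    (hcont.mono fun r hr => hc.trans_le hr.1)
  refine ⟨max C (max |Li| 0), fun r hr => ?_⟩
  rcases le_total r (R₁ + 1) with h1 | h1
  · exact (hC r ⟨hr, h1⟩).trans (le_max_left _ _)
  · have h2 : Lf θ Li ε r₁ δ =ᶠ[𝓝 r] fun _ => Li := by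
      filter_upwards [Ioi_mem_nhds (show R₁ < r by linarith)] with u hu using (hR1 u (le_of_lt hu)).1
    rw [(h2.iteratedDeriv k).eq_of_nhds]
    refine le_trans ?_ (le_max_right _ _)
    rw [iteratedDeriv_const]
    split_ifs
    · exact le_max_left _ _
    · simp

end prof

/-- The radial slow profile `S(r) = Φ(r²)` with `L = S' / S`, `e = -r L' / L`. -/
structure IsProf (θ Li ε r₁ R₁ : ℝ) (Φ Φ₁ Φ₂ L e : ℝ → ℝ) : Prop where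
  sm : ContDiff ℝ ∞ Φ
  d2 : D2 Φ Φ₁ Φ₂
  eq0 : ∀ s, s ≤ r₁ ^ 2 → Φ s = Fs (θ ^ 2) s
  eq1 : ∀ s, s ≤ r₁ ^ 2 → Φ₁ s = Fs1 (θ ^ 2) s
  eq2 : ∀ s, s < r₁ ^ 2 → Φ₂ s = Fs2 (θ ^ 2) s
  pos : ∀ s, 0 < s → 0 < Φ s
  pos1 : ∀ s, 0 ≤ s → 0 < Φ₁ s
  smL : ContDiffOn ℝ ∞ L (Ioi 0)
  sme : ContDiffOn ℝ ∞ e (Ioi 0)
  dS : ∀ r, 0 < r → HasDerivAt (fun r => Φ (r ^ 2)) (L r * Φ (r ^ 2)) r
  dL : ∀ r, 0 < r → HasDerivAt L (-(e r) * L r / r) r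
  one : ∀ r, 0 < r → 2 * r * Φ₁ (r ^ 2) = L r * Φ (r ^ 2)
  two : ∀ r, 0 < r → 4 * r ^ 2 * Φ₂ (r ^ 2) = Φ (r ^ 2) * (L r ^ 2 - (1 + e r) * L r / r)
  L_near : ∀ r, 0 < r → r ≤ r₁ → L r = Lz θ r
  e_near : ∀ r, 0 < r → r ≤ r₁ → e r = ez θ r
  e_nonneg : ∀ r, 0 < r → 0 ≤ e r
  e_le : ∀ r, 0 < r → e r ≤ ez θ r + ε
  Li_pos : 0 < Li
  Li_le : ∀ r, Li ≤ L r
  L_le : ∀ r, 0 < r → L r ≤ Lz θ r
  anti : AntitoneOn L (Ioi 0)
  r_lt : r₁ < R₁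
  L_far : ∀ r, R₁ ≤ r → L r = Li
  e_far : ∀ r, R₁ ≤ r → e r = 0
  S_far : ∀ r, R₁ ≤ r → Φ (r ^ 2) = Φ (R₁ ^ 2) * Real.exp (Li * (r - R₁))
  bd : ∀ (k : ℕ) (c₀ : ℝ), 0 < c₀ → ∃ C, ∀ r, c₀ ≤ r → |iteratedDeriv k L r| ≤ C

theorem exists_profile {θ Li ε r₁ δ : ℝ} (h : PP θ Li ε r₁ δ) :
    ∃ (R₁ : ℝ) (Φ Φ₁ Φ₂ L e : ℝ → ℝ), IsProf θ Li ε r₁ R₁ Φ Φ₁ Φ₂ L e := by
  obtain ⟨R₁, hR, hR1⟩ := h.exists_R
  refine ⟨R₁, Ph θ Li ε r₁ δ, Ph1 θ Li ε r₁ δ, Ph2 θ Li ε r₁ δ, Lf θ Li ε r₁ δ,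
    ef θ Li ε r₁ δ, ?_⟩
  exact
    { sm := h.contDiff_Ph
      d2 := h.d2_Ph
      eq0 := fun s hs => h.Ph_eq hs
      eq1 := fun s hs => h.Ph1_eq hs
      eq2 := fun s hs => h.Ph2_eq hs
      pos := fun s hs => h.S_pos hs
      pos1 := fun s hs => h.Ph1_pos hs
      smL := h.contDiffOn_Lf
      sme := h.contDiffOn_ef
      dS := fun r hr => h.hasDerivAt_S hr
      dL := fun r hr => h.hasDerivAt_Lf hr
      one := fun r hr => h.Ph1_L hr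
      two := fun r hr => h.Ph2_L hr
      L_near := fun r hr h1 => h.Lf_eq hr h1
      e_near := fun r hr h1 => h.ef_eq hr h1
      e_nonneg := fun r hr => h.ef_nonneg hr
      e_le := fun r hr => h.ef_le hr
      Li_pos := h.L0
      Li_le := fun r => h.Li_le r
      L_le := fun r hr => h.Lf_le hr
      anti := h.antitone_Lf
      r_lt := hR
      L_far := fun r hr => (hR1 r hr).1
      e_far := fun r hr => (hR1 r hr).2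
      S_far := fun r hr => h.S_far (h.r0.trans hR) (fun r hr => (hR1 r hr).1) hr
      bd := fun k c₀ hc => h.exists_bound k hc }

/-- The form (P1)-(P3): `e ≤ ε₁` for `r ≥ 1/2`, `1 - e ≥ c min (r², 1)`. -/
theorem exists_profile' {ε₁ Li r₁ : ℝ} (hε : 0 < ε₁) (hε1 : ε₁ < 1) (hL : 0 < Li)
    (hr : 1 / 2 ≤ r₁) : ∃ (θ c R₁ : ℝ) (Φ Φ₁ Φ₂ L e : ℝ → ℝ), 0 < c ∧ 1 ≤ θ ∧
      IsProf θ Li (ε₁ / 2) r₁ R₁ Φ Φ₁ Φ₂ L e ∧ (∀ r, 1 / 2 ≤ r → e r ≤ ε₁) ∧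
      ∀ r, 0 < r → c * min (r ^ 2) 1 ≤ 1 - e r := by
  set θ : ℝ := max (max 1 (Li * Real.exp 1)) (48 / ε₁) with hθ
  have h1 : 1 ≤ θ := (le_max_left _ _).trans (le_max_left _ _)
  have h0 : 0 < θ := by linarith
  have h2 : Li * Real.exp 1 ≤ θ := (le_max_right _ _).trans (le_max_left _ _)
  have h3 : 48 / ε₁ ≤ θ := le_max_right _ _
  have h3' : 48 ≤ θ * ε₁ := by rwa [div_le_iff₀ hε] at h3
  have hP : PP θ Li (ε₁ / 2) r₁ 1 :=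
    { θ0 := h0, L0 := hL, ε0 := by positivity, r0 := by linarith, δ0 := one_pos, le := h2 }
  obtain ⟨R₁, Φ, Φ₁, Φ₂, L, e, hI⟩ := exists_profile hP
  have hez : ∀ r, 1 / 2 ≤ r → ez θ r ≤ ε₁ / 2 := by
    intro r hr2
    have hr0 : 0 < r := by linarith
    refine (ez_le h0 hr0).trans ?_
    rw [div_le_iff₀ (by positivity)]
    have h5 : θ ^ 2 * (1 / 4) ≤ (θ * r) ^ 2 := by
      rw [mul_pow]
      exact mul_le_mul_of_nonneg_left (by nlinarith) (by positivity)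
    have h6 : 48 ≤ θ ^ 2 * ε₁ := by nlinarith
    nlinarith
  refine ⟨θ, min (θ ^ 2 / (6 + θ ^ 2)) (1 - ε₁), R₁, Φ, Φ₁, Φ₂, L, e, ?_, h1, hI, ?_, ?_⟩
  · exact lt_min (by positivity) (by linarith)
  · intro r hr2
    have hr0 : 0 < r := by linarith
    have := hI.e_le r hr0
    have := hez r hr2
    linarith
  · intro r hr0
    have hm0 : 0 ≤ min (r ^ 2) 1 := le_min (by positivity) zero_le_one
    rcases le_total (1 / 2) r with h4 | h4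
    · have h5 := hI.e_le r hr0
      have h6 := hez r h4
      have h7 : min (θ ^ 2 / (6 + θ ^ 2)) (1 - ε₁) * min (r ^ 2) 1 ≤ (1 - ε₁) * 1 :=
        mul_le_mul (min_le_right _ _) (min_le_right _ _) hm0 (by linarith)
      linarith
    · rw [hI.e_near r hr0 (h4.trans hr)]
      have h5 := ez_le h0 hr0
      have h6 : min (θ ^ 2 / (6 + θ ^ 2)) (1 - ε₁) * min (r ^ 2) 1 ≤
          θ ^ 2 / (6 + θ ^ 2) * r ^ 2 :=
        mul_le_mul (min_le_left _ _) (min_le_left _ _) hm0 (by positivity)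
      have h7 : θ ^ 2 / (6 + θ ^ 2) * r ^ 2 ≤ 1 - 6 / (6 + (θ * r) ^ 2) := by
        have hr1 : r ^ 2 ≤ 1 := by nlinarith
        have e1 : 1 - 6 / (6 + (θ * r) ^ 2) = θ ^ 2 * r ^ 2 / (6 + (θ * r) ^ 2) := by
          field_simp
          ring
        rw [e1, div_mul_eq_mul_div, div_le_div_iff₀ (by positivity) (by positivity)]
        have h8 : (θ * r) ^ 2 ≤ θ ^ 2 := by
          rw [mul_pow]
          nlinarith [sq_nonneg θ]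
        exact mul_le_mul_of_nonneg_left (by linarith) (by positivity)
      linarith

end Vale.Agent.P088.R2.H644
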