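import Mathlib

/-!
# The functions `St m s = ∑ s^k / (2k + m)!`

`St 0 (r²) = cosh r`, `r St 1 (r²) = sinh r`, `r² St 2 (r²) = cosh r - 1`,
`(St m)' = (St (m+1) - m St (m+2)) / 2`; all are smooth on `ℝ` and positive on `[0, ∞)`.
With `s = θ² |q|²` they give smooth functions of `q`.
-/

open Filter Set
open scoped ContDiff Nat Topology

noncomputable section

namespace Vale.Agent.P088.R2.H644

/-- `St m s = ∑ s^k / (2k + m)!`. -/
def St (m : ℕ) (s : ℝ) : ℝ := ∑' k : ℕ, s ^ k / ((2 * k + m)! : ℝ)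

lemma fac_le (m k : ℕ) : (k ! : ℝ) ≤ ((2 * k + m)! : ℝ) := by
  exact_mod_cast Nat.factorial_le (by omega)

lemma summable_St (m : ℕ) (s : ℝ) : Summable fun k : ℕ => s ^ k / ((2 * k + m)! : ℝ) := by
  refine Summable.of_norm_bounded (g := fun k : ℕ => |s| ^ k / (k ! : ℝ))
    (Real.summable_pow_div_factorial |s|) fun k => ?_
  rw [norm_div, norm_pow, Real.norm_eq_abs, Real.norm_eq_abs,
    abs_of_pos (show (0 : ℝ) < ((2 * k + m)! : ℝ) by positivity)]
  exact div_le_div_of_nonneg_left (by positivity) (by positivity) (fac_le m k)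

lemma St_step (m : ℕ) (s : ℝ) : St m s = 1 / (m ! : ℝ) + s * St (m + 2) s := by
  unfold St
  rw [(summable_St m s).tsum_eq_zero_add, ← tsum_mul_left]
  congr 1
  · simp
  · refine tsum_congr fun k => ?_
    rw [show 2 * (k + 1) + m = 2 * k + (m + 2) by ring, pow_succ]
    ring

lemma St_zero_arg (m : ℕ) : St m 0 = 1 / (m ! : ℝ) := by
  rw [St_step]; ring

/-- The derivative of `St m`. -/
def dSt (m : ℕ) (s : ℝ) : ℝ := (St (m + 1) s - m * St (m + 2) s) / 2

lemma hasDerivAt_St (m : ℕ) (s : ℝ) : HasDerivAt (St m) (dSt m s) s := by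
  set R : ℝ := |s| + 1 with hR
  have hR0 : 0 < R := by positivity
  have hsum : Summable fun k : ℕ => (k : ℝ) * R ^ (k - 1) / ((2 * k + m)! : ℝ) := by
    rw [← summable_nat_add_iff 1]
    refine Summable.of_nonneg_of_le (fun k => by positivity) (fun k => ?_)
      (Real.summable_pow_div_factorial R)
    have h1 : ((k + 1 : ℕ) : ℝ) * (k ! : ℝ) ≤ ((2 * (k + 1) + m)! : ℝ) := by
      have : (k + 1) * k ! ≤ (2 * (k + 1) + m)! := by
        rw [← Nat.factorial_succ]; exact Nat.factorial_le (by omega)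
      exact_mod_cast this
    rw [Nat.add_sub_cancel, div_le_div_iff₀ (by positivity) (by positivity)]
    calc ((k + 1 : ℕ) : ℝ) * R ^ k * (k ! : ℝ) = R ^ k * (((k + 1 : ℕ) : ℝ) * (k ! : ℝ)) := by ring
      _ ≤ _ := mul_le_mul_of_nonneg_left h1 (by positivity)
  have h := hasDerivAt_tsum_of_isPreconnected (𝕜 := ℝ) (F := ℝ)
    (g := fun k s => s ^ k / ((2 * k + m)! : ℝ))
    (g' := fun k s => (k : ℝ) * s ^ (k - 1) / ((2 * k + m)! : ℝ))
    (t := Metric.ball (0 : ℝ) R) (y₀ := s) (y := s) hsum Metric.isOpen_ball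
    (convex_ball (0 : ℝ) R).isPreconnected
    (fun k y _ => (hasDerivAt_pow k y).div_const _)
    (fun k y hy => ?_) (by simp [hR]) (summable_St m s) (by simp [hR])
  · have e : (∑' k : ℕ, (k : ℝ) * s ^ (k - 1) / ((2 * k + m)! : ℝ)) = dSt m s := by
      have hs0 : Summable fun k : ℕ => (k : ℝ) * s ^ (k - 1) / ((2 * k + m)! : ℝ) := by
        refine Summable.of_norm_bounded hsum fun k => ?_
        rw [norm_div, norm_mul, norm_pow, Real.norm_eq_abs, Real.norm_eq_abs, Real.norm_eq_abs,
          abs_of_nonneg (Nat.cast_nonneg k), abs_of_pos (show (0 : ℝ) < ((2 * k + m)! : ℝ) by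
            positivity)]
        gcongr
        linarith
      rw [hs0.tsum_eq_zero_add]
      simp only [Nat.cast_zero, zero_mul, zero_div, zero_add, Nat.add_sub_cancel]
      unfold dSt St
      rw [← tsum_mul_left, ← (summable_St (m + 1) s).tsum_sub ((summable_St (m + 2) s).mul_left _),
        ← tsum_div_const]
      refine tsum_congr fun k => ?_
      rw [show 2 * (k + 1) + m = (2 * k + (m + 1)) + 1 by ring,
        show 2 * k + (m + 2) = (2 * k + (m + 1)) + 1 by ring, Nat.factorial_succ]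
      have h1 : ((2 * k + (m + 1))! : ℝ) ≠ 0 := by positivity
      push_cast
      have h2 : (2 * (k : ℝ) + (m + 1) + 1) ≠ 0 := by positivity
      field_simp
      ring
    rw [← e]
    exact h
  · rw [norm_div, norm_mul, norm_pow, Real.norm_eq_abs, Real.norm_eq_abs, Real.norm_eq_abs,
      abs_of_nonneg (Nat.cast_nonneg k), abs_of_pos (show (0 : ℝ) < ((2 * k + m)! : ℝ) by
        positivity)]
    have : |y| ≤ R := by
      have := Metric.mem_ball.1 hy
      rw [Real.dist_eq, sub_zero] at this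
      exact this.le
    gcongr

lemma differentiable_St (m : ℕ) : Differentiable ℝ (St m) :=
  fun s => (hasDerivAt_St m s).differentiableAt

lemma deriv_St (m : ℕ) : deriv (St m) = dSt m :=
  funext fun s => (hasDerivAt_St m s).deriv

lemma contDiff_St_nat (k : ℕ) : ∀ m, ContDiff ℝ k (St m) := by
  induction k with
  | zero => intro m; exact contDiff_zero.2 (differentiable_St m).continuous
  | succ k ih =>
    intro m
    have h := (contDiff_succ_iff_deriv (𝕜 := ℝ) (n := (k : WithTop ℕ∞)) (F := ℝ) (f := St m)).2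
      ⟨differentiable_St m, by simp, by
        rw [deriv_St]
        unfold dSt
        exact ((ih (m + 1)).sub (contDiff_const.mul (ih (m + 2)))).div_const 2⟩
    exact_mod_cast h

lemma contDiff_St (m : ℕ) : ContDiff ℝ ∞ (St m) :=
  contDiff_infty.2 fun k => contDiff_St_nat k m

/-! ### Values -/

lemma St_zero_sq (r : ℝ) : St 0 (r ^ 2) = Real.cosh r := by
  have h := (Real.hasSum_cosh r).tsum_eq
  rw [← h]
  unfold St
  exact tsum_congr fun k => by rw [← pow_mul, add_zero]

lemma mul_St_one_sq (r : ℝ) : r * St 1 (r ^ 2) = Real.sinh r := by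
  have h := (Real.hasSum_sinh r).tsum_eq
  rw [← h]
  unfold St
  rw [← tsum_mul_left]
  exact tsum_congr fun k => by rw [← pow_mul, pow_succ]; ring

lemma sq_mul_St_two_sq (r : ℝ) : r ^ 2 * St 2 (r ^ 2) = Real.cosh r - 1 := by
  have h := St_step 0 (r ^ 2)
  rw [St_zero_sq] at h
  simp only [Nat.factorial_zero, Nat.cast_one, div_one, zero_add] at h
  linarith

lemma cube_mul_St_three_sq (r : ℝ) : r ^ 3 * St 3 (r ^ 2) = Real.sinh r - r := by
  have h := St_step 1 (r ^ 2)
  have h2 := mul_St_one_sq r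
  simp only [Nat.factorial_one, Nat.cast_one, div_one] at h
  rw [h] at h2
  norm_num at h2
  linarith

/-! ### Inequalities for `s ≥ 0` -/

section pos

variable {s : ℝ} (hs : 0 ≤ s)
include hs

lemma St_nonneg (m : ℕ) : 0 ≤ St m s := tsum_nonneg fun k => by positivity

lemma one_div_le_St (m : ℕ) : 1 / (m ! : ℝ) ≤ St m s := by
  rw [St_step]
  have := mul_nonneg hs (St_nonneg hs (m + 2))
  linarith

lemma St_pos (m : ℕ) : 0 < St m s :=
  lt_of_lt_of_le (by positivity) (one_div_le_St hs m)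

lemma St_succ_le (m : ℕ) : ((m : ℝ) + 1) * St (m + 1) s ≤ St m s := by
  unfold St
  rw [← tsum_mul_left]
  refine ((summable_St (m + 1) s).mul_left _).tsum_le_tsum (fun k => ?_) (summable_St m s)
  rw [show 2 * k + (m + 1) = (2 * k + m) + 1 by ring, Nat.factorial_succ]
  push_cast
  rw [mul_div_assoc', div_le_div_iff₀ (by positivity) (by positivity)]
  have h1 : (0 : ℝ) ≤ s ^ k := by positivity
  have h2 : (0 : ℝ) ≤ ((2 * k + m)! : ℝ) := by positivity
  have h3 : (m : ℝ) + 1 ≤ 2 * k + m + 1 := by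
    have : (0 : ℝ) ≤ k := by positivity
    linarith
  nlinarith [mul_nonneg h1 h2, mul_le_mul_of_nonneg_right h3 (mul_nonneg h1 h2)]

lemma St_succ_le' (m : ℕ) : St (m + 1) s ≤ St m s := by
  have h1 := St_succ_le hs m
  have h2 := St_nonneg hs (m + 1)
  have h3 : (0 : ℝ) ≤ m := by positivity
  nlinarith

lemma St_one_le : 1 ≤ St 1 s := by simpa using one_div_le_St hs 1

lemma one_le_St_zero : 1 ≤ St 0 s := by simpa using one_div_le_St hs 0

lemma half_le_St_two : 1 / 2 ≤ St 2 s := by simpa [Nat.factorial] using one_div_le_St hs 2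

lemma dSt_nonneg (m : ℕ) : 0 ≤ dSt m s := by
  have h1 := St_succ_le hs (m + 1)
  have h2 := St_nonneg hs (m + 2)
  unfold dSt
  push_cast at h1
  have h3 : (m + 1 + 1 : ℕ) = m + 2 := rfl
  rw [h3] at h1
  nlinarith

end pos

lemma St_mono (m : ℕ) : MonotoneOn (St m) (Ici 0) := by
  refine monotoneOn_of_deriv_nonneg (convex_Ici 0) (differentiable_St m).continuous.continuousOn
    (differentiable_St m).differentiableOn fun s hs => ?_
  rw [deriv_St]
  rw [interior_Ici] at hs
  exact dSt_nonneg hs.le m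

end Vale.Agent.P088.R2.H644
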