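import Vale.Agent.P088.R2.H558.E1
import Vale.Agent.P088.R2.H644.W.St

/-!
# P088: functions of `|x - y|²` on pairs of points

`qq z = |x - y|²`, `qv i z = x_i - y_i`, `Sq m t z = St m (t |x - y|²)`,
`Fq t z = |x - y|² St 2 (t |x - y|²) = (cosh (θ |x - y|) - 1) / θ²` for `t = θ²`.
-/

open Set Filter
open scoped ContDiff Topology

noncomputable section

namespace Vale.Agent.P088.R2.H644

open Vale.Agent.P088.LR Vale.Agent.P088.HY

variable {n : ℕ}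

/-- `x_i - y_i`. -/
def qv (i : Fin n) (z : VV n) : ℝ := z.1 i - z.2 i

/-- `|x - y|²`. -/
def qq (z : VV n) : ℝ := sq (z.1 - z.2)

lemma qq_eq (z : VV n) : qq z = ∑ j, qv j z ^ 2 := rfl

lemma qq_nonneg (z : VV n) : 0 ≤ qq z := sq_nonneg' _

lemma contDiff_qv (i : Fin n) : ContDiff ℝ ∞ (qv i : VV n → ℝ) :=
  (contDiff_fst' i).sub (contDiff_snd' i)

lemma contDiff_qq : ContDiff ℝ ∞ (qq : VV n → ℝ) := by
  have h : (qq : VV n → ℝ) = fun z => ∑ j, qv j z ^ 2 := funext qq_eq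
  rw [h]
  exact ContDiff.sum fun j _ => (contDiff_qv j).pow 2

lemma diff_qv (i : Fin n) (z : VV n) : DifferentiableAt ℝ (qv i) z :=
  (contDiff_qv i).contDiffAt.differentiableAt (by simp)

lemma diff_qq (z : VV n) : DifferentiableAt ℝ (qq : VV n → ℝ) z :=
  contDiff_qq.contDiffAt.differentiableAt (by simp)

lemma dd_qv (e : VV n) (i : Fin n) (z : VV n) : dd e (qv i) z = e.1 i - e.2 i := by
  have h : (qv i : VV n → ℝ) = fun z => z.1 i - z.2 i := rfl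
  rw [h, dd_sub ((contDiff_fst' i).contDiffAt.differentiableAt (by simp))
    ((contDiff_snd' i).contDiffAt.differentiableAt (by simp)), dd_fst, dd_snd]

lemma dx_qv (i j : Fin n) (z : VV n) : dx j (qv i) z = if i = j then 1 else 0 := by
  rw [dx_eq, dd_qv]
  simp [Pi.single_apply]

lemma dy_qv (i j : Fin n) (z : VV n) : dy j (qv i) z = if i = j then -1 else 0 := by
  rw [dy_eq, dd_qv]
  simp only [Pi.single_apply, Pi.zero_apply]
  split_ifs <;> simp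

lemma dd_qq (e : VV n) (z : VV n) : dd e qq z = 2 * ∑ j, qv j z * (e.1 j - e.2 j) := by
  have h : (qq : VV n → ℝ) = fun z => ∑ j, qv j z ^ 2 := funext qq_eq
  rw [h, dd_sum Finset.univ (F := fun j z => qv j z ^ 2) fun j _ => (diff_qv j z).pow 2,
    Finset.mul_sum]
  refine Finset.sum_congr rfl fun j _ => ?_
  rw [dd_pow (diff_qv j z), dd_qv]
  norm_num
  ring

lemma dx_qq (i : Fin n) (z : VV n) : dx i qq z = 2 * qv i z := by
  rw [dx_eq, dd_qq]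
  simp [Pi.single_apply]

lemma dy_qq (i : Fin n) (z : VV n) : dy i qq z = -2 * qv i z := by
  rw [dy_eq, dd_qq]
  simp [Pi.single_apply]

/-! ### Radial functions -/

lemma contDiff_rad {φ : ℝ → ℝ} (h : ContDiff ℝ ∞ φ) : ContDiff ℝ ∞ fun z : VV n => φ (qq z) :=
  h.comp contDiff_qq

lemma dx_rad {φ : ℝ → ℝ} {φ' : ℝ} {z : VV n} (h : HasDerivAt φ φ' (qq z)) (i : Fin n) :
    dx i (fun z => φ (qq z)) z = 2 * φ' * qv i z := by
  rw [dx_eq, dd_comp h (diff_qq z), ← dx_eq, dx_qq]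
  ring

lemma dy_rad {φ : ℝ → ℝ} {φ' : ℝ} {z : VV n} (h : HasDerivAt φ φ' (qq z)) (i : Fin n) :
    dy i (fun z => φ (qq z)) z = -(2 * φ' * qv i z) := by
  rw [dy_eq, dd_comp h (diff_qq z), ← dy_eq, dy_qq]
  ring

/-- `St m (t |x - y|²)`. -/
def Sq (m : ℕ) (t : ℝ) (z : VV n) : ℝ := St m (t * qq z)

lemma hasDerivAt_St_mul (m : ℕ) (t s : ℝ) :
    HasDerivAt (fun s => St m (t * s)) (t * dSt m (t * s)) s := by
  have h := (hasDerivAt_St m (t * s)).comp s ((hasDerivAt_id s).const_mul t)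
  simp only [mul_one] at h
  rw [mul_comm]
  exact h

lemma contDiff_St_mul (m : ℕ) (t : ℝ) : ContDiff ℝ ∞ fun s => St m (t * s) :=
  (contDiff_St m).comp (contDiff_const.mul contDiff_id)

lemma contDiff_Sq (m : ℕ) (t : ℝ) : ContDiff ℝ ∞ (Sq m t : VV n → ℝ) :=
  contDiff_rad (contDiff_St_mul m t)

lemma diff_Sq (m : ℕ) (t : ℝ) (z : VV n) : DifferentiableAt ℝ (Sq m t) z :=
  (contDiff_Sq m t).contDiffAt.differentiableAt (by simp)

lemma dx_Sq (m : ℕ) (t : ℝ) (i : Fin n) (z : VV n) :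
    dx i (Sq m t) z = t * (Sq (m + 1) t z - m * Sq (m + 2) t z) * qv i z := by
  have h := dx_rad (hasDerivAt_St_mul m t (qq z)) i
  unfold dSt at h
  refine h.trans ?_
  unfold Sq
  ring

lemma dy_Sq (m : ℕ) (t : ℝ) (i : Fin n) (z : VV n) :
    dy i (Sq m t) z = -(t * (Sq (m + 1) t z - m * Sq (m + 2) t z) * qv i z) := by
  have h := dy_rad (hasDerivAt_St_mul m t (qq z)) i
  unfold dSt at h
  refine h.trans ?_
  unfold Sq
  ring

/-! ### `F = (cosh (θ |x - y|) - 1) / θ²`, `t = θ²` -/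

/-- `|x - y|² St 2 (t |x - y|²)`. -/
def Fq (t : ℝ) (z : VV n) : ℝ := qq z * Sq 2 t z

lemma Fq_cosh {θ : ℝ} (hθ : θ ≠ 0) (z : VV n) :
    Fq (θ ^ 2) z = (Real.cosh (θ * √(qq z)) - 1) / θ ^ 2 := by
  have h := sq_mul_St_two_sq (θ * √(qq z))
  have h1 : (θ * √(qq z)) ^ 2 = θ ^ 2 * qq z := by
    rw [mul_pow, Real.sq_sqrt (qq_nonneg z)]
  rw [h1] at h
  rw [← h, Fq, Sq]
  field_simp

lemma mul_Sq_one {θ : ℝ} (z : VV n) :
    θ * √(qq z) * Sq 1 (θ ^ 2) z = Real.sinh (θ * √(qq z)) := by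
  have h := mul_St_one_sq (θ * √(qq z))
  have h1 : (θ * √(qq z)) ^ 2 = θ ^ 2 * qq z := by
    rw [mul_pow, Real.sq_sqrt (qq_nonneg z)]
  rw [h1] at h
  exact h

lemma Sq_zero_cosh {θ : ℝ} (z : VV n) : Sq 0 (θ ^ 2) z = Real.cosh (θ * √(qq z)) := by
  have h := St_zero_sq (θ * √(qq z))
  have h1 : (θ * √(qq z)) ^ 2 = θ ^ 2 * qq z := by
    rw [mul_pow, Real.sq_sqrt (qq_nonneg z)]
  rw [h1] at h
  exact h

lemma Sq_zero_eq (t : ℝ) (z : VV n) : Sq 0 t z = 1 + t * Fq t z := by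
  unfold Sq Fq
  rw [St_step]
  simp [Sq]
  ring

lemma contDiff_Fq (t : ℝ) : ContDiff ℝ ∞ (Fq t : VV n → ℝ) := contDiff_qq.mul (contDiff_Sq 2 t)

lemma dx_Fq (t : ℝ) (i : Fin n) (z : VV n) : dx i (Fq t) z = Sq 1 t z * qv i z := by
  have h : (Fq t : VV n → ℝ) = fun z => qq z * Sq 2 t z := rfl
  rw [h, dx_eq, dd_mul (diff_qq z) (diff_Sq 2 t z), ← dx_eq, ← dx_eq, dx_qq, dx_Sq]
  unfold Sq
  rw [St_step 1 (t * qq z), St_step 2 (t * qq z)]
  norm_num [Nat.factorial]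
  ring

lemma dy_Fq (t : ℝ) (i : Fin n) (z : VV n) : dy i (Fq t) z = -(Sq 1 t z * qv i z) := by
  have h : (Fq t : VV n → ℝ) = fun z => qq z * Sq 2 t z := rfl
  rw [h, dy_eq, dd_mul (diff_qq z) (diff_Sq 2 t z), ← dy_eq, ← dy_eq, dy_qq, dy_Sq]
  unfold Sq
  rw [St_step 1 (t * qq z), St_step 2 (t * qq z)]
  norm_num [Nat.factorial]
  ring

lemma Fq_nonneg {t : ℝ} (ht : 0 ≤ t) (z : VV n) : 0 ≤ Fq t z :=
  mul_nonneg (qq_nonneg z) (St_nonneg (mul_nonneg ht (qq_nonneg z)) 2)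

lemma half_qq_le_Fq {t : ℝ} (ht : 0 ≤ t) (z : VV n) : qq z / 2 ≤ Fq t z := by
  have h := half_le_St_two (mul_nonneg ht (qq_nonneg z))
  have := mul_le_mul_of_nonneg_left h (qq_nonneg z)
  unfold Fq Sq
  linarith

lemma one_le_Sq_one {t : ℝ} (ht : 0 ≤ t) (z : VV n) : 1 ≤ Sq 1 t z :=
  St_one_le (mul_nonneg ht (qq_nonneg z))

/-- Second derivatives of `F`: `∂_{x_j} ∂_{x_i} F = δ_ij S_1 + t (S_2 - S_3) q_i q_j`. -/
lemma dx_dx_Fq (t : ℝ) (i j : Fin n) (z : VV n) :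
    dx j (dx i (Fq t)) z =
      (if i = j then Sq 1 t z else 0) + t * (Sq 2 t z - Sq 3 t z) * qv i z * qv j z := by
  have h : dx i (Fq t : VV n → ℝ) = fun z => Sq 1 t z * qv i z := funext (dx_Fq t i)
  rw [h, dx_eq, dd_mul (diff_Sq 1 t z) (diff_qv i z), ← dx_eq, ← dx_eq, dx_Sq, dx_qv]
  split_ifs <;> norm_num <;> ring

lemma dy_dx_Fq (t : ℝ) (i j : Fin n) (z : VV n) :
    dy j (dx i (Fq t)) z =
      -((if i = j then Sq 1 t z else 0) + t * (Sq 2 t z - Sq 3 t z) * qv i z * qv j z) := by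
  have h : dx i (Fq t : VV n → ℝ) = fun z => Sq 1 t z * qv i z := funext (dx_Fq t i)
  rw [h, dy_eq, dd_mul (diff_Sq 1 t z) (diff_qv i z), ← dy_eq, ← dy_eq, dy_Sq, dy_qv]
  split_ifs <;> norm_num <;> ring

lemma dx_dy_Fq (t : ℝ) (i j : Fin n) (z : VV n) :
    dx j (dy i (Fq t)) z =
      -((if i = j then Sq 1 t z else 0) + t * (Sq 2 t z - Sq 3 t z) * qv i z * qv j z) := by
  have h : dy i (Fq t : VV n → ℝ) = fun z => -(Sq 1 t z * qv i z) := funext (dy_Fq t i)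
  rw [h, dx_eq, dd_neg, dd_mul (diff_Sq 1 t z) (diff_qv i z), ← dx_eq, ← dx_eq, dx_Sq, dx_qv]
  split_ifs <;> norm_num <;> ring

lemma dy_dy_Fq (t : ℝ) (i j : Fin n) (z : VV n) :
    dy j (dy i (Fq t)) z =
      (if i = j then Sq 1 t z else 0) + t * (Sq 2 t z - Sq 3 t z) * qv i z * qv j z := by
  have h : dy i (Fq t : VV n → ℝ) = fun z => -(Sq 1 t z * qv i z) := funext (dy_Fq t i)
  rw [h, dy_eq, dd_neg, dd_mul (diff_Sq 1 t z) (diff_qv i z), ← dy_eq, ← dy_eq, dy_Sq, dy_qv]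
  split_ifs <;> norm_num <;> ring

end Vale.Agent.P088.R2.H644
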