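import Vale.Agent.P088.R2.H644.W.SymR

/-!
# P088: all derivatives of the stiff part `F = exp (β (x_e + y_e)) Φ(|x - y|²)`

`|D^k F| ≤ C_k F` for `r ≥ c > 0`, `|D^k F| ≤ C_k exp (β (x_e + y_e))` for `r ≤ c'`, and
`D (log F)` is a symbol of order `0` in `r`.
-/

open MeasureTheory Set Filter
open scoped ContDiff Topology

noncomputable section

namespace Vale.Agent.P088.R2.H644.Ch

open Vale.Agent.P088.LR Vale.Agent.P088.HY
open Vale.Agent.P088.R2.H961.GW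
open Vale.Agent.P088.R2.H644.Sy

variable {n : ℕ}

/-! ## Partial derivatives of symbols -/

section part

variable {U : Set (VV n)} {ρ g : VV n → ℝ} {k : ℕ} {f : VV n → ℝ}

theorem sb_dx (hU : IsOpen U) (h : Sb U ρ g (k + 1) f) (i : Fin n) :
    Sb U ρ (fun z => g z * (ρ z)⁻¹) k (dx i f) :=
  (h.fd hU).clm hU (ContinuousLinearMap.apply ℝ ℝ ((Pi.single i 1 : V n), (0 : V n)))

theorem sb_dy (hU : IsOpen U) (h : Sb U ρ g (k + 1) f) (i : Fin n) :
    Sb U ρ (fun z => g z * (ρ z)⁻¹) k (dy i f) :=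
  (h.fd hU).clm hU (ContinuousLinearMap.apply ℝ ℝ ((0 : V n), (Pi.single i 1 : V n)))

/-- Scale one. -/
theorem sb_dx1 (hU : IsOpen U) (h : Sb U (fun _ => 1) g (k + 1) f) (i : Fin n) :
    Sb U (fun _ => 1) g k (dx i f) :=
  (sb_dx hU h i).wcongr fun z _ => by simp

theorem sb_dy1 (hU : IsOpen U) (h : Sb U (fun _ => 1) g (k + 1) f) (i : Fin n) :
    Sb U (fun _ => 1) g k (dy i f) :=
  (sb_dy hU h i).wcongr fun z _ => by simp

end part

/-! ## The exponential factor -/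

/-- The linear form `x_e + y_e`. -/
def dp (e : Fin n) : VV n →L[ℝ] ℝ :=
  (ContinuousLinearMap.proj e).comp
    (ContinuousLinearMap.fst ℝ (V n) (V n) + ContinuousLinearMap.snd ℝ (V n) (V n))

theorem dp_apply (e : Fin n) (z : VV n) : dp e z = z.1 e + z.2 e := rfl

theorem fd_Ee (e : Fin n) (β : ℝ) (z : VV n) : HasFDerivAt (Ee e β) (Ee e β z • (β • dp e)) z := by
  have h : HasFDerivAt (fun z : VV n => β * dp e z) (β • dp e) z :=
    ((dp e).hasFDerivAt).const_mul β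
  exact h.exp

theorem sb_Ee (U : Set (VV n)) (hU : IsOpen U) (e : Fin n) (β : ℝ) (k : ℕ) :
    Sb U (fun _ => 1) (Ee e β) k (Ee e β) := by
  have h := Sb.log (k := k) (ρ := fun _ => 1) hU (contDiff_Ee e β).contDiffOn
    (fun z _ => (fd_Ee e β z).fderiv)
    ((Sb.const U (fun _ => 1) k (β • dp e)).wcongr fun z _ => by simp)
  exact (h.mono_k (Nat.le_succ k)).wcongr fun z _ => (abs_of_pos (Ee_pos e β z)).symm

section prof

variable {θ Li ε r₁ R₁ : ℝ} {Φ Φ₁ Φ₂ L er : ℝ → ℝ}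

/-- `L(r)` is a symbol. -/
theorem sb_L (P : IsProf θ Li ε r₁ R₁ Φ Φ₁ Φ₂ L er) {c : ℝ} (hc : 0 < c) (k : ℕ) :
    Sb (Ur n c) rd (fun _ => 1) k fun z => L (rd z) := by
  refine sb_radial hc.le k (P.smL.mono fun r hr => hc.trans hr) fun j hj => ?_
  obtain ⟨C, hC⟩ := P.bd j c hc
  rcases Nat.eq_zero_or_pos j with rfl | hj0
  · exact ⟨C, fun z hz => by simpa using hC (rd z) hz.le⟩
  · refine ⟨|C| * |R₁| ^ j, fun z hz => ?_⟩
    have hr : 0 < rd z := rd_pos hc.le hz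
    rcases lt_or_ge R₁ (rd z) with h | h
    · have h1 : L =ᶠ[𝓝 (rd z)] fun _ => Li := by
        filter_upwards [Ioi_mem_nhds h] with s hs using P.L_far s hs.le
      have h2 : iteratedDeriv j L (rd z) = 0 := by
        rw [h1.iteratedDeriv_eq j, iteratedDeriv_const]
        simp [hj0.ne']
      rw [h2, abs_zero]
      positivity
    · have h1 : (1 : ℝ) ≤ |R₁| ^ j * (rd z)⁻¹ ^ j := by
        rw [← mul_pow]
        refine one_le_pow₀ ?_
        rw [← div_eq_mul_inv, one_le_div₀ hr]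
        exact h.trans (le_abs_self R₁)
      calc |iteratedDeriv j L (rd z)| ≤ C := hC (rd z) hz.le
        _ ≤ |C| := le_abs_self C
        _ ≤ |C| * (|R₁| ^ j * (rd z)⁻¹ ^ j) := le_mul_of_one_le_right (abs_nonneg C) h1
        _ = |C| * |R₁| ^ j * (1 * (rd z)⁻¹ ^ j) := by ring

/-- The logarithmic derivative of the stiff part. -/
def lg (e : Fin n) (β : ℝ) (L : ℝ → ℝ) (z : VV n) : VV n →L[ℝ] ℝ := β • dp e + L (rd z) • dr z

theorem fd_Fst (P : IsProf θ Li ε r₁ R₁ Φ Φ₁ Φ₂ L er) (e : Fin n) (β : ℝ) {c : ℝ} (hc : 0 ≤ c)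
    {z : VV n} (hz : z ∈ Ur n c) : HasFDerivAt (Fst e β Φ) (Fst e β Φ z • lg e β L z) z := by
  have hq := qq_pos hc hz
  have hr := rd_pos hc hz
  have h1 : HasFDerivAt (fun z : VV n => Φ (qq z)) (Φ₁ (qq z) • (∑ j, (2 * qv j z) • dq j)) z :=
    (P.d2.d1 (qq z)).comp_hasFDerivAt z (fd_qq z)
  have h2 := (fd_Ee e β z).mul h1
  have h3 : Φ₁ (qq z) • (∑ j, (2 * qv j z) • dq j : VV n →L[ℝ] ℝ) =
      (L (rd z) * Φ (qq z)) • dr z := by
    unfold dr
    rw [Finset.smul_sum, Finset.smul_sum]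
    refine Finset.sum_congr rfl fun j _ => ?_
    rw [smul_smul, smul_smul]
    congr 1
    have h4 := P.one (rd z) hr
    rw [rd_sq] at h4
    rw [qv_eq hc hz]
    linear_combination (hv z j) * h4
  have h5 : Ee e β z • (Φ₁ (qq z) • (∑ j, (2 * qv j z) • dq j : VV n →L[ℝ] ℝ)) +
      Φ (qq z) • (Ee e β z • (β • dp e)) = Fst e β Φ z • lg e β L z := by
    rw [h3]
    unfold lg Fst
    refine ContinuousLinearMap.ext fun w => ?_
    simp only [_root_.add_apply, _root_.smul_apply, smul_eq_mul]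
    ring
  rw [h5] at h2
  exact h2

theorem sb_lg (P : IsProf θ Li ε r₁ R₁ Φ Φ₁ Φ₂ L er) (e : Fin n) (β : ℝ) {c : ℝ} (hc : 0 < c)
    (k : ℕ) : Sb (Ur n c) rd (fun _ => 1) k (lg e β L : VV n → VV n →L[ℝ] ℝ) := by
  have hU := open_Ur (n := n) c
  refine ((Sb.const (Ur n c) rd k (β • dp e)).add hU ?_).congr hU fun z _ => rfl
  exact ((sb_L P hc k).smul hU (sb_dr hc.le k)).wcongr fun z _ => by simp

/-- `D² (log F) = O(1/r)` with all derivatives. -/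
theorem sb_D_lg (P : IsProf θ Li ε r₁ R₁ Φ Φ₁ Φ₂ L er) (e : Fin n) (β : ℝ) {c : ℝ} (hc : 0 < c)
    (k : ℕ) : Sb (Ur n c) rd (fun z => (rd z)⁻¹) k
      (fderiv ℝ (lg e β L : VV n → VV n →L[ℝ] ℝ)) :=
  ((sb_lg P e β hc (k + 1)).fd (open_Ur c)).wcongr fun z _ => by simp

theorem Fst_pos (P : IsProf θ Li ε r₁ R₁ Φ Φ₁ Φ₂ L er) (e : Fin n) (β : ℝ) {c : ℝ} (hc : 0 ≤ c)
    {z : VV n} (hz : z ∈ Ur n c) : 0 < Fst e β Φ z :=
  mul_pos (Ee_pos e β z) (P.pos _ (qq_pos hc hz))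

theorem contDiff_Fst (P : IsProf θ Li ε r₁ R₁ Φ Φ₁ Φ₂ L er) (e : Fin n) (β : ℝ) :
    ContDiff ℝ ∞ (Fst e β Φ : VV n → ℝ) := (contDiff_Ee e β).mul (contDiff_rad P.sm)

/-- **All derivatives of the stiff part off the diagonal.** -/
theorem sb_Fst (P : IsProf θ Li ε r₁ R₁ Φ Φ₁ Φ₂ L er) (e : Fin n) (β : ℝ) {c : ℝ} (hc : 0 < c)
    (k : ℕ) : Sb (Ur n c) (fun _ => 1) (Fst e β Φ) k (Fst e β Φ) := by
  have hU := open_Ur (n := n) c
  have h1 : Sb (Ur n c) (fun _ => 1) (fun _ => 1) k (lg e β L : VV n → VV n →L[ℝ] ℝ) :=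
    (sb_lg P e β hc k).mono_ρ (fun z hz => rd_pos hc.le hz) (fun _ _ => one_pos)
      (fun _ _ => zero_le_one) (A := c⁻¹) fun z hz => by
        rw [← div_eq_inv_mul, one_le_div₀ hc]; exact hz.le
  have h2 := Sb.log (k := k) (ρ := fun _ => 1) hU (contDiff_Fst P e β).contDiffOn
    (fun z hz => (fd_Fst P e β hc.le hz).fderiv) (h1.wcongr fun z _ => by simp)
  exact (h2.mono_k (Nat.le_succ k)).wcongr fun z hz => (abs_of_pos (Fst_pos P e β hc.le hz)).symm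

end prof

/-! ## Near the diagonal -/

/-- The pairs with `|x - y| < c`. -/
def Vr (n : ℕ) (c : ℝ) : Set (VV n) := {z | rd z < c}

theorem open_Vr (c : ℝ) : IsOpen (Vr n c) := isOpen_lt cont_rd continuous_const

theorem abs_qv_le (z : VV n) (i : Fin n) : |qv i z| ≤ rd z := by
  refine Real.abs_le_sqrt ?_
  rw [qq_eq]
  exact Finset.single_le_sum (f := fun i => qv i z ^ 2) (fun j _ => sq_nonneg _)
    (Finset.mem_univ i)

theorem sb_qv (c : ℝ) (i : Fin n) (k : ℕ) :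
    Sb (Vr n c) (fun _ => 1) (fun _ => 1) k (qv i : VV n → ℝ) := by
  refine (Sb.succ (contDiff_qv i).contDiffOn ⟨c, fun z hz => ?_⟩ ?_ :
    Sb (Vr n c) (fun _ => 1) (fun _ => 1) (k + 1) _).mono_k (Nat.le_succ k)
  · rw [mul_one, Real.norm_eq_abs]
    exact (abs_qv_le z i).trans (le_of_lt hz)
  · exact ((Sb.const (Vr n c) (fun _ => 1) k (dq i)).congr (open_Vr c)
      fun z _ => (fd_qv i z).fderiv).wcongr fun z _ => by simp

theorem sb_qq (c : ℝ) (k : ℕ) : Sb (Vr n c) (fun _ => 1) (fun _ => 1) k (qq : VV n → ℝ) := by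
  refine (Sb.sum (open_Vr c) Finset.univ (f := fun j z => qv j z * qv j z) fun j _ => ?_).congr
    (open_Vr c) fun z _ => ?_
  · exact ((sb_qv c j k).mul (open_Vr c) (sb_qv c j k)).wcongr fun z _ => by simp
  · rw [qq_eq]
    exact Finset.sum_congr rfl fun j _ => by ring

/-- Smooth functions of `|x - y|²` near the diagonal. -/
theorem sb_near {Φ : ℝ → ℝ} (hΦ : ContDiff ℝ ∞ Φ) (c : ℝ) (k : ℕ) :
    Sb (Vr n c) (fun _ => 1) (fun _ => 1) k fun z => Φ (qq z) := by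
  refine Sb.comp1 (open_Vr c) (fun _ _ => one_ne_zero) isOpen_univ (fun _ _ => mem_univ _) k Φ
    (fun _ => 1) hΦ.contDiffOn (fun j _ => ?_) (sb_qq c k)
  have hcont : Continuous (iteratedDeriv j Φ) :=
    hΦ.continuous_iteratedDeriv j (by exact_mod_cast le_top)
  obtain ⟨C, hC⟩ := (isCompact_Icc (a := (0 : ℝ)) (b := c ^ 2)).exists_bound_of_continuousOn
    hcont.continuousOn
  refine ⟨C, fun z hz => ?_⟩
  have h1 : qq z ∈ Icc 0 (c ^ 2) := by
    refine ⟨qq_nonneg z, ?_⟩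
    rw [← rd_sq z]
    exact pow_le_pow_left₀ (Real.sqrt_nonneg _) (le_of_lt hz) 2
  simpa using hC _ h1

theorem sb_Fst_near {Φ : ℝ → ℝ} (hΦ : ContDiff ℝ ∞ Φ) (e : Fin n) (β c : ℝ) (k : ℕ) :
    Sb (Vr n c) (fun _ => 1) (Ee e β) k (Fst e β Φ) :=
  ((sb_Ee _ (open_Vr c) e β k).mul (open_Vr c) (sb_near hΦ c k)).wcongr fun z _ => by simp

end Vale.Agent.P088.R2.H644.Ch
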