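import Vale.Agent.P088.R2.H644.W.Flat
import Vale.Agent.P088.R2.H644.W.Prof2
import Vale.Agent.P088.R2.H230.W.Far2

/-!
# P088: the stiff part `F = exp (β (x_e + y_e)) Φ(|x - y|²)` in the language of the certificates

Off the diagonal, with `S(r) = Φ(r²)`, `L = S'/S`, `e = -r L'/L`, `h = q/r`:
`TH F A B = E S ((φ₁·A + φ₂·B)² + (L/r) (|A - B|² - (h·(A - B))²) - (e L/r) (h·(A - B))²)`,
`φ₁ = β e + L h`, `φ₂ = β e - L h`, and helper230's certificate for `F` plus a slope.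
-/

open MeasureTheory Set Filter
open scoped ContDiff Topology

noncomputable section

namespace Vale.Agent.P088.R2.H644.Ch

open Vale.Agent.P088.LR Vale.Agent.P088.HY
open Vale.Agent.P088.R2.H961.GW
open Vale.Agent.P088.R2.H230.W (TT dd_add_left dd_add_right dd_sub_left dd_sub_right dd_smul_left
  dd_smul_right dd_comm dd_self_nonneg far_cert2 v1 v2 f1 f2)

variable {n : ℕ}

/-- The scalar product. -/
abbrev sp (u v : V n) : ℝ := H230.W.dd u v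

/-- The stiff part. -/
def Fst (e : Fin n) (β : ℝ) (Φ : ℝ → ℝ) (z : VV n) : ℝ := Ee e β z * Φ (qq z)

/-- The unit vector of the difference. -/
def hv (z : VV n) : V n := (√(qq z))⁻¹ • (fun i => qv i z)

/-- The unit vector. -/
def ev (e : Fin n) : V n := Pi.single e 1

theorem sp_ev (e : Fin n) (u : V n) : sp (ev e) u = u e := by
  unfold sp H230.W.dd ev
  simp [Pi.single_apply]

theorem sp_ev_ev (e : Fin n) : sp (ev e) (ev e) = 1 := by
  rw [sp_ev]; simp [ev]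

theorem sp_hv (z : VV n) (u : V n) : sp (hv z) u = (√(qq z))⁻¹ * qdot z u := by
  unfold hv
  rw [sp, dd_smul_left]
  rfl

theorem sp_hv_hv {z : VV n} (hz : 0 < qq z) : sp (hv z) (hv z) = 1 := by
  rw [sp_hv]
  have h1 : qdot z (hv z) = (√(qq z))⁻¹ * qq z := by
    have h0 : qdot z (hv z) = (√(qq z))⁻¹ * ∑ i, qv i z ^ 2 := by
      rw [Finset.mul_sum]
      unfold qdot hv
      exact Finset.sum_congr rfl fun i _ => by
        simp only [Pi.smul_apply, smul_eq_mul]; ring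
    rw [h0, ← qq_eq]
  rw [h1]
  have h2 : √(qq z) ≠ 0 := (Real.sqrt_pos.2 hz).ne'
  have h3 : √(qq z) * √(qq z) = qq z := Real.mul_self_sqrt hz.le
  field_simp
  linarith

theorem sp_self_eq (u : V n) : sp u u = HY.sq u := by
  unfold sp H230.W.dd HY.sq
  exact Finset.sum_congr rfl fun i _ => by ring

/-- The Hessian form of the stiff part. -/
theorem TH_Fst (e : Fin n) (β : ℝ) {Φ Φ₁ Φ₂ : ℝ → ℝ} (hs : ContDiff ℝ ∞ Φ) (hΦ : D2 Φ Φ₁ Φ₂)
    (z : VV n) (A B : V n) : TH (fx n) (fy n) (Fst e β Φ) z A B =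
      Ee e β z * (β ^ 2 * (A e + B e) ^ 2 * Φ (qq z) +
        4 * β * (A e + B e) * Φ₁ (qq z) * (qdot z A - qdot z B) +
        2 * Φ₁ (qq z) * HY.sq (A - B) + 4 * Φ₂ (qq z) * (qdot z A - qdot z B) ^ 2) := by
  have h0 : D2 (fun _ => 0) (fun _ => 0) (fun _ => (0 : ℝ)) :=
    ⟨fun s => hasDerivAt_const s 0, fun s => hasDerivAt_const s 0⟩
  have e1 : Fst e β Φ = Wt e β (fun _ => 0) Φ := by
    funext z; simp [Fst, Wt]
  rw [e1, f_TH_hs (contDiff_Wt e β contDiff_const hs), hs_Wt _ e β h0 hΦ]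
  simp

theorem dx_Fst (e : Fin n) (β : ℝ) {Φ Φ₁ Φ₂ : ℝ → ℝ} (hΦ : D2 Φ Φ₁ Φ₂) (i : Fin n)
    (z : VV n) : dx i (Fst e β Φ) z =
      Ee e β z * (β * de e i * Φ (qq z) + 2 * Φ₁ (qq z) * qv i z) := by
  have e1 : Fst e β Φ = Wt e β (fun _ => 0) Φ := by
    funext z; simp [Fst, Wt]
  rw [e1, dx_Wt i e β (φ₁ := fun _ => 0) (fun s => hasDerivAt_const s 0) hΦ.d1]
  simp

theorem dy_Fst (e : Fin n) (β : ℝ) {Φ Φ₁ Φ₂ : ℝ → ℝ} (hΦ : D2 Φ Φ₁ Φ₂) (i : Fin n)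
    (z : VV n) : dy i (Fst e β Φ) z =
      Ee e β z * (β * de e i * Φ (qq z) - 2 * Φ₁ (qq z) * qv i z) := by
  have e1 : Fst e β Φ = Wt e β (fun _ => 0) Φ := by
    funext z; simp [Fst, Wt]
  rw [e1, dy_Wt i e β (φ₁ := fun _ => 0) (fun s => hasDerivAt_const s 0) hΦ.d1]
  simp

section prof

variable {θ Li ε r₁ R₁ : ℝ} {Φ Φ₁ Φ₂ L er : ℝ → ℝ}

theorem qq_sqrt {z : VV n} (hz : 0 < qq z) : (√(qq z)) ^ 2 = qq z := Real.sq_sqrt hz.le

/-- The gradient of the stiff part off the diagonal. -/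
theorem dx_Fst_log (P : IsProf θ Li ε r₁ R₁ Φ Φ₁ Φ₂ L er) (e : Fin n) (β : ℝ) {z : VV n}
    (hz : 0 < qq z) (i : Fin n) : dx i (Fst e β Φ) z =
      Ee e β z * Φ (qq z) * (β • ev e + L (√(qq z)) • hv z) i := by
  have hr : 0 < √(qq z) := Real.sqrt_pos.2 hz
  have h1 := P.one _ hr
  rw [qq_sqrt hz] at h1
  rw [dx_Fst e β P.d2]
  have h2 : (β • ev e + L (√(qq z)) • hv z) i =
      β * de e i + L (√(qq z)) * ((√(qq z))⁻¹ * qv i z) := by
    simp [ev, hv, de, Pi.single_apply]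
  rw [h2]
  have h3 : 2 * Φ₁ (qq z) = L (√(qq z)) * Φ (qq z) * (√(qq z))⁻¹ := by
    field_simp
    linarith
  rw [h3]
  ring

theorem dy_Fst_log (P : IsProf θ Li ε r₁ R₁ Φ Φ₁ Φ₂ L er) (e : Fin n) (β : ℝ) {z : VV n}
    (hz : 0 < qq z) (i : Fin n) : dy i (Fst e β Φ) z =
      Ee e β z * Φ (qq z) * (β • ev e - L (√(qq z)) • hv z) i := by
  have hr : 0 < √(qq z) := Real.sqrt_pos.2 hz
  have h1 := P.one _ hr
  rw [qq_sqrt hz] at h1
  rw [dy_Fst e β P.d2]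
  have h2 : (β • ev e - L (√(qq z)) • hv z) i =
      β * de e i - L (√(qq z)) * ((√(qq z))⁻¹ * qv i z) := by
    simp [ev, hv, de, Pi.single_apply]
  rw [h2]
  have h3 : 2 * Φ₁ (qq z) = L (√(qq z)) * Φ (qq z) * (√(qq z))⁻¹ := by
    field_simp
    linarith
  rw [h3]
  ring

/-- **The Hessian form of the stiff part off the diagonal.** -/
theorem TH_Fst_log (P : IsProf θ Li ε r₁ R₁ Φ Φ₁ Φ₂ L er) (e : Fin n) (β : ℝ) {z : VV n}
    (hz : 0 < qq z) (A B : V n) : TH (fx n) (fy n) (Fst e β Φ) z A B =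
      Ee e β z * Φ (qq z) *
        ((sp (β • ev e + L (√(qq z)) • hv z) A + sp (β • ev e - L (√(qq z)) • hv z) B) ^ 2 +
        L (√(qq z)) / √(qq z) * (sp (A - B) (A - B) - sp (hv z) (A - B) ^ 2) -
        er (√(qq z)) * L (√(qq z)) / √(qq z) * sp (hv z) (A - B) ^ 2) := by
  have hr : 0 < √(qq z) := Real.sqrt_pos.2 hz
  have h1 := P.one _ hr
  have h2 := P.two _ hr
  rw [qq_sqrt hz] at h1 h2
  rw [TH_Fst e β P.sm P.d2]
  have e1 : sp (β • ev e + L (√(qq z)) • hv z) A + sp (β • ev e - L (√(qq z)) • hv z) B =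
      β * (A e + B e) + L (√(qq z)) * ((√(qq z))⁻¹ * (qdot z A - qdot z B)) := by
    simp only [sp, dd_add_left, dd_sub_left, dd_smul_left]
    have h3 := sp_ev e A
    have h4 := sp_ev e B
    have h5 := sp_hv z A
    have h6 := sp_hv z B
    simp only [sp] at h3 h4 h5 h6
    rw [h3, h4, h5, h6]
    ring
  have e2 : sp (hv z) (A - B) = (√(qq z))⁻¹ * (qdot z A - qdot z B) := by
    simp only [sp, dd_sub_right]
    have h5 := sp_hv z A
    have h6 := sp_hv z B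
    simp only [sp] at h5 h6
    rw [h5, h6]
    ring
  rw [e1, e2, sp_self_eq]
  have h3 : 2 * Φ₁ (qq z) = L (√(qq z)) * Φ (qq z) * (√(qq z))⁻¹ := by
    field_simp
    linarith
  have h4 : 4 * Φ₂ (qq z) = Φ (qq z) * (L (√(qq z)) ^ 2 - (1 + er (√(qq z))) * L (√(qq z)) *
      (√(qq z))⁻¹) * ((√(qq z))⁻¹ * (√(qq z))⁻¹) := by
    have h5 : √(qq z) * √(qq z) = qq z := Real.mul_self_sqrt hz.le
    have h6 : 4 * Φ₂ (qq z) = (4 * qq z * Φ₂ (qq z)) * ((√(qq z))⁻¹ * (√(qq z))⁻¹) := by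
      rw [← mul_inv, h5]
      field_simp
    rw [h6, h2]
    ring
  have h5 : 4 * β * (A e + B e) * Φ₁ (qq z) = 2 * β * (A e + B e) * (2 * Φ₁ (qq z)) := by ring
  rw [h5, h4, h3]
  ring

/-- `v₁`, `v₂` are the gradients. -/
theorem grad_eq (P : IsProf θ Li ε r₁ R₁ Φ Φ₁ Φ₂ L er) (e : Fin n) {β a₁ a₂ : ℝ}
    {z : VV n} (hz : 0 < qq z) {G : VV n → ℝ} (hG : DifferentiableAt ℝ G z)
    (gx : ∀ i, dx i G z = a₁ * de e i) (gy : ∀ i, dy i G z = a₂ * de e i) :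
    (fun i => dx i (fun z => G z + Fst e β Φ z) z) = (Ee e β z * Φ (qq z)) •
      v1 (ev e) (hv z) (β + a₁ / (Ee e β z * Φ (qq z))) (L (√(qq z))) ∧
    (fun i => dy i (fun z => G z + Fst e β Φ z) z) = (Ee e β z * Φ (qq z)) •
      v2 (ev e) (hv z) (β + a₂ / (Ee e β z * Φ (qq z))) (L (√(qq z))) := by
  have hp : Ee e β z * Φ (qq z) ≠ 0 := (mul_pos (Ee_pos e β z) (P.pos _ hz)).ne'
  have hF : DifferentiableAt ℝ (Fst e β Φ) z :=
    ((contDiff_Ee e β).mul (contDiff_rad P.sm)).contDiffAt.differentiableAt (by simp)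
  have hde : ∀ i, de e i = ev e i := fun i => by simp [de, ev, Pi.single_apply]
  constructor
  · funext i
    have h1 : dx i (fun z => G z + Fst e β Φ z) z = dx i G z + dx i (Fst e β Φ) z := by
      simp only [dx]
      rw [fderiv_fun_add hG hF]
      rfl
    have h2 : Ee e β z * Φ (qq z) * (a₁ / (Ee e β z * Φ (qq z))) = a₁ := mul_div_cancel₀ _ hp
    rw [h1, gx, dx_Fst_log P e β hz]
    simp only [v1, Pi.smul_apply, Pi.add_apply, smul_eq_mul, hde]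
    linear_combination (-(ev e i)) * h2
  · funext i
    have h1 : dy i (fun z => G z + Fst e β Φ z) z = dy i G z + dy i (Fst e β Φ) z := by
      simp only [dy]
      rw [fderiv_fun_add hG hF]
      rfl
    have h2 : Ee e β z * Φ (qq z) * (a₂ / (Ee e β z * Φ (qq z))) = a₂ := mul_div_cancel₀ _ hp
    rw [h1, gy, dy_Fst_log P e β hz]
    simp only [v2, Pi.smul_apply, Pi.sub_apply, smul_eq_mul, hde]
    linear_combination (-(ev e i)) * h2

theorem TT_smul (c w U : V n) (a : ℝ) : TT c (a • w) U = a * TT c w U := by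
  simp only [H230.W.TT, dd_smul_right, dd_smul_left]
  ring

/-- **The certificate far from the diagonal** for a slope `G` with gradients `a₁ e`, `a₂ e`. -/
theorem far_W (P : IsProf θ Li ε r₁ R₁ Φ Φ₁ Φ₂ L er) (e : Fin n) {a₁ a₂ δ : ℝ}
    {z : VV n} (hz : 0 < qq z) {G : VV n → ℝ} (hG : ContDiff ℝ ∞ G)
    (gx : ∀ i, dx i G z = a₁ * de e i) (gy : ∀ i, dy i G z = a₂ * de e i)
    (h1 : 0 ≤ a₁) (h2 : 0 ≤ a₂) (hLi : 2 / 5 ≤ Li) (hδ : 0 < δ)
    (hδ1 : 1500 * (δ * (4 * L (√(qq z)) + 1) ^ 2) ≤ 1)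
    (hδ2 : 100 * (δ * (4 * L (√(qq z)) + 1) ^ 2) ≤ L (√(qq z)) / √(qq z))
    (hm : 50 * (er (√(qq z)) * L (√(qq z)) / √(qq z)) ≤ δ)
    (hx : ∃ i, dx i (fun z => G z + Fst e (1 / 2) Φ z) z ≠ 0)
    (hy : ∃ i, dy i (fun z => G z + Fst e (1 / 2) Φ z) z ≠ 0) (A B : V n) :
    δ / 12 * (Ee e (1 / 2) z * Φ (qq z)) * (sp A A + sp B B) + TH (fx n) (fy n) G z A B ≤
      TH (fx n) (fy n) (fun z => G z + Fst e (1 / 2) Φ z) z A B +
      TT (f1 (ev e) (hv z) (1 / 2 + a₁ / (Ee e (1 / 2) z * Φ (qq z))) (L (√(qq z)))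
        (4 * L (√(qq z)) * δ) δ) (fun i => dx i (fun z => G z + Fst e (1 / 2) Φ z) z) A +
      TT (f2 (ev e) (hv z) (1 / 2 + a₂ / (Ee e (1 / 2) z * Φ (qq z))) (L (√(qq z)))
        (4 * L (√(qq z)) * δ) δ) (fun i => dy i (fun z => G z + Fst e (1 / 2) Φ z) z) B := by
  have hr : 0 < √(qq z) := Real.sqrt_pos.2 hz
  have hS : 0 < Ee e (1 / 2) z * Φ (qq z) := mul_pos (Ee_pos _ _ z) (P.pos _ hz)
  obtain ⟨g1, g2⟩ := grad_eq P e (β := 1 / 2) hz (hG.contDiffAt.differentiableAt (by simp)) gx gy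
  set S := Ee e (1 / 2) z * Φ (qq z) with hSd
  set ℓ := L (√(qq z)) with hℓ
  set ν₁ := 1 / 2 + a₁ / S with hν₁
  set ν₂ := 1 / 2 + a₂ / S with hν₂
  have hL : 2 / 5 ≤ ℓ := hLi.trans (P.Li_le _)
  have hL0 : 0 ≤ ℓ := by linarith
  have hn1 : 1 / 2 ≤ ν₁ := by
    have : 0 ≤ a₁ / S := div_nonneg h1 hS.le
    linarith
  have hn2 : 1 / 2 ≤ ν₂ := by
    have : 0 ≤ a₂ / S := div_nonneg h2 hS.le
    linarith
  have hl1 : ℓ ≤ 2 * ℓ * ν₁ := by nlinarith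
  have hl2 : ℓ ≤ 2 * ℓ * ν₂ := by nlinarith
  have he := sp_ev_ev e
  have hh := sp_hv_hv hz
  have hD1 : 0 < ν₁ ^ 2 + ℓ ^ 2 + 2 * sp (ev e) (hv z) * ν₁ * ℓ := by
    have h3 := H230.W.dd_v1 he hh ν₁ ℓ
    rw [← h3]
    obtain ⟨i, hi⟩ := hx
    have h4 := congrFun g1 i
    simp only [Pi.smul_apply, smul_eq_mul] at h4
    have h5 : v1 (ev e) (hv z) ν₁ ℓ i ≠ 0 := by
      intro h0
      rw [h0, mul_zero] at h4
      exact hi h4
    refine lt_of_lt_of_le (mul_self_pos.2 h5) ?_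
    exact Finset.single_le_sum (f := fun i => v1 (ev e) (hv z) ν₁ ℓ i * v1 (ev e) (hv z) ν₁ ℓ i)
      (fun j _ => mul_self_nonneg _) (Finset.mem_univ i)
  have hD2 : 0 < ν₂ ^ 2 + ℓ ^ 2 - 2 * sp (ev e) (hv z) * ν₂ * ℓ := by
    have h3 := H230.W.dd_v2 he hh ν₂ ℓ
    rw [← h3]
    obtain ⟨i, hi⟩ := hy
    have h4 := congrFun g2 i
    simp only [Pi.smul_apply, smul_eq_mul] at h4
    have h5 : v2 (ev e) (hv z) ν₂ ℓ i ≠ 0 := by
      intro h0
      rw [h0, mul_zero] at h4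
      exact hi h4
    refine lt_of_lt_of_le (mul_self_pos.2 h5) ?_
    exact Finset.single_le_sum (f := fun i => v2 (ev e) (hv z) ν₂ ℓ i * v2 (ev e) (hv z) ν₂ ℓ i)
      (fun j _ => mul_self_nonneg _) (Finset.mem_univ i)
  have key := far_cert2 (e := ev e) (h := hv z) (g := 0) he hh
    (by simp [H230.W.dd]) (by simp [H230.W.dd]) (ν₁ := ν₁) (ℓ₁ := ℓ) (ν₂ := ν₂)
    (ℓ₂ := ℓ) (L := ℓ) (k := ℓ / √(qq z)) (m := er (√(qq z)) * ℓ / √(qq z)) (δ := δ) hL hδ hδ1 hδ2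
    hm hL0 hL0 hl1 hl2 hD1 hD2 ((1 / 2 : ℝ) • ev e + ℓ • hv z) ((1 / 2 : ℝ) • ev e - ℓ • hv z)
    (by
      funext i
      simp only [Pi.add_apply, Pi.sub_apply, Pi.smul_apply, smul_eq_mul]; ring)
    (by
      funext i
      simp only [Pi.add_apply, Pi.sub_apply, Pi.smul_apply, smul_eq_mul, Pi.zero_apply]; ring) A B
  have hF : ContDiff ℝ ∞ (Fst e (1 / 2) Φ) := (contDiff_Ee e (1 / 2)).mul (contDiff_rad P.sm)
  have hT := TH_add (ok_fx (n := n) isOpen_univ) (ok_fy (n := n) isOpen_univ) hG.contDiffOn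
    hF.contDiffOn (mem_univ z) A B
  rw [hT, g1, g2, TT_smul, TT_smul, TH_Fst_log P e (1 / 2) hz]
  have key2 := mul_le_mul_of_nonneg_left key hS.le
  have e3 : δ / 12 * S * (sp A A + sp B B) = S * (δ / 12 * (H230.W.dd A A + H230.W.dd B B)) := by
    simp only [sp]; ring
  rw [e3]
  refine (add_le_add key2 le_rfl).trans (le_of_eq ?_)
  simp only [sp]
  ring

end prof

end Vale.Agent.P088.R2.H644.Ch
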