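import Vale.Agent.P088.R2.H644.W.Near

/-!
# P088: `Γ₂(W)` for slots with the scale `1`, tensors not necessarily divergence free
-/

open Set Filter
open scoped ContDiff Topology

noncomputable section

namespace Vale.Agent.P088.R2.H644.Ch

open Vale.Agent.P088.R2.H961.GW

section alg

variable {ι : Type*} [Fintype ι]

/-- The algebra of the divergence terms of `Γ₂`. -/
theorem G2_alg2 (S H : ι → ι → ℝ) (dS : ι → ι → ι → ℝ) (ddS : ι → ι → ι → ι → ℝ) (w : ι → ℝ)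
    (hS : ∀ a b, S a b = S b a) (hH : ∀ a b, H a b = H b a) :
    1 / 2 * (∑ a, ∑ b, dS a a b * ∑ k, ∑ l, (dS b k l * w k * w l + S k l * H b k * w l +
        S k l * w k * H b l)) -
      (∑ k, ∑ l, S k l * w k * ∑ a, ∑ b, (ddS l a a b * w b + dS a a b * H l b)) =
    Q4 fun a b k l => 1 / 2 * (dS a a b * dS b k l * w k * w l) +
      -1 * (S k l * ddS l a a b * w k * w b) := by
  set t1 : ι → ι → ι → ι → ℝ := fun a b k l => dS a a b * dS b k l * w k * w l with ht1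
  set t2 : ι → ι → ι → ι → ℝ := fun a b k l => dS a a b * S k l * H b k * w l with ht2
  set t3 : ι → ι → ι → ι → ℝ := fun a b k l => dS a a b * S k l * w k * H b l with ht3
  set u1 : ι → ι → ι → ι → ℝ := fun a b k l => S k l * ddS l a a b * w k * w b with hu1
  set u2 : ι → ι → ι → ι → ℝ := fun a b k l => S k l * w k * dS a a b * H l b with hu2
  have e1 : (∑ a, ∑ b, dS a a b * ∑ k, ∑ l, (dS b k l * w k * w l + S k l * H b k * w l +
        S k l * w k * H b l)) = Q4 t1 + Q4 t2 + Q4 t3 := by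
    simp only [Q4, Finset.mul_sum, ← Finset.sum_add_distrib, ht1, ht2, ht3]
    refine Finset.sum_congr rfl fun a _ => Finset.sum_congr rfl fun b _ =>
      Finset.sum_congr rfl fun k _ => Finset.sum_congr rfl fun l _ => ?_
    ring
  have e2 : (∑ k, ∑ l, S k l * w k * ∑ a, ∑ b, (ddS l a a b * w b + dS a a b * H l b)) =
      Q4 u1 + Q4 u2 := by
    rw [Q4_s3 u1, Q4_s3 u2]
    simp only [Q4, Finset.mul_sum, ← Finset.sum_add_distrib, hu1, hu2]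
    refine Finset.sum_congr rfl fun a _ => Finset.sum_congr rfl fun b _ =>
      Finset.sum_congr rfl fun k _ => Finset.sum_congr rfl fun l _ => ?_
    ring
  have s2 : Q4 t2 = Q4 t3 := by
    rw [Q4_s2 t2]
    refine congrArg Q4 ?_
    funext a b k l
    simp only [ht2, ht3]
    rw [hS l k]; ring
  have s3 : Q4 u2 = Q4 t3 := by
    refine congrArg Q4 ?_
    funext a b k l
    simp only [hu2, ht3]
    rw [hH l b]; ring
  have e3 : Q4 (fun a b k l => 1 / 2 * (dS a a b * dS b k l * w k * w l) +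
      -1 * (S k l * ddS l a a b * w k * w b)) = 1 / 2 * Q4 t1 + -1 * Q4 u1 := by
    rw [← Q4_cmul, ← Q4_cmul, ← Q4_add]
  rw [e1, e2, e3, s2, s3]
  ring

end alg

section g2

variable {E ι : Type*} [NormedAddCommGroup E] [NormedSpace ℝ E] [Fintype ι]
  {σ : Sl E ι} {U : Set E} {θ : E → ℝ} {W f : E → ℝ} {z : E}

/-- The expanded form of `Λ`. -/
def Lx (σ : Sl E ι) (U : Set E) : Prop := ∀ f, Sm U f → ∀ z ∈ U, σ.Λ f z = ∑ i, ∑ j,
  (σ.s i j z * σ.D i (σ.D j f) z + σ.D i (σ.s i j) z * σ.D j f z)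

/-- **The exact formula for `Γ₂`.** -/
theorem G2_eq' (ok : σ.Ok U θ) (h1 : ∀ z, σ.ρ z = 1) (hL : Lx σ U) (hW : Sm U W) (hz : z ∈ U) :
    G2 σ W z =
      Q4 (fun a b k l => σ.s a b z * σ.s k l z * σ.D a (σ.D k W) z * σ.D b (σ.D l W) z +
        2 * (σ.s a b z * σ.D a (σ.s k l) z * σ.D b (σ.D k W) z * σ.D l W z) +
        1 / 2 * (σ.s a b z * σ.D a (σ.D b (σ.s k l)) z * σ.D k W z * σ.D l W z) +
        -1 * (σ.s k l z * σ.D l (σ.s a b) z * σ.D k W z * σ.D a (σ.D b W) z)) +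
      Q4 fun a b k l => 1 / 2 * (σ.D a (σ.s a b) z * σ.D b (σ.s k l) z * σ.D k W z * σ.D l W z) +
        -1 * (σ.s k l z * σ.D l (σ.D a (σ.s a b)) z * σ.D k W z * σ.D b W z) := by
  have hU := ok.op
  have hd : ∀ j a b, σ.D j (σ.s a b) z = σ.D j (σ.s b a) z := by
    intro j a b
    have : σ.s a b = σ.s b a := funext fun z => ok.sy a b z
    rw [this]
  have e0 : ∀ b, σ.D b (σ.F W) z = ∑ k, ∑ l, (σ.D b (σ.s k l) z * σ.D k W z * σ.D l W z +
      σ.s k l z * σ.D b (σ.D k W) z * σ.D l W z + σ.s k l z * σ.D k W z * σ.D b (σ.D l W) z) :=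
    fun b => D_G' ok hW hW b hz
  have e1 : ∀ a b, σ.D a (σ.D b (σ.F W)) z = ∑ k, ∑ l,
      ((σ.D a (σ.D b (σ.s k l)) z * σ.D k W z * σ.D l W z +
        σ.D b (σ.s k l) z * σ.D a (σ.D k W) z * σ.D l W z +
        σ.D b (σ.s k l) z * σ.D k W z * σ.D a (σ.D l W) z) +
      (σ.D a (σ.s k l) z * σ.D b (σ.D k W) z * σ.D l W z +
        σ.s k l z * σ.D a (σ.D b (σ.D k W)) z * σ.D l W z +
        σ.s k l z * σ.D b (σ.D k W) z * σ.D a (σ.D l W) z) +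
      (σ.D a (σ.s k l) z * σ.D k W z * σ.D b (σ.D l W) z +
        σ.s k l z * σ.D a (σ.D k W) z * σ.D b (σ.D l W) z +
        σ.s k l z * σ.D k W z * σ.D a (σ.D b (σ.D l W)) z)) := by
    intro a b
    have m1 : ∀ k l, Sm U fun z => σ.D b (σ.s k l) z * σ.D k W z * σ.D l W z := fun k l =>
      ((ok.sD (ok.ss k l) b).mul (ok.sD hW k)).mul (ok.sD hW l)
    have m2 : ∀ k l, Sm U fun z => σ.s k l z * σ.D b (σ.D k W) z * σ.D l W z := fun k l =>
      ((ok.ss k l).mul (ok.sD (ok.sD hW k) b)).mul (ok.sD hW l)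
    have m3 : ∀ k l, Sm U fun z => σ.s k l z * σ.D k W z * σ.D b (σ.D l W) z := fun k l =>
      ((ok.ss k l).mul (ok.sD hW k)).mul (ok.sD (ok.sD hW l) b)
    have hc := D_congr σ hU (f := σ.D b (σ.F W)) (fun z hz => D_G' ok hW hW b hz) a hz
    rw [hc, D_sum σ hU _ (fun k _ => Sm.sum _ fun l _ => ((m1 k l).add (m2 k l)).add (m3 k l)) a hz]
    refine Finset.sum_congr rfl fun k _ => ?_
    rw [D_sum σ hU _ (fun l _ => ((m1 k l).add (m2 k l)).add (m3 k l)) a hz]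
    refine Finset.sum_congr rfl fun l _ => ?_
    rw [D_add σ hU ((m1 k l).add (m2 k l)) (m3 k l) a hz, D_add σ hU (m1 k l) (m2 k l) a hz,
      D_mul σ hU ((ok.sD (ok.ss k l) b).mul (ok.sD hW k)) (ok.sD hW l) a hz,
      D_mul σ hU (ok.sD (ok.ss k l) b) (ok.sD hW k) a hz,
      D_mul σ hU ((ok.ss k l).mul (ok.sD (ok.sD hW k) b)) (ok.sD hW l) a hz,
      D_mul σ hU (ok.ss k l) (ok.sD (ok.sD hW k) b) a hz,
      D_mul σ hU ((ok.ss k l).mul (ok.sD hW k)) (ok.sD (ok.sD hW l) b) a hz,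
      D_mul σ hU (ok.ss k l) (ok.sD hW k) a hz]
    ring
  have e2 : ∀ l, σ.D l (σ.Λ W) z = (∑ a, ∑ b, (σ.D l (σ.s a b) z * σ.D a (σ.D b W) z +
      σ.s a b z * σ.D a (σ.D b (σ.D l W)) z)) +
      ∑ a, ∑ b, (σ.D l (σ.D a (σ.s a b)) z * σ.D b W z +
        σ.D a (σ.s a b) z * σ.D l (σ.D b W) z) := by
    intro l
    have s1 : ∀ a b, Sm U fun z => σ.s a b z * σ.D a (σ.D b W) z := fun a b =>
      (ok.ss a b).mul (ok.sD (ok.sD hW b) a)
    have s2 : ∀ a b, Sm U fun z => σ.D a (σ.s a b) z * σ.D b W z := fun a b =>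
      (ok.sD (ok.ss a b) a).mul (ok.sD hW b)
    rw [D_congr σ hU (hL W hW) l hz,
      D_sum σ hU _ (fun k _ => Sm.sum _ fun l _ => (s1 k l).add (s2 k l)) l hz,
      ← Finset.sum_add_distrib]
    refine Finset.sum_congr rfl fun a _ => ?_
    rw [D_sum σ hU _ (fun b _ => (s1 a b).add (s2 a b)) l hz, ← Finset.sum_add_distrib]
    refine Finset.sum_congr rfl fun b _ => ?_
    rw [D_add σ hU (s1 a b) (s2 a b) l hz, D_mul σ hU (ok.ss a b) (ok.sD (ok.sD hW b) a) l hz,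
      D_mul σ hU (ok.sD (ok.ss a b) a) (ok.sD hW b) l hz,
      DD_comm hU h1 (ok.sD hW b) l a hz, D_congr σ hU (fun z hz => DD_comm hU h1 hW l b hz) a hz]
  have key := G2_alg (fun a b => σ.s a b z) (fun a b => σ.D a (σ.D b W) z)
    (fun j a b => σ.D j (σ.s a b) z) (fun a b l => σ.D a (σ.D b (σ.D l W)) z)
    (fun a b k l => σ.D a (σ.D b (σ.s k l)) z) (fun k => σ.D k W z)
    (fun a b => ok.sy a b z) hd
  have key2 := G2_alg2 (fun a b => σ.s a b z) (fun a b => σ.D a (σ.D b W) z)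
    (fun j a b => σ.D j (σ.s a b) z) (fun l a i j => σ.D l (σ.D a (σ.s i j)) z)
    (fun k => σ.D k W z) (fun a b => ok.sy a b z) (fun a b => DD_comm hU h1 hW a b hz)
  rw [← key, ← key2]
  have hF := hL (σ.F W) (ok.sF hW) z hz
  have hF' : σ.Λ (σ.F W) z = (∑ a, ∑ b, σ.s a b z * σ.D a (σ.D b (σ.F W)) z) +
      ∑ a, ∑ b, σ.D a (σ.s a b) z * σ.D b (σ.F W) z := by
    rw [hF, ← Finset.sum_add_distrib]
    exact Finset.sum_congr rfl fun a _ => by rw [← Finset.sum_add_distrib]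
  have hG : σ.Γ W (σ.Λ W) z = (∑ k, ∑ l, σ.s k l z * σ.D k W z *
      ∑ a, ∑ b, (σ.D l (σ.s a b) z * σ.D a (σ.D b W) z +
        σ.s a b z * σ.D a (σ.D b (σ.D l W)) z)) +
      ∑ k, ∑ l, σ.s k l z * σ.D k W z * ∑ a, ∑ b, (σ.D l (σ.D a (σ.s a b)) z * σ.D b W z +
        σ.D a (σ.s a b) z * σ.D l (σ.D b W) z) := by
    unfold Sl.Γ
    rw [← Finset.sum_add_distrib]
    refine Finset.sum_congr rfl fun k _ => ?_
    rw [← Finset.sum_add_distrib]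
    refine Finset.sum_congr rfl fun l _ => ?_
    rw [e2 l]; ring
  unfold G2
  rw [hF', hG]
  simp only [e1, e0]
  ring

/-- The bound for `Γ₂`. -/
theorem G2_bd' (ok : σ.Ok U θ) (h1 : ∀ z, σ.ρ z = 1) (hL : Lx σ U) (hW : Sm U W)
    (hz : z ∈ U) {S δ₁ δ₂ w₁ w₂ : ℝ} (bS : ∀ i j, |σ.s i j z| ≤ S)
    (b1 : ∀ l i j, |σ.D l (σ.s i j) z| ≤ δ₁) (b2 : ∀ l k i j, |σ.D l (σ.D k (σ.s i j)) z| ≤ δ₂)
    (c1 : ∀ i, |σ.D i W z| ≤ w₁) (c2 : ∀ i j, |σ.D i (σ.D j W) z| ≤ w₂) :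
    |G2 σ W z| ≤ Fintype.card ι ^ 4 * (S ^ 2 * w₂ ^ 2 + 3 * (S * δ₁ * w₁ * w₂) +
      (3 / 2 * (S * δ₂) + 1 / 2 * δ₁ ^ 2) * w₁ ^ 2) := by
  rw [G2_eq' ok h1 hL hW hz]
  have m1 : ∀ {x y X Y : ℝ}, |x| ≤ X → |y| ≤ Y → |x * y| ≤ X * Y := fun {x y X Y} hx hy => by
    rw [abs_mul]
    exact mul_le_mul hx hy (abs_nonneg _) ((abs_nonneg _).trans hx)
  have f1 : ∀ a b k l, |σ.s a b z * σ.s k l z * σ.D a (σ.D k W) z * σ.D b (σ.D l W) z +
        2 * (σ.s a b z * σ.D a (σ.s k l) z * σ.D b (σ.D k W) z * σ.D l W z) +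
        1 / 2 * (σ.s a b z * σ.D a (σ.D b (σ.s k l)) z * σ.D k W z * σ.D l W z) +
        -1 * (σ.s k l z * σ.D l (σ.s a b) z * σ.D k W z * σ.D a (σ.D b W) z)| ≤
        S ^ 2 * w₂ ^ 2 + 3 * (S * δ₁ * w₁ * w₂) + 1 / 2 * (S * δ₂ * w₁ ^ 2) := by
    intro a b k l
    have q1 := m1 (m1 (m1 (bS a b) (bS k l)) (c2 a k)) (c2 b l)
    have q2 := m1 (m1 (m1 (bS a b) (b1 a k l)) (c2 b k)) (c1 l)
    have q3 := m1 (m1 (m1 (bS a b) (b2 a b k l)) (c1 k)) (c1 l)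
    have q4 := m1 (m1 (m1 (bS k l) (b1 l a b)) (c1 k)) (c2 a b)
    refine (abs_add_le _ _).trans ?_
    refine (add_le_add ((abs_add_le _ _).trans (add_le_add (abs_add_le _ _) le_rfl))
      le_rfl).trans ?_
    rw [abs_mul 2, abs_mul (1 / 2), abs_mul (-1), abs_two, abs_neg, abs_one,
      abs_of_pos (by norm_num : (0 : ℝ) < 1 / 2)]
    nlinarith [q1, q2, q3, q4]
  have f2 : ∀ a b k l,
      |1 / 2 * (σ.D a (σ.s a b) z * σ.D b (σ.s k l) z * σ.D k W z * σ.D l W z) +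
        -1 * (σ.s k l z * σ.D l (σ.D a (σ.s a b)) z * σ.D k W z * σ.D b W z)| ≤
        1 / 2 * (δ₁ ^ 2 * w₁ ^ 2) + S * δ₂ * w₁ ^ 2 := by
    intro a b k l
    have q1 := m1 (m1 (m1 (b1 a a b) (b1 b k l)) (c1 k)) (c1 l)
    have q2 := m1 (m1 (m1 (bS k l) (b2 l a a b)) (c1 k)) (c1 b)
    refine (abs_add_le _ _).trans ?_
    rw [abs_mul (1 / 2), abs_mul (-1), abs_neg, abs_one,
      abs_of_pos (by norm_num : (0 : ℝ) < 1 / 2)]
    nlinarith [q1, q2]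
  refine (abs_add_le _ _).trans ((add_le_add (Q4_abs f1) (Q4_abs f2)).trans (le_of_eq ?_))
  ring

end g2

end Vale.Agent.P088.R2.H644.Ch
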