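import Vale.Agent.P088.R2.H644.W.Symf
import Vale.Agent.P088.R2.H644.W.Prof2
import Mathlib.Analysis.SpecialFunctions.Pow.Real
import Mathlib.Analysis.SpecialFunctions.Exp

/-!
# P088: the logarithmic derivative of `Φ(s) = (cosh (θ √s) - 1) / θ²` is a symbol of order `-1/2`
-/

open Set Filter
open scoped ContDiff Topology

noncomputable section

namespace Vale.Agent.P088.R2.H644.Ch

open Vale.Agent.P088.R2.H644.Sy Vale.Agent.P088.R2.H644

/-- Symbols of one variable on `(c, ∞)` at the scale `s`. -/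
abbrev S1 (c : ℝ) (g : ℝ → ℝ) (k : ℕ) (f : ℝ → ℝ) : Prop :=
  Sf (α := Unit) (fun _ => Ioi c) (fun _ s => s) (fun _ => g) k (fun _ => f)

theorem S1.bd' {c : ℝ} {g f : ℝ → ℝ} {k : ℕ} (h : S1 c g k f) {j : ℕ} (hj : j ≤ k) :
    ∃ C, ∀ s, c < s → |iteratedDeriv j f s| ≤ C * (g s * s⁻¹ ^ j) := by
  obtain ⟨C, hC⟩ := h.bd j hj
  refine ⟨C, fun s hs => ?_⟩
  have := hC () s hs
  rwa [norm_iteratedFDeriv_eq_norm_iteratedDeriv, Real.norm_eq_abs] at this

theorem opI (c : ℝ) : ∀ _ : Unit, IsOpen (Ioi c) := fun _ => isOpen_Ioi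

/-- From the derivative. -/
theorem S1.succ' {c : ℝ} {g f f' : ℝ → ℝ} {k : ℕ} (hf : ContDiffOn ℝ ∞ f (Ioi c))
    (h0 : ∃ C, ∀ s, c < s → |f s| ≤ C * g s) (hd : ∀ s, c < s → HasDerivAt f (f' s) s)
    (h : S1 c (fun s => g s * s⁻¹) k f') : S1 c g (k + 1) f := by
  refine Sf.succ (fun _ => hf) ?_ ?_
  · obtain ⟨C, hC⟩ := h0
    exact ⟨C, fun _ s hs => by simpa using hC s hs⟩
  · have h1 := h.clm (opI c) (ContinuousLinearMap.smulRightL ℝ ℝ ℝ (1 : ℝ →L[ℝ] ℝ))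
    refine h1.congr (opI c) fun _ s hs => ?_
    have h2 := (hd s hs).hasFDerivAt.fderiv
    rw [h2]
    ext
    simp

/-- `1/√s`. -/
theorem s1_inv_sqrt {c : ℝ} (hc : 0 < c) (k : ℕ) : S1 c (fun s => (√s)⁻¹) k fun s => (√s)⁻¹ := by
  have hpos : ∀ s, c < s → 0 < √s := fun s hs => Real.sqrt_pos.2 (hc.trans hs)
  have hsm : ContDiffOn ℝ ∞ (fun s => (√s)⁻¹) (Ioi c) := by
    intro s hs
    have h1 : ContDiffAt ℝ ∞ (fun s : ℝ => √s) s := contDiffAt_id.sqrt (hc.trans hs).ne'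
    exact (h1.inv (hpos s hs).ne').contDiffWithinAt
  induction k with
  | zero =>
    refine ⟨fun _ => hsm, fun j hj => ?_⟩
    obtain rfl : j = 0 := Nat.le_zero.1 hj
    refine ⟨1, fun _ s hs => ?_⟩
    have := hpos s hs
    simp [abs_of_pos this]
  | succ k ih =>
    refine S1.succ' hsm ⟨1, fun s hs => ?_⟩ (f' := fun s => (-1 / 2) * ((√s)⁻¹ * ((√s)⁻¹ *
      (√s)⁻¹))) (fun s hs => ?_) ?_
    · have := hpos s hs
      rw [abs_of_pos (inv_pos.2 this), one_mul]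
    · have h0 := hpos s hs
      have h1 : HasDerivAt (fun s : ℝ => √s) (1 / (2 * √s)) s :=
        Real.hasDerivAt_sqrt (hc.trans hs).ne'
      refine (h1.inv h0.ne').congr_deriv ?_
      have := h0.ne'
      field_simp
    · have h1 := (ih.mul (opI c) (ih.mul (opI c) ih)).csmul (opI c) (-1 / 2)
      refine h1.wcongr fun _ s hs => ?_
      have h0 := hpos s hs
      have h2 : √s * √s = s := Real.mul_self_sqrt (hc.trans hs).le
      have h3 : s⁻¹ = (√s)⁻¹ * (√s)⁻¹ := by rw [← mul_inv, h2]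
      rw [h3]

/-- The exponential decay. -/
theorem exp_decay {θ c : ℝ} (hθ : 0 < θ) (hc : 0 < c) (M : ℕ) :
    ∃ C, ∀ s, c < s → Real.exp (-(θ * √s)) ≤ C * s⁻¹ ^ M := by
  refine ⟨((2 * M).factorial : ℝ) / θ ^ (2 * M), fun s hs => ?_⟩
  have hs0 : 0 < s := hc.trans hs
  have hr : 0 < √s := Real.sqrt_pos.2 hs0
  have h1 : (θ * √s) ^ (2 * M) / ((2 * M).factorial : ℝ) ≤ Real.exp (θ * √s) :=
    Real.pow_div_factorial_le_exp _ (by positivity) _
  have h2 : (θ * √s) ^ (2 * M) = θ ^ (2 * M) * s ^ M := by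
    rw [mul_pow, pow_mul (√s), Real.sq_sqrt hs0.le]
  rw [Real.exp_neg, inv_pow]
  rw [h2] at h1
  have h3 : 0 < Real.exp (θ * √s) := Real.exp_pos _
  have hf : (0 : ℝ) < ((2 * M).factorial : ℝ) := by exact_mod_cast Nat.factorial_pos _
  rw [div_le_iff₀ hf] at h1
  rw [inv_le_iff_one_le_mul₀ h3]
  have h4 : 0 < θ ^ (2 * M) := by positivity
  have h5 : 0 < s ^ M := by positivity
  have h6 : (1 : ℝ) = (θ ^ (2 * M) * s ^ M) / (θ ^ (2 * M) * s ^ M) := by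
    field_simp
  calc (1 : ℝ) = (θ ^ (2 * M) * s ^ M) / (θ ^ (2 * M) * s ^ M) := h6
    _ ≤ (Real.exp (θ * √s) * ((2 * M).factorial : ℝ)) / (θ ^ (2 * M) * s ^ M) := by
        gcongr
    _ = ((2 * M).factorial : ℝ) / θ ^ (2 * M) * (s ^ M)⁻¹ * Real.exp (θ * √s) := by
        field_simp

/-- `L(√s) - θ`. -/
def Dl (θ s : ℝ) : ℝ := Lz θ √s - θ

section dl

variable {θ c : ℝ}

theorem sm_Lz_sqrt (hθ : 0 < θ) (hc : 0 < c) : ContDiffOn ℝ ∞ (fun s => Lz θ √s) (Ioi c) := by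
  intro s hs
  have hr : 0 < √s := Real.sqrt_pos.2 (hc.trans hs)
  have h1 : ContDiffAt ℝ ∞ (fun s : ℝ => √s) s := contDiffAt_id.sqrt (hc.trans hs).ne'
  have h2 : ContDiffAt ℝ ∞ (fun s : ℝ => θ * √s / 2) s := (contDiffAt_const.mul h1).div_const 2
  have h3 := Real.contDiff_cosh.contDiffAt.comp s h2
  have h4 := Real.contDiff_sinh.contDiffAt.comp s h2
  exact ((contDiffAt_const.mul h3).div h4 (sinh_half_pos hθ hr).ne').contDiffWithinAt

/-- The Riccati equation. -/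
theorem hasDerivAt_Dl (hθ : 0 < θ) {s : ℝ} (hs : 0 < s) :
    HasDerivAt (Dl θ) (-1 / 4 * (Dl θ s * (Dl θ s + 2 * θ)) * (√s)⁻¹) s := by
  have hr : 0 < √s := Real.sqrt_pos.2 hs
  have hsh := sinh_half_pos hθ hr
  have h1 : HasDerivAt (fun s : ℝ => θ * √s / 2) (θ * (1 / (2 * √s)) / 2) s :=
    ((Real.hasDerivAt_sqrt hs.ne').const_mul θ).div_const 2
  have h2 := (h1.cosh.const_mul θ).div h1.sinh hsh.ne'
  have h3 := h2.sub_const θ
  refine h3.congr_deriv ?_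
  have hc2 := Real.cosh_sq (θ * √s / 2)
  unfold Dl Lz
  set S := Real.sinh (θ * √s / 2) with hS
  set K := Real.cosh (θ * √s / 2) with hK
  have hS0 : S ≠ 0 := hsh.ne'
  field_simp
  ring

theorem Dl_nonneg (hθ : 0 < θ) {s : ℝ} (hs : 0 < s) : 0 ≤ Dl θ s :=
  sub_nonneg.2 (le_Lz hθ (Real.sqrt_pos.2 hs))

theorem Dl_le (hθ : 0 < θ) (hc : 0 < c) : ∃ C, ∀ s, c < s → Dl θ s ≤ C * Real.exp (-(θ * √s)) := by
  have hc' : 0 < √c := Real.sqrt_pos.2 hc
  have h1 : Real.exp (-(θ * √c)) < 1 := by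
    rw [← Real.exp_zero]
    exact Real.exp_lt_exp.2 (by have := mul_pos hθ hc'; linarith)
  refine ⟨2 * θ / (1 - Real.exp (-(θ * √c))), fun s hs => ?_⟩
  have hr : 0 < √s := Real.sqrt_pos.2 (hc.trans hs)
  have hsh := sinh_half_pos hθ hr
  have h2 : Real.exp (-(θ * √s)) ≤ Real.exp (-(θ * √c)) := by
    refine Real.exp_le_exp.2 ?_
    have := Real.sqrt_le_sqrt hs.le
    have := mul_le_mul_of_nonneg_left this hθ.le
    linarith
  have h3 : Dl θ s * Real.sinh (θ * √s / 2) = θ * Real.exp (-(θ * √s / 2)) := by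
    unfold Dl Lz
    rw [sub_mul, div_mul_cancel₀ _ hsh.ne', ← mul_sub, Real.cosh_sub_sinh]
  have h4 : Real.sinh (θ * √s / 2) = Real.exp (θ * √s / 2) * (1 - Real.exp (-(θ * √s))) / 2 := by
    rw [Real.sinh_eq, mul_sub, mul_one, ← Real.exp_add]
    congr 3
    ring
  have h5 : 0 < 1 - Real.exp (-(θ * √s)) := by linarith
  have h6 : Dl θ s = 2 * θ / (1 - Real.exp (-(θ * √s))) * Real.exp (-(θ * √s)) := by
    have h7 : Real.exp (-(θ * √s)) = Real.exp (-(θ * √s / 2)) * Real.exp (-(θ * √s / 2)) := by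
      rw [← Real.exp_add]; congr 1; ring
    have h8 : Real.exp (-(θ * √s / 2)) * Real.exp (θ * √s / 2) = 1 := by
      rw [← Real.exp_add]; simp
    have h9 : Dl θ s * (1 - Real.exp (-(θ * √s))) = 2 * θ * Real.exp (-(θ * √s)) := by
      rw [h4] at h3
      have h10 : Dl θ s * (1 - Real.exp (-(θ * √s))) =
          2 * Real.exp (-(θ * √s / 2)) * (Dl θ s * (Real.exp (θ * √s / 2) *
            (1 - Real.exp (-(θ * √s))) / 2)) := by
        linear_combination (-(Dl θ s * (1 - Real.exp (-(θ * √s))))) * h8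
      rw [h10, h3, h7]
      ring
    field_simp
    linarith
  rw [h6]
  have h7 : 2 * θ / (1 - Real.exp (-(θ * √s))) ≤ 2 * θ / (1 - Real.exp (-(θ * √c))) :=
    div_le_div_of_nonneg_left (by positivity) (by linarith) (by linarith)
  exact mul_le_mul_of_nonneg_right h7 (Real.exp_pos _).le

/-- `L(√s) - θ` and all its derivatives decay faster than every power. -/
theorem s1_Dl (hθ : 0 < θ) (hc : 0 < c) (k : ℕ) : ∀ M : ℕ, S1 c (fun s => s⁻¹ ^ M) k (Dl θ) := by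
  have hsm : ContDiffOn ℝ ∞ (Dl θ) (Ioi c) := (sm_Lz_sqrt hθ hc).sub contDiffOn_const
  have hb : ∀ M : ℕ, ∃ C, ∀ s, c < s → |Dl θ s| ≤ C * s⁻¹ ^ M := by
    intro M
    obtain ⟨C, hC⟩ := Dl_le hθ hc
    obtain ⟨C', hC'⟩ := exp_decay hθ hc M
    refine ⟨|C| * C', fun s hs => ?_⟩
    rw [abs_of_nonneg (Dl_nonneg hθ (hc.trans hs)), mul_assoc]
    calc Dl θ s ≤ C * Real.exp (-(θ * √s)) := hC s hs
      _ ≤ |C| * Real.exp (-(θ * √s)) :=
          mul_le_mul_of_nonneg_right (le_abs_self C) (Real.exp_pos _).le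
      _ ≤ |C| * (C' * s⁻¹ ^ M) := mul_le_mul_of_nonneg_left (hC' s hs) (abs_nonneg C)
  induction k with
  | zero =>
    intro M
    refine ⟨fun _ => hsm, fun j hj => ?_⟩
    obtain rfl : j = 0 := Nat.le_zero.1 hj
    obtain ⟨C, hC⟩ := hb M
    exact ⟨C, fun _ s hs => by simpa using hC s hs⟩
  | succ k ih =>
    intro M
    refine S1.succ' hsm (hb M) (fun s hs => hasDerivAt_Dl hθ (hc.trans hs)) ?_
    have hp : ∀ _ : Unit, ∀ s ∈ Ioi c, 0 < s := fun _ s hs => hc.trans hs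
    have h1 : S1 c (fun _ => 1) k fun s => Dl θ s + 2 * θ :=
      (ih 0 |>.wcongr fun _ s _ => by simp).add (opI c)
        (Sf.const1 (α := Unit) (fun _ => Ioi c) (fun _ s => s) k (2 * θ))
    have h2 : S1 c (fun _ => 1) k fun s => (√s)⁻¹ := by
      refine (s1_inv_sqrt hc k).mono hp (fun _ s hs => by positivity) (A := (√c)⁻¹)
        fun _ s hs => ?_
      rw [mul_one]
      exact inv_anti₀ (Real.sqrt_pos.2 hc) (Real.sqrt_le_sqrt (le_of_lt hs))
    have h3 := ((((ih (M + 1)).mul (opI c) h1).csmul (opI c) (-1 / 4)).mul (opI c) h2)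
    refine (h3.congr (opI c) fun _ s _ => ?_).wcongr fun _ s _ => ?_
    · simp only [smul_eq_mul]
    · rw [pow_succ]; ring

/-- **`Φ'/Φ` is a symbol of order `-1/2`.** -/
theorem s1_lam (hθ : 0 < θ) (hc : 0 < c) (k : ℕ) :
    S1 c (fun s => (√s)⁻¹) k fun s => Fs1 (θ ^ 2) s / Fs (θ ^ 2) s := by
  have h1 : S1 c (fun _ => 1) k fun s => Dl θ s + θ :=
    (s1_Dl hθ hc k 0 |>.wcongr fun _ s _ => by simp).add (opI c)
      (Sf.const1 (α := Unit) (fun _ => Ioi c) (fun _ s => s) k θ)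
  have h2 := (h1.mul (opI c) (s1_inv_sqrt hc k)).csmul (opI c) (1 / 2)
  refine (h2.congr (opI c) fun _ s hs => ?_).wcongr fun _ s _ => by simp
  have hs0 : 0 < s := hc.trans hs
  have hr : 0 < √s := Real.sqrt_pos.2 hs0
  have h3 := Fs1_sq_mul θ √s
  have h4 := Fs_sq_mul θ √s
  rw [Real.sq_sqrt hs0.le] at h3 h4
  have h5 := Lz_mul hθ hr
  have hF : Fs (θ ^ 2) s ≠ 0 := by
    intro h0
    rw [h0, mul_zero] at h4
    have h6 := cosh_two' θ √s
    have h7 := sinh_half_pos hθ hr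
    have h8 : 0 < Real.sinh (θ * √s / 2) ^ 2 := by positivity
    linarith
  have h6 : Lz θ √s * Fs (θ ^ 2) s = 2 * √s * Fs1 (θ ^ 2) s := by
    have h7 : θ ^ 2 * (Lz θ √s * Fs (θ ^ 2) s) = θ ^ 2 * (2 * √s * Fs1 (θ ^ 2) s) := by
      calc θ ^ 2 * (Lz θ √s * Fs (θ ^ 2) s) = Lz θ √s * (θ ^ 2 * Fs (θ ^ 2) s) := by ring
        _ = θ * Real.sinh (θ * √s) := by rw [h4, h5]
        _ = θ ^ 2 * (2 * √s * Fs1 (θ ^ 2) s) := by rw [← h3]; ring
    exact mul_left_cancel₀ (by positivity) h7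
  have h7 : Dl θ s + θ = Lz θ √s := by unfold Dl; ring
  simp only [smul_eq_mul, h7]
  rw [div_eq_iff hF]
  have h8 : √s ≠ 0 := hr.ne'
  field_simp
  linarith

end dl

end Vale.Agent.P088.R2.H644.Ch
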