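import Vale.Agent.P088.R2.H644.W.Wei

/-!
# P088: the stiff part `e^u Φ(ρ)` for a general profile, uniformly over families

`LS c Φ Φ₁`: the logarithmic derivative `Φ₁/Φ` is a symbol of order `-1/2` on `(c, ∞)`; this holds
for every profile of `IsProf` and for the cosh profile.
-/

open Set Filter
open scoped ContDiff Topology

noncomputable section

namespace Vale.Agent.P088.R2.H644.Sy

variable {α E F : Type*} [NormedAddCommGroup E] [NormedSpace ℝ E] [NormedAddCommGroup F]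
  [NormedSpace ℝ F]

/-- Compositions with functions of one variable, from the derivative of the inner function. -/
theorem Sf.compD {U : α → Set E} {ρ g : α → E → ℝ} {f : α → E → ℝ} (hU : ∀ a, IsOpen (U a))
    (hg : ∀ a, ∀ z ∈ U a, g a z ≠ 0) (hs : ∀ a, ContDiffOn ℝ ∞ (f a) (U a)) :
    ∀ (k : ℕ) (H : α → ℝ → ℝ) (γ : α → E → ℝ), (∀ a, ContDiff ℝ ∞ (H a)) →
    (∀ j ≤ k + 1, ∃ C, ∀ a, ∀ z ∈ U a,
      |iteratedDeriv j (H a) (f a z)| ≤ C * (γ a z * (g a z)⁻¹ ^ j)) →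
    Sf U ρ (fun a z => g a z * (ρ a z)⁻¹) k (fun a => fderiv ℝ (f a)) →
    Sf U ρ γ (k + 1) fun a z => H a (f a z) := by
  have base : ∀ (H : α → ℝ → ℝ) (γ : α → E → ℝ), (∀ a, ContDiff ℝ ∞ (H a)) →
      (∃ C, ∀ a, ∀ z ∈ U a, |iteratedDeriv 0 (H a) (f a z)| ≤ C * (γ a z * (g a z)⁻¹ ^ 0)) →
      Sf U ρ γ 0 fun a z => H a (f a z) := by
    intro H γ hH hb
    refine ⟨fun a => (hH a).comp_contDiffOn (hs a), fun j hj => ?_⟩
    obtain rfl : j = 0 := Nat.le_zero.1 hj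
    obtain ⟨C, hC⟩ := hb
    exact ⟨C, fun a z hz => by simpa using hC a z hz⟩
  have step : ∀ (k : ℕ) (H : α → ℝ → ℝ) (γ : α → E → ℝ), (∀ a, ContDiff ℝ ∞ (H a)) →
      (∃ C, ∀ a, ∀ z ∈ U a, |iteratedDeriv 0 (H a) (f a z)| ≤ C * (γ a z * (g a z)⁻¹ ^ 0)) →
      Sf U ρ (fun a z => γ a z * (g a z)⁻¹) k (fun a z => deriv (H a) (f a z)) →
      Sf U ρ (fun a z => g a z * (ρ a z)⁻¹) k (fun a => fderiv ℝ (f a)) →
      Sf U ρ γ (k + 1) fun a z => H a (f a z) := by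
    intro k H γ hH hb h1 hf
    refine Sf.succ (fun a => (hH a).comp_contDiffOn (hs a)) ?_ ?_
    · obtain ⟨C, hC⟩ := hb
      exact ⟨C, fun a z hz => by simpa using hC a z hz⟩
    · have h2 := h1.smul hU hf
      refine (h2.congr hU fun a z hz => ?_).wcongr fun a z hz => ?_
      · have d1 : DifferentiableAt ℝ (H a) (f a z) :=
          (hH a).contDiffAt.differentiableAt (by simp)
        have d2 : DifferentiableAt ℝ (f a) z :=
          ((hs a z hz).contDiffAt ((hU a).mem_nhds hz)).differentiableAt (by simp)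
        have h3 : HasFDerivAt (fun z => H a (f a z)) (deriv (H a) (f a z) • fderiv ℝ (f a) z) z :=
          d1.hasDerivAt.comp_hasFDerivAt z d2.hasFDerivAt
        exact h3.fderiv
      · have := hg a z hz
        field_simp
  intro k
  induction k with
  | zero =>
    intro H γ hH hb hf
    refine step 0 H γ hH (hb 0 (Nat.zero_le _)) ?_ hf
    refine base _ _ (fun a => (contDiff_infty_iff_deriv.1 (hH a)).2) ?_
    obtain ⟨C, hC⟩ := hb 1 le_rfl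
    exact ⟨C, fun a z hz => by simpa [iteratedDeriv_one] using hC a z hz⟩
  | succ k ih =>
    intro H γ hH hb hf
    refine step (k + 1) H γ hH (hb 0 (Nat.zero_le _)) ?_ hf
    refine ih (fun a => deriv (H a)) _ (fun a => (contDiff_infty_iff_deriv.1 (hH a)).2)
      (fun j hj => ?_) (hf.mono_k (Nat.le_succ k))
    obtain ⟨C, hC⟩ := hb (j + 1) (Nat.succ_le_succ hj)
    refine ⟨C, fun a z hz => ?_⟩
    rw [← iteratedDeriv_succ']
    refine (hC a z hz).trans (le_of_eq ?_)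
    rw [pow_succ]; ring

end Vale.Agent.P088.R2.H644.Sy

namespace Vale.Agent.P088.R2.H644.Ch

open Vale.Agent.P088.R2.H644.Sy Vale.Agent.P088.R2.H644

/-- The logarithmic derivative of `Φ` is a symbol of order `-1/2` on `(c, ∞)`. -/
structure LS (c : ℝ) (Φ Φ₁ : ℝ → ℝ) : Prop where
  c0 : 0 < c
  sm : ContDiff ℝ ∞ Φ
  d1 : ∀ s, HasDerivAt Φ (Φ₁ s) s
  pos : ∀ s, c < s → 0 < Φ s
  lam : ∀ k, S1 c (fun s => (√s)⁻¹) k fun s => Φ₁ s / Φ s

theorem LS.cosh {θ c : ℝ} (hθ : 0 < θ) (hc : 0 < c) : LS c (Fs (θ ^ 2)) (Fs1 (θ ^ 2)) where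
  c0 := hc
  sm := contDiff_Fs _
  d1 s := (d2_Fs (θ ^ 2)).d1 s
  pos _ hs := Fs_pos (hc.trans hs)
  lam k := s1_lam hθ hc k

/-- `L(√s)` is a symbol of order `0`. -/
theorem s1_L {θ Li ε r₁ R₁ : ℝ} {Φ Φ₁ Φ₂ L e : ℝ → ℝ} (h : IsProf θ Li ε r₁ R₁ Φ Φ₁ Φ₂ L e)
    {c : ℝ} (hc : 0 < c) (k : ℕ) : S1 c (fun _ => 1) k fun s => L √s := by
  have hsm : ContDiffOn ℝ ∞ (fun s => L √s) (Ioi 0) := by
    intro s hs
    have hr : 0 < √s := Real.sqrt_pos.2 hs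
    have h1 : ContDiffAt ℝ ∞ (fun s : ℝ => √s) s := contDiffAt_id.sqrt (ne_of_gt hs)
    have h2 : ContDiffAt ℝ ∞ L √s := (h.smL _ hr).contDiffAt (isOpen_Ioi.mem_nhds hr)
    exact (h2.comp s h1).contDiffWithinAt
  refine ⟨fun _ => hsm.mono (Ioi_subset_Ioi hc.le), fun j _ => ?_⟩
  -- the derivatives are bounded on `[c, R₁²]` and vanish beyond
  have hcont : ContinuousOn (iteratedDeriv j fun s => L √s) (Icc c (max c (R₁ ^ 2))) := by
    have h1 : ContinuousOn (iteratedDerivWithin j (fun s => L √s) (Ioi 0)) (Ioi 0) :=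
      hsm.continuousOn_iteratedDerivWithin (by exact_mod_cast le_top) (uniqueDiffOn_Ioi 0)
    have h2 : EqOn (iteratedDerivWithin j (fun s => L √s) (Ioi 0)) (iteratedDeriv j fun s => L √s)
        (Ioi 0) := iteratedDerivWithin_of_isOpen isOpen_Ioi
    exact ((h1.congr fun s hs => (h2 hs).symm)).mono fun s hs => hc.trans_le hs.1
  obtain ⟨C, hC⟩ := isCompact_Icc.exists_bound_of_continuousOn hcont
  set M : ℝ := max c (R₁ ^ 2) with hM
  have hM0 : 0 < M := hc.trans_le (le_max_left _ _)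
  refine ⟨max (|C| * M ^ j) |Li|, fun _ s hs => ?_⟩
  have hs0 : 0 < s := hc.trans hs
  rw [norm_iteratedFDeriv_eq_norm_iteratedDeriv]
  rcases le_or_gt s M with h1 | h1
  · have h2 := hC s ⟨le_of_lt hs, h1⟩
    have h3 : (1 : ℝ) ≤ M ^ j * s⁻¹ ^ j := by
      rw [← mul_pow]
      refine one_le_pow₀ ?_
      rw [← div_eq_mul_inv, one_le_div₀ hs0]
      exact h1
    calc ‖iteratedDeriv j (fun s => L √s) s‖ ≤ C := h2
      _ ≤ |C| * 1 := by rw [mul_one]; exact le_abs_self C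
      _ ≤ |C| * (M ^ j * s⁻¹ ^ j) := mul_le_mul_of_nonneg_left h3 (abs_nonneg C)
      _ = |C| * M ^ j * (1 * s⁻¹ ^ j) := by ring
      _ ≤ _ := mul_le_mul_of_nonneg_right (le_max_left _ _) (by positivity)
  · have e1 : (fun s => L √s) =ᶠ[𝓝 s] fun _ => Li := by
      filter_upwards [isOpen_Ioi.mem_nhds h1] with t ht
      refine h.L_far _ ?_
      have h2 : R₁ ^ 2 ≤ t := (le_max_right _ _).trans (le_of_lt ht)
      exact Real.le_sqrt_of_sq_le h2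
    have e2 : iteratedDeriv j (fun s => L √s) s = iteratedDeriv j (fun _ => Li) s :=
      e1.iteratedDeriv_eq j
    rw [e2, iteratedDeriv_const]
    split_ifs with h0
    · subst h0
      rw [Real.norm_eq_abs]
      have h5 : |Li| ≤ max (|C| * M ^ 0) |Li| := le_max_right _ _
      simpa using h5
    · rw [norm_zero]
      positivity

/-- **Every profile has the symbol property.** -/
theorem LS.prof {θ Li ε r₁ R₁ : ℝ} {Φ Φ₁ Φ₂ L e : ℝ → ℝ} (h : IsProf θ Li ε r₁ R₁ Φ Φ₁ Φ₂ L e)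
    {c : ℝ} (hc : 0 < c) : LS c Φ Φ₁ where
  c0 := hc
  sm := h.sm
  d1 := h.d2.d1
  pos s hs := h.pos s (hc.trans hs)
  lam k := by
    have h2 := ((s1_L h hc k).mul (opI c) (s1_inv_sqrt hc k)).csmul (opI c) (1 / 2)
    refine (h2.congr (opI c) fun _ s hs => ?_).wcongr fun _ s _ => by simp
    have hs0 : 0 < s := hc.trans hs
    have hr : 0 < √s := Real.sqrt_pos.2 hs0
    have h3 := h.one √s hr
    rw [Real.sq_sqrt hs0.le] at h3
    have hF := (h.pos s hs0).ne'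
    simp only [smul_eq_mul]
    rw [div_eq_iff hF]
    field_simp
    linarith

variable {α E : Type*} [NormedAddCommGroup E] [NormedSpace ℝ E]

/-- The stiff part. -/
def Fg (Φ : ℝ → ℝ) (u ρ : α → E → ℝ) (a : α) (z : E) : ℝ := Real.exp (u a z) * Φ (ρ a z)

/-- Its logarithmic derivative. -/
def lg1 (Φ Φ₁ : ℝ → ℝ) (u ρ : α → E → ℝ) (a : α) (z : E) : E →L[ℝ] ℝ :=
  fderiv ℝ (u a) z + (Φ₁ (ρ a z) / Φ (ρ a z)) • fderiv ℝ (ρ a) z

/-- Its logarithm. -/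
def fg (Φ : ℝ → ℝ) (u ρ : α → E → ℝ) (a : α) (z : E) : ℝ := u a z + Real.log (Φ (ρ a z))

section far

variable {U : α → Set E} {u ρ : α → E → ℝ} {k : ℕ} {c : ℝ} {Φ Φ₁ : ℝ → ℝ}

/-- `Φ'/Φ (ρ)`. -/
theorem LS.lamf (h : LS c Φ Φ₁) (w : Wf U u ρ k c) :
    Sf U (fun a z => √(ρ a z)) (fun a z => (√(ρ a z))⁻¹) k fun a z => Φ₁ (ρ a z) / Φ (ρ a z) := by
  refine Sf.comp1 (I := fun _ => Ioi c) w.op (fun a z hz => (h.c0.trans (w.hρ a z hz)).ne')
    (fun _ => isOpen_Ioi) w.hρ k (fun _ s => Φ₁ s / Φ s) _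
    (fun _ => (h.lam k).sm ()) (fun j hj => ?_) (w.dρ.mono_k (Nat.le_succ k))
  obtain ⟨C, hC⟩ := (h.lam k).bd' hj
  exact ⟨C, fun a z hz => hC _ (w.hρ a z hz)⟩

/-- **`D log F = O(1)`.** -/
theorem LS.lw (h : LS c Φ Φ₁) (w : Wf U u ρ k c) :
    Sf U (fun a z => √(ρ a z)) (fun _ _ => 1) k (lg1 Φ Φ₁ u ρ) := by
  have h1 := (h.lamf w).smul w.op (w.dρ.fd w.op)
  refine w.du.add w.op (h1.wcongr fun a z hz => ?_)
  have h2 := (w.rp h.c0 a z hz).ne'
  have h3 : √(ρ a z) * √(ρ a z) = ρ a z := Real.mul_self_sqrt (h.c0.trans (w.hρ a z hz)).le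
  rw [← h3, Real.sqrt_mul_self (w.rp h.c0 a z hz).le]
  field_simp

/-- **`D² log F = O(1/√ρ)`.** -/
theorem LS.dlw (h : LS c Φ Φ₁) (w : Wf U u ρ (k + 1) c) :
    Sf U (fun a z => √(ρ a z)) (fun a z => (√(ρ a z))⁻¹) k (fun a => fderiv ℝ (lg1 Φ Φ₁ u ρ a)) :=
  ((h.lw w).fd w.op).wcongr fun a z _ => by simp

theorem LS.sF (h : LS c Φ Φ₁) (w : Wf U u ρ k c) (a : α) :
    ContDiffOn ℝ ∞ (Fg Φ u ρ a) (U a) :=
  (w.su a).exp.mul (h.sm.comp_contDiffOn (w.dρ.sm a))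

theorem LS.F_pos (h : LS c Φ Φ₁) (w : Wf U u ρ k c) (a : α) {z : E} (hz : z ∈ U a) :
    0 < Fg Φ u ρ a z := mul_pos (Real.exp_pos _) (h.pos _ (w.hρ a z hz))

theorem LS.fdF (h : LS c Φ Φ₁) (w : Wf U u ρ k c) (a : α) {z : E} (hz : z ∈ U a) :
    HasFDerivAt (Fg Φ u ρ a) (Fg Φ u ρ a z • lg1 Φ Φ₁ u ρ a z) z := by
  have d1 : DifferentiableAt ℝ (u a) z :=
    ((w.su a z hz).contDiffAt ((w.op a).mem_nhds hz)).differentiableAt (by simp)
  have d2 : DifferentiableAt ℝ (ρ a) z :=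
    ((w.dρ.sm a z hz).contDiffAt ((w.op a).mem_nhds hz)).differentiableAt (by simp)
  have h1 : HasFDerivAt (fun z => Φ (ρ a z)) (Φ₁ (ρ a z) • fderiv ℝ (ρ a) z) z :=
    (h.d1 (ρ a z)).comp_hasFDerivAt z d2.hasFDerivAt
  have h2 := d1.hasFDerivAt.exp.mul h1
  have hF := (h.pos _ (w.hρ a z hz)).ne'
  have h3 : Real.exp (u a z) • (Φ₁ (ρ a z) • fderiv ℝ (ρ a) z) +
      Φ (ρ a z) • (Real.exp (u a z) • fderiv ℝ (u a) z) = Fg Φ u ρ a z • lg1 Φ Φ₁ u ρ a z := by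
    unfold Fg lg1
    refine ContinuousLinearMap.ext fun v => ?_
    simp only [_root_.add_apply, _root_.smul_apply, smul_eq_mul]
    field_simp
    ring
  rw [h3] at h2
  exact h2

/-- **All derivatives of the stiff part off the diagonal.** -/
theorem LS.F (h : LS c Φ Φ₁) (w : Wf U u ρ k c) :
    Sf U (fun _ _ => 1) (Fg Φ u ρ) (k + 1) (Fg Φ u ρ) := by
  have h1 : Sf U (fun _ _ => 1) (fun _ _ => 1) k (lg1 Φ Φ₁ u ρ) :=
    (h.lw w).mono_ρ (w.rp h.c0) (fun _ _ _ => one_pos) (fun _ _ _ => zero_le_one)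
      (A := (√c)⁻¹) fun a z hz => by
        rw [← div_eq_inv_mul, one_le_div₀ (Real.sqrt_pos.2 h.c0)]
        exact Real.sqrt_le_sqrt (w.hρ a z hz).le
  have h2 := Sf.log (k := k) (ρ := fun _ _ => 1) w.op (fun a => h.sF w a)
    (fun a z hz => (h.fdF w a hz).fderiv) (h1.wcongr fun a z _ => by simp)
  exact h2.wcongr fun a z hz => (abs_of_pos (h.F_pos w a hz)).symm

/-! ### The logarithm -/

theorem LS.sfg (h : LS c Φ Φ₁) (w : Wf U u ρ k c) (a : α) :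
    ContDiffOn ℝ ∞ (fg Φ u ρ a) (U a) :=
  (w.su a).add ((h.sm.comp_contDiffOn (w.dρ.sm a)).log fun _ hz => (h.pos _ (w.hρ a _ hz)).ne')

theorem LS.fd_fg (h : LS c Φ Φ₁) (w : Wf U u ρ k c) (a : α) {z : E} (hz : z ∈ U a) :
    HasFDerivAt (fg Φ u ρ a) (lg1 Φ Φ₁ u ρ a z) z := by
  have d1 : DifferentiableAt ℝ (u a) z :=
    ((w.su a z hz).contDiffAt ((w.op a).mem_nhds hz)).differentiableAt (by simp)
  have d2 : DifferentiableAt ℝ (ρ a) z :=
    ((w.dρ.sm a z hz).contDiffAt ((w.op a).mem_nhds hz)).differentiableAt (by simp)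
  have hF := (h.pos _ (w.hρ a z hz)).ne'
  have h1 : HasFDerivAt (fun z => Φ (ρ a z)) (Φ₁ (ρ a z) • fderiv ℝ (ρ a) z) z :=
    (h.d1 (ρ a z)).comp_hasFDerivAt z d2.hasFDerivAt
  have h2 := d1.hasFDerivAt.add (h1.log hF)
  have h3 : fderiv ℝ (u a) z + (Φ (ρ a z))⁻¹ • Φ₁ (ρ a z) • fderiv ℝ (ρ a) z =
      lg1 Φ Φ₁ u ρ a z := by
    unfold lg1
    rw [smul_smul, div_eq_inv_mul]
  rw [h3] at h2
  exact h2

/-- **`D f = O(1)`, `f = u + log Φ(ρ)`, at the scale `√ρ`.** -/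
theorem LS.dfg (h : LS c Φ Φ₁) (w : Wf U u ρ k c) :
    Sf U (fun a z => √(ρ a z)) (fun _ _ => 1) k (fun a => fderiv ℝ (fg Φ u ρ a)) :=
  (h.lw w).congr w.op fun a _ hz => (h.fd_fg w a hz).fderiv

theorem LS.exp_fg (h : LS c Φ Φ₁) (w : Wf U u ρ k c) (a : α) {z : E} (hz : z ∈ U a) :
    Real.exp (fg Φ u ρ a z) = Fg Φ u ρ a z := by
  unfold fg Fg
  rw [Real.exp_add, Real.exp_log (h.pos _ (w.hρ a z hz))]

/-- The distance `√ρ` is a symbol of size `√ρ`. -/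
theorem Wf.sqrt (w : Wf U u ρ k c) (hc : 0 < c) :
    Sf U (fun a z => √(ρ a z)) (fun a z => √(ρ a z)) (k + 1) fun a z => √(ρ a z) := by
  have h1 : S1 c (fun s => √s) (k + 1) fun s => √s := by
    have h2 : S1 c (fun s => s) (k + 1) fun s => s := by
      refine S1.succ' contDiffOn_id ⟨1, fun s hs => ?_⟩ (fun s _ => hasDerivAt_id s) ?_
      · rw [abs_of_pos (hc.trans hs), one_mul]
      · exact (Sf.const1 (α := Unit) (fun _ => Ioi c) (fun _ s => s) k (1 : ℝ)).wcongr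
          fun _ s hs => by
            have : s ≠ 0 := (hc.trans hs).ne'
            field_simp
    refine ((h2.mul (opI c) (s1_inv_sqrt hc (k + 1))).congr (opI c) fun _ s hs => ?_).wcongr
      fun _ s hs => ?_
    · have h3 : √s * √s = s := Real.mul_self_sqrt (hc.trans hs).le
      have h4 : √s ≠ 0 := (Real.sqrt_pos.2 (hc.trans hs)).ne'
      rw [eq_comm, mul_inv_eq_iff_eq_mul₀ h4, h3]
    · have h3 : √s * √s = s := Real.mul_self_sqrt (hc.trans hs).le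
      have h4 : √s ≠ 0 := (Real.sqrt_pos.2 (hc.trans hs)).ne'
      rw [eq_comm, mul_inv_eq_iff_eq_mul₀ h4, h3]
  refine Sf.comp1 (I := fun _ => Ioi c) w.op (fun a z hz => (hc.trans (w.hρ a z hz)).ne')
    (fun _ => isOpen_Ioi) w.hρ (k + 1) (fun _ s => √s) _
    (fun _ => h1.sm ()) (fun j hj => ?_) w.dρ
  obtain ⟨C, hC⟩ := h1.bd' hj
  exact ⟨C, fun a z hz => hC _ (w.hρ a z hz)⟩

end far

end Vale.Agent.P088.R2.H644.Ch
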