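import Vale.Agent.P088.R2.H644.W.Slot
import Vale.Agent.P088.R2.H644.W.Prof3

/-!
# P088: all slot quantities of the weight `W = Φ(u) + F`, uniformly over families

`κ = K + N ω + G`, where `|Φ'(u)| ≤ N`, `|Φ^{(j)}(u)| ≤ C K` (`j = 2, 3, 4`), `D²u = O(ω)`,
`|D^k F| ≤ C G`: all second derivatives of `W`, `D Λ W`, `Λ Λ W` are `O(κ)`, `Γ₂(W)`, `M₂(W)` are
`O(κ²)`.  The tensors of the slots need not be divergence free.
-/

open Set Filter
open scoped ContDiff Topology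

noncomputable section

namespace Vale.Agent.P088.R2.H644.Sy

open Vale.Agent.P088.R2.H961.GW

variable {α E ι κ : Type*} [NormedAddCommGroup E] [NormedSpace ℝ E] [Fintype ι] [Fintype κ]

/-- Families of slots with the scale `1`, tensors with `D s = O(δ)`. -/
structure FT (σ : α → Sl E ι) (e : ι → E) (U : α → Set E) (δ : α → E → ℝ) (k : ℕ) : Prop where
  one : ∀ a z, (σ a).ρ z = 1
  dir : ∀ a i, (σ a).e i = e i
  lx : ∀ a f, Sm (U a) f → ∀ z ∈ U a, (σ a).Λ f z = ∑ i, ∑ j,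
    ((σ a).s i j z * (σ a).D i ((σ a).D j f) z + (σ a).D i ((σ a).s i j) z * (σ a).D j f z)
  ss : ∀ i j, Sf U (fun _ _ => 1) (fun _ _ => 1) k (fun a => (σ a).s i j)
  ds : ∀ i j l, Sf U (fun _ _ => 1) δ k (fun a => (σ a).D l ((σ a).s i j))

section ft

variable {σ : α → Sl E ι} {τ : α → Sl E κ} {e : ι → E} {e' : κ → E} {U : α → Set E}
  {δ ρ g g₁ g₂ γ : α → E → ℝ} {k l : ℕ} {f h : α → E → ℝ}

theorem FT.mono_k (s : FT σ e U δ k) (hl : l ≤ k) : FT σ e U δ l :=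
  ⟨s.one, s.dir, s.lx, fun i j => (s.ss i j).mono_k hl, fun i j l' => (s.ds i j l').mono_k hl⟩

theorem FT.D_eq (s : FT σ e U δ k) (a : α) (i : ι) (f : E → ℝ) (z : E) :
    (σ a).D i f z = fderiv ℝ f z (e i) := by
  simp only [Sl.D, s.one, s.dir, one_mul]

/-- `D_i f` from `Df`. -/
theorem FT.D' (s : FT σ e U δ l) (hU : ∀ a, IsOpen (U a))
    (hf : Sf U ρ g k (fun a => fderiv ℝ (f a))) (i : ι) :
    Sf U ρ g k fun a => (σ a).D i (f a) :=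
  (hf.dir hU (e i)).congr hU fun a z _ => s.D_eq a i (f a) z

/-- `D_i f`. -/
theorem FT.D (s : FT σ e U δ l) (hU : ∀ a, IsOpen (U a)) (hf : Sf U ρ g (k + 1) f) (i : ι) :
    Sf U ρ (fun a z => g a z * (ρ a z)⁻¹) k fun a => (σ a).D i (f a) :=
  s.D' hU (hf.fd hU) i

/-- `D_i f` at the scale `1`. -/
theorem FT.D1 (s : FT σ e U δ l) (hU : ∀ a, IsOpen (U a))
    (hf : Sf U (fun _ _ => 1) g (k + 1) f) (i : ι) :
    Sf U (fun _ _ => 1) g k fun a => (σ a).D i (f a) :=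
  (s.D hU hf i).wcongr fun _ _ _ => by simp

/-- `D_k D_i f` from `D²f`. -/
theorem FT.DD (s : FT σ e U δ l) (t : FT τ e' U γ l) (hU : ∀ a, IsOpen (U a))
    (hs : ∀ a, ContDiffOn ℝ ∞ (f a) (U a))
    (hf : Sf U ρ g k (fun a => fderiv ℝ (fderiv ℝ (f a)))) (i : ι) (j : κ) :
    Sf U ρ g k fun a => (σ a).D i ((τ a).D j (f a)) := by
  refine (hf.ap2 hU hs (e' j) (e i)).congr hU fun a z _ => ?_
  rw [s.D_eq]
  have e1 : (τ a).D j (f a) = fun z => fderiv ℝ (f a) z (e' j) := funext fun z => t.D_eq a j _ z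
  rw [e1]

/-- `Γ(f, h)` from `Df`, `Dh`. -/
theorem FT.G' (s : FT σ e U δ k) (hU : ∀ a, IsOpen (U a))
    (hf : ∀ i, Sf U (fun _ _ => 1) g₁ k fun a => (σ a).D i (f a))
    (hh : ∀ i, Sf U (fun _ _ => 1) g₂ k fun a => (σ a).D i (h a)) :
    Sf U (fun _ _ => 1) (fun a z => g₁ a z * g₂ a z) k fun a => (σ a).Γ (f a) (h a) :=
  Sf.sum hU _ fun i _ => Sf.sum hU _ fun j _ =>
    (((s.ss i j).mul hU (hf i)).mul hU (hh j)).wcongr fun _ _ _ => by ring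

/-- `Λ f` from `Df` and `D²f`. -/
theorem FT.L' (s : FT σ e U δ k) (hU : ∀ a, IsOpen (U a)) (hf : ∀ a, Sm (U a) (f a))
    (g0 : ∀ a, ∀ z ∈ U a, 0 ≤ g₁ a z) (g0' : ∀ a, ∀ z ∈ U a, 0 ≤ g₂ a z)
    (hg : ∀ a, ∀ z ∈ U a, 0 ≤ δ a z)
    (h1 : ∀ i, Sf U (fun _ _ => 1) g₁ k fun a => (σ a).D i (f a))
    (h2 : ∀ i j, Sf U (fun _ _ => 1) g₂ k fun a => (σ a).D i ((σ a).D j (f a))) :
    Sf U (fun _ _ => 1) (fun a z => g₂ a z + δ a z * g₁ a z) k fun a => (σ a).Λ (f a) := by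
  have h3 : Sf U (fun _ _ => 1) (fun a z => g₂ a z + δ a z * g₁ a z) k fun a z => ∑ i, ∑ j,
      ((σ a).s i j z * (σ a).D i ((σ a).D j (f a)) z +
        (σ a).D i ((σ a).s i j) z * (σ a).D j (f a) z) :=
    Sf.sum hU _ fun i _ => Sf.sum hU _ fun j _ =>
      Sf.add' hU (fun _ _ _ => one_pos) g0' (fun a z hz => mul_nonneg (hg a z hz) (g0 a z hz))
        (((s.ss i j).mul hU (h2 i j)).wcongr fun _ _ _ => by ring)
        ((s.ds i j i).mul hU (h1 j))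
  exact h3.congr hU fun a z hz => s.lx a _ (hf a) z hz

end ft

/-! ## The slope part -/

section slope

variable {σ : α → Sl E ι} {τ : α → Sl E κ} {e : ι → E} {e' : κ → E} {δ δ' : α → E → ℝ}
  {U : α → Set E} {u F : α → E → ℝ} {Φ : α → ℝ → ℝ} {N K w G : α → E → ℝ} {k l : ℕ}

/-- The slope part of the weight: `N`, `K` dominate `Φ'`, `Φ''`, ... at `u`. -/
structure Sp (U : α → Set E) (u : α → E → ℝ) (Φ : α → ℝ → ℝ) (N K w : α → E → ℝ) (k : ℕ) :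
    Prop where
  op : ∀ a, IsOpen (U a)
  su : ∀ a, ContDiffOn ℝ ∞ (u a) (U a)
  sΦ : ∀ a, ContDiff ℝ ∞ (Φ a)
  N0 : ∀ a, ∀ z ∈ U a, 0 ≤ N a z
  K0 : ∀ a, ∀ z ∈ U a, 0 ≤ K a z
  w0 : ∀ a, ∀ z ∈ U a, 0 ≤ w a z
  du : Sf U (fun _ _ => 1) (fun _ _ => 1) (k + 1) (fun a => fderiv ℝ (u a))
  ddu : Sf U (fun _ _ => 1) w k (fun a => fderiv ℝ (fderiv ℝ (u a)))
  n1 : ∃ C, ∀ a, ∀ z ∈ U a, |deriv (Φ a) (u a z)| ≤ C * N a z
  n2 : ∀ j ≤ k + 1, ∃ C, ∀ a, ∀ z ∈ U a, |iteratedDeriv (j + 2) (Φ a) (u a z)| ≤ C * K a z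
  KN : ∃ C, 0 ≤ C ∧ ∀ a, ∀ z ∈ U a, K a z ≤ C * N a z

theorem one_pos' {α E : Type*} {U : α → Set E} : ∀ a, ∀ z ∈ U a, (0 : ℝ) < (fun _ _ => 1 : α → E → ℝ) a z :=
  fun _ _ _ => one_pos

theorem iteratedDeriv_d (f : ℝ → ℝ) (i j : ℕ) :
    iteratedDeriv j (iteratedDeriv i f) = iteratedDeriv (j + i) f := by
  induction j with
  | zero => simp [iteratedDeriv_zero]
  | succ j ih =>
    rw [iteratedDeriv_succ, ih, show j + 1 + i = j + i + 1 by ring, iteratedDeriv_succ]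

theorem contDiff_id' {f : ℝ → ℝ} (hf : ContDiff ℝ ∞ f) (i : ℕ) :
    ContDiff ℝ ∞ (iteratedDeriv i f) := by
  induction i with
  | zero => simpa [iteratedDeriv_zero] using hf
  | succ i ih =>
    rw [iteratedDeriv_succ]
    exact (contDiff_infty_iff_deriv.1 ih).2

/-- `Φ'(u)`. -/
theorem Sp.p1 (s : Sp U u Φ N K w k) :
    Sf U (fun _ _ => 1) N (k + 2) fun a z => deriv (Φ a) (u a z) := by
  refine Sf.compD (ρ := fun _ _ => 1) (g := fun _ _ => 1) s.op (fun _ _ _ => one_ne_zero) s.su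
    (k + 1) (fun a => deriv (Φ a)) N (fun a => (contDiff_infty_iff_deriv.1 (s.sΦ a)).2)
    (fun j hj => ?_) (s.du.wcongr fun _ _ _ => by simp)
  rcases j with _ | j
  · obtain ⟨C, hC⟩ := s.n1
    exact ⟨C, fun a z hz => by simpa using hC a z hz⟩
  · obtain ⟨C, hC⟩ := s.n2 j (Nat.succ_le_succ_iff.1 hj)
    obtain ⟨C', h0, hC'⟩ := s.KN
    refine ⟨|C| * C', fun a z hz => ?_⟩
    rw [← iteratedDeriv_succ']
    have h1 := hC a z hz
    have h2 := hC' a z hz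
    have h3 := s.K0 a z hz
    calc |iteratedDeriv (j + 1 + 1) (Φ a) (u a z)| ≤ C * K a z := h1
      _ ≤ |C| * K a z := mul_le_mul_of_nonneg_right (le_abs_self C) h3
      _ ≤ |C| * (C' * N a z) := mul_le_mul_of_nonneg_left h2 (abs_nonneg C)
      _ = |C| * C' * (N a z * 1⁻¹ ^ (j + 1)) := by simp; ring

/-- `Φ''(u)`. -/
theorem Sp.p2 (s : Sp U u Φ N K w k) :
    Sf U (fun _ _ => 1) K (k + 1) fun a z => deriv (deriv (Φ a)) (u a z) := by
  refine Sf.compD (ρ := fun _ _ => 1) (g := fun _ _ => 1) s.op (fun _ _ _ => one_ne_zero) s.su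
    k (fun a => deriv (deriv (Φ a))) K
    (fun a => (contDiff_infty_iff_deriv.1 (contDiff_infty_iff_deriv.1 (s.sΦ a)).2).2)
    (fun j hj => ?_) ((s.du.mono_k (Nat.le_succ k)).wcongr fun _ _ _ => by simp)
  obtain ⟨C, hC⟩ := s.n2 j hj
  refine ⟨C, fun a z hz => ?_⟩
  rw [← iteratedDeriv_succ', ← iteratedDeriv_succ']
  simpa using hC a z hz

theorem Sp.sW (s : Sp U u Φ N K w k) (a : α) : Sm (U a) fun z => Φ a (u a z) :=
  (s.sΦ a).comp_contDiffOn (s.su a)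

theorem Sp.cp (s : Sp U u Φ N K w k) (a : α) :
    Ch.Cp (U a) (u a) (Φ a) (deriv (Φ a)) (deriv (deriv (Φ a))) := by
  have h1 := (contDiff_infty_iff_deriv.1 (s.sΦ a)).2
  have h2 := (contDiff_infty_iff_deriv.1 h1).2
  exact Ch.Cp.of (s.su a) (s.sΦ a) h1
    (fun t => ((s.sΦ a).contDiffAt.differentiableAt (by simp)).hasDerivAt)
    (fun t => (h1.contDiffAt.differentiableAt (by simp)).hasDerivAt)

/-- `D_i Φ(u)`. -/
theorem Sp.d1 (s : Sp U u Φ N K w k) (f : FT σ e U δ l) (i : ι) :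
    Sf U (fun _ _ => 1) N (k + 1) fun a => (σ a).D i (fun z => Φ a (u a z)) := by
  have h1 := (s.p1.mono_k (Nat.le_succ (k + 1))).mul s.op (f.D' s.op s.du i)
  refine (h1.congr s.op fun a z hz => ?_).wcongr fun _ _ _ => by ring
  rw [Ch.D_comp (s.op a) (s.cp a) i hz]

/-- `D_i D_j Φ(u)`. -/
theorem Sp.d2 (s : Sp U u Φ N K w k) (f : FT σ e U δ l) (t : FT τ e' U δ' l) (i : ι) (j : κ) :
    Sf U (fun _ _ => 1) (fun a z => K a z + N a z * w a z) k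
      fun a => (σ a).D i ((τ a).D j (fun z => Φ a (u a z))) := by
  have hU := s.op
  have h1 := ((s.p2.mono_k (Nat.le_succ k)).mul hU
    ((f.D' hU (s.du.mono_k (Nat.le_succ k)) i).mul hU (t.D' hU (s.du.mono_k (Nat.le_succ k)) j)))
  have h2 := (s.p1.mono_k (Nat.le_add_right k 2)).mul hU (f.DD t hU s.su s.ddu i j)
  have h3 := Sf.add' hU one_pos' (fun a z hz => by simpa using s.K0 a z hz)
    (fun a z hz => mul_nonneg (s.N0 a z hz) (s.w0 a z hz)) h1 h2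
  refine (h3.congr hU fun a z hz => ?_).wcongr fun _ _ _ => by ring
  have c := s.cp a
  rw [D_congr (σ a) (hU a) (fun z hz => Ch.D_comp (σ := τ a) (hU a) c j hz) i hz,
    D_mul (σ a) (hU a) c.s1 ?_ i hz, Ch.D_comp1 (hU a) c i hz]
  · ring
  · have h4 : (τ a).D j (u a) = fun z => fderiv ℝ (u a) z (e' j) := funext fun z => t.D_eq a j _ z
    rw [h4]
    exact Sm.fd (hU a) (s.su a) _

end slope

/-! ## The whole weight -/

section wg

variable {σ : α → Sl E ι} {τ : α → Sl E κ} {e : ι → E} {e' : κ → E} {δ : α → E → ℝ}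
  {U : α → Set E} {u F : α → E → ℝ} {Φ : α → ℝ → ℝ} {N K w G : α → E → ℝ} {k l : ℕ}

/-- The weight `W = Φ(u) + F`. -/
def Wt2 (Φ : α → ℝ → ℝ) (u F : α → E → ℝ) (a : α) (z : E) : ℝ := Φ a (u a z) + F a z

/-- The size of the second derivatives of the weight. -/
def kp (N K w G : α → E → ℝ) (a : α) (z : E) : ℝ := K a z + N a z * w a z + G a z

/-- The hypotheses for the whole weight. -/
structure Wg (U : α → Set E) (u : α → E → ℝ) (Φ : α → ℝ → ℝ) (F : α → E → ℝ)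
    (N K w G δ : α → E → ℝ) (k : ℕ) : Prop where
  sp : Sp U u Φ N K w k
  sF : ∀ a, Sm (U a) (F a)
  F1 : Sf U (fun _ _ => 1) G (k + 1) (fun a => fderiv ℝ (F a))
  G0 : ∀ a, ∀ z ∈ U a, 0 ≤ G a z
  δ0 : ∀ a, ∀ z ∈ U a, 0 ≤ δ a z
  δ1 : ∀ a, ∀ z ∈ U a, δ a z ≤ 1
  δw : ∃ C, 0 ≤ C ∧ ∀ a, ∀ z ∈ U a, δ a z ≤ C * w a z

theorem Wg.op (W : Wg U u Φ F N K w G δ k) : ∀ a, IsOpen (U a) := W.sp.op

theorem Wg.sW (W : Wg U u Φ F N K w G δ k) (a : α) : Sm (U a) (Wt2 Φ u F a) :=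
  (W.sp.sW a).add (W.sF a)

theorem Wg.kp0 (W : Wg U u Φ F N K w G δ k) (a : α) (z : E) (hz : z ∈ U a) :
    0 ≤ kp N K w G a z :=
  add_nonneg (add_nonneg (W.sp.K0 a z hz) (mul_nonneg (W.sp.N0 a z hz) (W.sp.w0 a z hz)))
    (W.G0 a z hz)

theorem Wg.NG0 (W : Wg U u Φ F N K w G δ k) (a : α) (z : E) (hz : z ∈ U a) :
    0 ≤ N a z + G a z := add_nonneg (W.sp.N0 a z hz) (W.G0 a z hz)

/-- The first derivatives. -/
theorem Wg.d1 (W : Wg U u Φ F N K w G δ k) (f : FT σ e U δ l) (i : ι) :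
    Sf U (fun _ _ => 1) (fun a z => N a z + G a z) (k + 1) fun a => (σ a).D i (Wt2 Φ u F a) := by
  have h := Sf.add' W.op one_pos' W.sp.N0 W.G0 (W.sp.d1 f i) (f.D' W.op W.F1 i)
  refine h.congr W.op fun a z hz => ?_
  exact D_add (σ a) (W.op a) (W.sp.sW a) (W.sF a) i hz

/-- The second derivatives. -/
theorem Wg.d2 (W : Wg U u Φ F N K w G δ k) (f : FT σ e U δ l) (t : FT τ e' U δ l) (i : ι)
    (j : κ) :
    Sf U (fun _ _ => 1) (kp N K w G) k fun a => (σ a).D i ((τ a).D j (Wt2 Φ u F a)) := by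
  have hU := W.op
  have h1 := W.sp.d2 f t i j
  have h2 : Sf U (fun _ _ => 1) G k fun a => (σ a).D i ((τ a).D j (F a)) := by
    refine f.DD t hU W.sF ?_ i j
    exact (W.F1.fd hU).wcongr fun _ _ _ => by simp
  have h := Sf.add' hU one_pos' (fun a z hz => add_nonneg (W.sp.K0 a z hz)
    (mul_nonneg (W.sp.N0 a z hz) (W.sp.w0 a z hz))) W.G0 h1 h2
  refine h.congr hU fun a z hz => ?_
  have hc := D_congr (σ a) (hU a) (f := (τ a).D j (Wt2 Φ u F a))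
    (fun z hz => D_add (τ a) (hU a) (W.sp.sW a) (W.sF a) j hz) i hz
  rw [hc]
  have s1 : ∀ f : E → ℝ, Sm (U a) f → Sm (U a) ((τ a).D j f) := fun f hf => by
    have h4 : (τ a).D j f = fun z => fderiv ℝ f z (e' j) := funext fun z => t.D_eq a j _ z
    rw [h4]
    exact Sm.fd (hU a) hf _
  exact D_add (σ a) (hU a) (s1 _ (W.sp.sW a)) (s1 _ (W.sF a)) i hz

/-- `Λ W`. -/
theorem Wg.L (W : Wg U u Φ F N K w G δ k) (f : FT σ e U δ k) :
    Sf U (fun _ _ => 1) (kp N K w G) k fun a => (σ a).Λ (Wt2 Φ u F a) := by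
  have h := f.L' W.op W.sW W.NG0 W.kp0 W.δ0 (fun i => (W.d1 f i).mono_k (Nat.le_succ k))
    fun i j => W.d2 f f i j
  obtain ⟨C, hC, hδ⟩ := W.δw
  refine h.mono one_pos' (fun a z hz => add_nonneg (W.kp0 a z hz)
    (mul_nonneg (W.δ0 a z hz) (W.NG0 a z hz))) (A := 2 + C) fun a z hz => ?_
  have h1 := W.δ0 a z hz
  have h2 := W.δ1 a z hz
  have h3 := hδ a z hz
  have h4 := W.sp.N0 a z hz
  have h5 := W.G0 a z hz
  have h6 := W.sp.K0 a z hz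
  have h7 := W.sp.w0 a z hz
  have e1 : δ a z * N a z ≤ C * (N a z * w a z) := by
    calc δ a z * N a z ≤ C * w a z * N a z := mul_le_mul_of_nonneg_right h3 h4
      _ = _ := by ring
  have e2 : δ a z * G a z ≤ G a z := mul_le_of_le_one_left h5 h2
  have e3 : 0 ≤ N a z * w a z := mul_nonneg h4 h7
  unfold kp
  nlinarith [mul_nonneg hC h6, mul_nonneg hC h5]

/-- `D Λ W`. -/
theorem Wg.DL (W : Wg U u Φ F N K w G δ (k + 1)) (f : FT σ e U δ (k + 1)) (t : FT τ e' U δ l)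
    (j : κ) : Sf U (fun _ _ => 1) (kp N K w G) k fun a => (τ a).D j ((σ a).Λ (Wt2 Φ u F a)) :=
  t.D1 W.op (W.L f) j

/-- `Λ Λ W`. -/
theorem Wg.LL (W : Wg U u Φ F N K w G δ (k + 2)) (f : FT σ e U δ (k + 2))
    (t : FT τ e' U δ k) :
    Sf U (fun _ _ => 1) (kp N K w G) k fun a => (τ a).Λ ((σ a).Λ (Wt2 Φ u F a)) := by
  have hU := W.op
  have hL := W.L f
  have h1 : ∀ i, Sf U (fun _ _ => 1) (kp N K w G) k
      fun a => (τ a).D i ((σ a).Λ (Wt2 Φ u F a)) := fun i =>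
    (t.D1 hU hL i).mono_k (Nat.le_succ k)
  have h2 : ∀ i j, Sf U (fun _ _ => 1) (kp N K w G) k
      fun a => (τ a).D i ((τ a).D j ((σ a).Λ (Wt2 Φ u F a))) := fun i j =>
    t.D1 hU (t.D1 hU hL j) i
  have h := t.L' hU hL.sm W.kp0 W.kp0 W.δ0 h1 h2
  refine h.mono one_pos' (fun a z hz => add_nonneg (W.kp0 a z hz)
    (mul_nonneg (W.δ0 a z hz) (W.kp0 a z hz))) (A := 2) fun a z hz => ?_
  have h3 := mul_le_of_le_one_left (W.kp0 a z hz) (W.δ1 a z hz)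
  linarith

end wg

end Vale.Agent.P088.R2.H644.Sy
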