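import Mathlib

/-!
# A smooth ramp

`ramp t = 0` for `t ≤ -1`, `ramp t = t` for `t ≥ 1`, with derivative `kap t ∈ [0, 1]`.
-/

open Filter Set MeasureTheory
open scoped ContDiff Topology

noncomputable section

namespace Vale.Agent.P088.R2.H644

/-- A function is smooth when its derivative is. -/
lemma contDiff_of_hasDerivAt {f f' : ℝ → ℝ} (h : ∀ t, HasDerivAt f (f' t) t)
    (h' : ContDiff ℝ ∞ f') : ContDiff ℝ ∞ f := by
  refine (contDiff_infty_iff_deriv (𝕜 := ℝ)).2 ⟨fun t => (h t).differentiableAt, ?_⟩
  rwa [funext fun t => (h t).deriv]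

/-- The integral of a smooth function from a fixed point. -/
lemma hasDerivAt_integral {f : ℝ → ℝ} (hf : Continuous f) (a t : ℝ) :
    HasDerivAt (fun t => ∫ u in a..t, f u) (f t) t :=
  intervalIntegral.integral_hasDerivAt_right (hf.intervalIntegrable _ _)
    hf.stronglyMeasurable.stronglyMeasurableAtFilter hf.continuousAt

/-- The derivative of the ramp. -/
def kap (t : ℝ) : ℝ := Real.smoothTransition ((t + 1) / 2)

lemma contDiff_kap : ContDiff ℝ ∞ kap :=
  (Real.smoothTransition.contDiff (n := (⊤ : ℕ∞))).comp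
    ((contDiff_id.add contDiff_const).div_const 2)

lemma kap_nonneg (t : ℝ) : 0 ≤ kap t := Real.smoothTransition.nonneg _

lemma kap_le_one (t : ℝ) : kap t ≤ 1 := Real.smoothTransition.le_one _

lemma kap_zero {t : ℝ} (h : t ≤ -1) : kap t = 0 :=
  Real.smoothTransition.zero_of_nonpos (by linarith)

lemma kap_one {t : ℝ} (h : 1 ≤ t) : kap t = 1 :=
  Real.smoothTransition.one_of_one_le (by linarith)

lemma kap_neg (t : ℝ) : kap (-t) + kap t = 1 := by
  unfold kap Real.smoothTransition
  have e1 : 1 - (-t + 1) / 2 = (t + 1) / 2 := by ring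
  have e2 : 1 - (t + 1) / 2 = (-t + 1) / 2 := by ring
  rw [e1, e2]
  have h := Real.smoothTransition.pos_denom ((t + 1) / 2)
  rw [e2] at h
  have h' : 0 < expNegInvGlue ((-t + 1) / 2) + expNegInvGlue ((t + 1) / 2) := by linarith
  field_simp
  ring

/-- The ramp. -/
def ramp (t : ℝ) : ℝ := ∫ u in (-1 : ℝ)..t, kap u

lemma hasDerivAt_ramp (t : ℝ) : HasDerivAt ramp (kap t) t :=
  hasDerivAt_integral contDiff_kap.continuous _ _

lemma contDiff_ramp : ContDiff ℝ ∞ ramp := contDiff_of_hasDerivAt hasDerivAt_ramp contDiff_kap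

lemma ramp_zero {t : ℝ} (h : t ≤ -1) : ramp t = 0 := by
  unfold ramp
  rw [intervalIntegral.integral_congr (g := fun _ => (0 : ℝ))]
  · simp
  · intro u hu
    rw [uIcc_of_ge h] at hu
    exact kap_zero hu.2

lemma ramp_one : ramp 1 = 1 := by
  have h1 : (∫ u in (-1 : ℝ)..1, kap (-u)) = ∫ u in (-1 : ℝ)..1, kap u := by
    have := intervalIntegral.integral_comp_neg (a := (-1 : ℝ)) (b := 1) kap
    simpa using this
  have h2 : (∫ u in (-1 : ℝ)..1, kap (-u)) + ∫ u in (-1 : ℝ)..1, kap u = 2 := by
    rw [← intervalIntegral.integral_add]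
    · simp only [kap_neg]
      norm_num
    · exact (contDiff_kap.continuous.comp continuous_neg).intervalIntegrable _ _
    · exact contDiff_kap.continuous.intervalIntegrable _ _
  unfold ramp
  linarith

lemma ramp_id {t : ℝ} (h : 1 ≤ t) : ramp t = t := by
  have h1 : ramp t = ramp 1 + ∫ u in (1 : ℝ)..t, kap u :=
    (intervalIntegral.integral_add_adjacent_intervals
      (contDiff_kap.continuous.intervalIntegrable _ _)
      (contDiff_kap.continuous.intervalIntegrable _ _)).symm
  have h2 : (∫ u in (1 : ℝ)..t, kap u) = t - 1 := by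
    rw [intervalIntegral.integral_congr (g := fun _ => (1 : ℝ))]
    · simp
    · intro u hu
      rw [uIcc_of_le h] at hu
      exact kap_one hu.1
  rw [h1, ramp_one, h2]
  ring

lemma ramp_mono : Monotone ramp := by
  refine monotone_of_deriv_nonneg (fun t => (hasDerivAt_ramp t).differentiableAt) fun t => ?_
  rw [(hasDerivAt_ramp t).deriv]
  exact kap_nonneg t

lemma ramp_nonneg (t : ℝ) : 0 ≤ ramp t := by
  rcases le_total t (-1) with h | h
  · rw [ramp_zero h]
  · rw [← ramp_zero le_rfl]
    exact ramp_mono h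

/-- `t ≤ ramp t`. -/
lemma le_ramp (t : ℝ) : t ≤ ramp t := by
  rcases le_total 1 t with h | h
  · rw [ramp_id h]
  · have hanti : Antitone fun t => ramp t - t := by
      refine antitone_of_deriv_nonpos
        (fun t => ((hasDerivAt_ramp t).sub (hasDerivAt_id t)).differentiableAt) fun t => ?_
      have e : deriv (fun t => ramp t - t) t = kap t - 1 :=
        ((hasDerivAt_ramp t).sub (hasDerivAt_id t)).deriv
      rw [e]
      have := kap_le_one t
      linarith
    have := hanti h
    simp only [ramp_one, sub_self] at this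
    linarith

end Vale.Agent.P088.R2.H644
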