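import Vale.Agent.P088.R2.H644.W.St
import Vale.Agent.P088.R2.H644.W.Ramp

/-!
# The radial slow profile

`L = θ coth (θ r / 2)` for `r ≤ r₁`, then `-r L' / L ≤ e₀ + ε` until `L = Li`.
-/

open Filter Set MeasureTheory
open scoped ContDiff Topology

noncomputable section

namespace Vale.Agent.P088.R2.H644

/-- Parameters. -/
structure PP (θ Li ε r₁ δ : ℝ) : Prop where
  θ0 : 0 < θ
  L0 : 0 < Li
  ε0 : 0 < ε
  r0 : 0 < r₁
  δ0 : 0 < δ
  le : Li * Real.exp δ ≤ θ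

/-- `θ coth (θ r / 2)`. -/
def Lz (θ r : ℝ) : ℝ := θ * Real.cosh (θ * r / 2) / Real.sinh (θ * r / 2)

/-- `θ r / sinh (θ r)`. -/
def ez (θ r : ℝ) : ℝ := θ * r / Real.sinh (θ * r)

/-- `log (L₀ / Li)`. -/
def az (θ Li r : ℝ) : ℝ := Real.log (Lz θ r) - Real.log Li

/-- The argument of the ramp. -/
def gz (θ Li ε r₁ r : ℝ) : ℝ := az θ Li r - ε * ramp (Real.log r - Real.log r₁ - 1)

/-- The logarithmic derivative of the profile. -/
def Lf (θ Li ε r₁ δ r : ℝ) : ℝ := Li * Real.exp (δ * ramp (gz θ Li ε r₁ r / δ))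

/-- `e = -r L' / L`. -/
def ef (θ Li ε r₁ δ r : ℝ) : ℝ :=
  kap (gz θ Li ε r₁ r / δ) * (ez θ r + ε * kap (Real.log r - Real.log r₁ - 1))

section basic

variable {θ r : ℝ}

lemma sinh_half_pos (hθ : 0 < θ) (hr : 0 < r) : 0 < Real.sinh (θ * r / 2) :=
  Real.sinh_pos_iff.2 (by positivity)

lemma sinh_pos' (hθ : 0 < θ) (hr : 0 < r) : 0 < Real.sinh (θ * r) :=
  Real.sinh_pos_iff.2 (by positivity)

lemma Lz_pos (hθ : 0 < θ) (hr : 0 < r) : 0 < Lz θ r :=
  div_pos (mul_pos hθ (Real.cosh_pos _)) (sinh_half_pos hθ hr)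

lemma ez_pos (hθ : 0 < θ) (hr : 0 < r) : 0 < ez θ r :=
  div_pos (mul_pos hθ hr) (sinh_pos' hθ hr)

lemma le_Lz (hθ : 0 < θ) (hr : 0 < r) : θ ≤ Lz θ r := by
  have h := sinh_half_pos hθ hr
  unfold Lz
  rw [le_div_iff₀ h]
  exact mul_le_mul_of_nonneg_left (Real.sinh_lt_cosh _).le hθ.le

lemma sinh_two' (θ r : ℝ) :
    Real.sinh (θ * r) = 2 * Real.sinh (θ * r / 2) * Real.cosh (θ * r / 2) := by
  rw [← Real.sinh_two_mul]
  congr 1
  ring

lemma cosh_two' (θ r : ℝ) : Real.cosh (θ * r) - 1 = 2 * Real.sinh (θ * r / 2) ^ 2 := by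
  have h1 : θ * r = 2 * (θ * r / 2) := by ring
  have h2 := Real.cosh_sq (θ * r / 2)
  rw [h1, Real.cosh_two_mul, h2]
  have h3 : 2 * (θ * r / 2) / 2 = θ * r / 2 := by ring
  rw [h3]
  ring

/-- `L₀ (cosh θr - 1) = θ sinh θr`. -/
lemma Lz_mul (hθ : 0 < θ) (hr : 0 < r) :
    Lz θ r * (Real.cosh (θ * r) - 1) = θ * Real.sinh (θ * r) := by
  rw [cosh_two', sinh_two', Lz]
  have h := (sinh_half_pos hθ hr).ne'
  field_simp

/-- `(log L₀)' = -e₀ / r`. -/
lemma hasDerivAt_log_Lz (hθ : 0 < θ) (hr : 0 < r) :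
    HasDerivAt (fun r => Real.log (Lz θ r)) (-(ez θ r) / r) r := by
  have hs := sinh_half_pos hθ hr
  have hc := Real.cosh_pos (θ * r / 2)
  have h1 : HasDerivAt (fun r => θ * r / 2) (θ / 2) r := by
    have := ((hasDerivAt_id r).const_mul θ).div_const 2
    simpa using this
  have h2 : HasDerivAt (fun r => Real.sinh (θ * r / 2)) (Real.cosh (θ * r / 2) * (θ / 2)) r :=
    (Real.hasDerivAt_sinh _).comp r h1
  have h3 : HasDerivAt (fun r => Real.cosh (θ * r / 2)) (Real.sinh (θ * r / 2) * (θ / 2)) r :=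
    (Real.hasDerivAt_cosh _).comp r h1
  have h4 := ((h3.const_mul θ).div h2 hs.ne').log (Lz_pos hθ hr).ne'
  refine h4.congr_deriv ?_
  have h5 := Real.cosh_sq (θ * r / 2)
  rw [ez, sinh_two']
  simp only [Pi.div_apply]
  field_simp
  linear_combination (-1 : ℝ) * h5

lemma ez_lt_one (hθ : 0 < θ) (hr : 0 < r) : ez θ r < 1 := by
  unfold ez
  rw [div_lt_one (sinh_pos' hθ hr)]
  exact Real.self_lt_sinh_iff.2 (by positivity)

/-- `e₀ ≤ 6 / (6 + (θ r)²)`. -/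
lemma ez_le (hθ : 0 < θ) (hr : 0 < r) : ez θ r ≤ 6 / (6 + (θ * r) ^ 2) := by
  have hx : 0 < θ * r := mul_pos hθ hr
  have h1 : θ * r + (θ * r) ^ 3 / 6 ≤ Real.sinh (θ * r) := by
    have h2 := cube_mul_St_three_sq (θ * r)
    have h3 := one_div_le_St (s := (θ * r) ^ 2) (by positivity) 3
    have h4 : (1 : ℝ) / ((3 : ℕ).factorial : ℝ) = 1 / 6 := by norm_num [Nat.factorial]
    rw [h4] at h3
    have h5 := mul_le_mul_of_nonneg_left h3 (show 0 ≤ (θ * r) ^ 3 by positivity)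
    linarith
  unfold ez
  rw [div_le_div_iff₀ (sinh_pos' hθ hr) (by positivity)]
  nlinarith [h1]

end basic

section prof

variable {θ Li ε r₁ δ : ℝ} (h : PP θ Li ε r₁ δ)
include h

lemma PP.le_az {r : ℝ} (hr : 0 < r) : δ ≤ az θ Li r := by
  have h1 := h.le.trans (le_Lz h.θ0 hr)
  have h2 := Real.log_le_log (mul_pos h.L0 (Real.exp_pos _)) h1
  rw [Real.log_mul h.L0.ne' (Real.exp_pos _).ne', Real.log_exp] at h2
  unfold az
  linarith

lemma PP.hasDerivAt_az {r : ℝ} (hr : 0 < r) : HasDerivAt (az θ Li) (-(ez θ r) / r) r :=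
  (hasDerivAt_log_Lz h.θ0 hr).sub_const _

lemma PP.hasDerivAt_gz {r : ℝ} (hr : 0 < r) : HasDerivAt (gz θ Li ε r₁)
    (-(ez θ r + ε * kap (Real.log r - Real.log r₁ - 1)) / r) r := by
  have h1 : HasDerivAt (fun r => Real.log r - Real.log r₁ - 1) r⁻¹ r :=
    ((Real.hasDerivAt_log hr.ne').sub_const _).sub_const _
  have h2 := (h.hasDerivAt_az hr).sub (((hasDerivAt_ramp _).comp r h1).const_mul ε)
  refine h2.congr_deriv ?_
  field_simp
  ring

lemma PP.Lf_pos (r : ℝ) : 0 < Lf θ Li ε r₁ δ r := mul_pos h.L0 (Real.exp_pos _)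

/-- `L' = -e L / r`. -/
lemma PP.hasDerivAt_Lf {r : ℝ} (hr : 0 < r) : HasDerivAt (Lf θ Li ε r₁ δ)
    (-(ef θ Li ε r₁ δ r) * Lf θ Li ε r₁ δ r / r) r := by
  have h1 := (h.hasDerivAt_gz hr).div_const δ
  have h2 := (((hasDerivAt_ramp (gz θ Li ε r₁ r / δ)).comp r h1).const_mul δ).exp.const_mul Li
  refine h2.congr_deriv ?_
  have hδ := h.δ0.ne'
  unfold ef Lf
  simp only [Function.comp_apply]
  field_simp

lemma PP.ef_nonneg {r : ℝ} (hr : 0 < r) : 0 ≤ ef θ Li ε r₁ δ r :=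
  mul_nonneg (kap_nonneg _)
    (add_nonneg (ez_pos h.θ0 hr).le (mul_nonneg h.ε0.le (kap_nonneg _)))

lemma PP.ef_le {r : ℝ} (hr : 0 < r) : ef θ Li ε r₁ δ r ≤ ez θ r + ε := by
  have h1 : 0 ≤ ez θ r + ε * kap (Real.log r - Real.log r₁ - 1) :=
    add_nonneg (ez_pos h.θ0 hr).le (mul_nonneg h.ε0.le (kap_nonneg _))
  have h2 : ε * kap (Real.log r - Real.log r₁ - 1) ≤ ε * 1 :=
    mul_le_mul_of_nonneg_left (kap_le_one _) h.ε0.le
  unfold ef
  calc kap (gz θ Li ε r₁ r / δ) * (ez θ r + ε * kap (Real.log r - Real.log r₁ - 1))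
      ≤ 1 * (ez θ r + ε * kap (Real.log r - Real.log r₁ - 1)) :=
        mul_le_mul_of_nonneg_right (kap_le_one _) h1
    _ ≤ ez θ r + ε := by linarith

omit h in
lemma log_le' {r : ℝ} (hr : 0 < r) (h1 : r ≤ r₁) : Real.log r - Real.log r₁ - 1 ≤ -1 := by
  have := Real.log_le_log hr h1
  linarith

omit h in
lemma gz_eq' {r : ℝ} (hr : 0 < r) (h1 : r ≤ r₁) : gz θ Li ε r₁ r = az θ Li r := by
  unfold gz
  rw [ramp_zero (log_le' hr h1)]
  ring

lemma PP.Lf_eq {r : ℝ} (hr : 0 < r) (h1 : r ≤ r₁) : Lf θ Li ε r₁ δ r = Lz θ r := by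
  have h2 := h.le_az hr
  unfold Lf
  rw [gz_eq' hr h1, ramp_id ((one_le_div₀ h.δ0).2 h2), mul_div_cancel₀ _ h.δ0.ne', az,
    Real.exp_sub, Real.exp_log (Lz_pos h.θ0 hr), Real.exp_log h.L0]
  field_simp [h.L0.ne']

lemma PP.ef_eq {r : ℝ} (hr : 0 < r) (h1 : r ≤ r₁) : ef θ Li ε r₁ δ r = ez θ r := by
  have h2 := h.le_az hr
  unfold ef
  rw [gz_eq' hr h1, kap_one ((one_le_div₀ h.δ0).2 h2), kap_zero (log_le' hr h1)]
  ring

lemma PP.Li_le (r : ℝ) : Li ≤ Lf θ Li ε r₁ δ r := by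
  have : 0 ≤ δ * ramp (gz θ Li ε r₁ r / δ) := mul_nonneg h.δ0.le (ramp_nonneg _)
  unfold Lf
  nlinarith [Real.add_one_le_exp (δ * ramp (gz θ Li ε r₁ r / δ)), h.L0]

lemma PP.Lf_le {r : ℝ} (hr : 0 < r) : Lf θ Li ε r₁ δ r ≤ Lz θ r := by
  have h1 : gz θ Li ε r₁ r ≤ az θ Li r := by
    unfold gz
    have := mul_nonneg h.ε0.le (ramp_nonneg (Real.log r - Real.log r₁ - 1))
    linarith
  have h2 := h.le_az hr
  have h3 : δ * ramp (gz θ Li ε r₁ r / δ) ≤ az θ Li r := by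
    calc δ * ramp (gz θ Li ε r₁ r / δ) ≤ δ * ramp (az θ Li r / δ) :=
          mul_le_mul_of_nonneg_left (ramp_mono (div_le_div_of_nonneg_right h1 h.δ0.le)) h.δ0.le
      _ = az θ Li r := by
          rw [ramp_id ((one_le_div₀ h.δ0).2 h2), mul_div_cancel₀ _ h.δ0.ne']
  calc Lf θ Li ε r₁ δ r ≤ Li * Real.exp (az θ Li r) :=
        mul_le_mul_of_nonneg_left (Real.exp_le_exp.2 h3) h.L0.le
    _ = Lz θ r := by
        rw [az, Real.exp_sub, Real.exp_log (Lz_pos h.θ0 hr), Real.exp_log h.L0]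
        field_simp [h.L0.ne']

lemma PP.antitone_az : AntitoneOn (az θ Li) (Ioi 0) := by
  refine antitoneOn_of_deriv_nonpos (convex_Ioi 0)
    (fun r hr => (h.hasDerivAt_az hr).continuousAt.continuousWithinAt)
    (fun r hr => ?_) (fun r hr => ?_)
  · rw [interior_Ioi] at hr
    exact (h.hasDerivAt_az hr).differentiableAt.differentiableWithinAt
  · rw [interior_Ioi] at hr
    rw [(h.hasDerivAt_az hr).deriv]
    exact div_nonpos_of_nonpos_of_nonneg (by linarith [ez_pos h.θ0 hr]) (le_of_lt hr)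

lemma PP.antitone_Lf : AntitoneOn (Lf θ Li ε r₁ δ) (Ioi 0) := by
  refine antitoneOn_of_deriv_nonpos (convex_Ioi 0)
    (fun r hr => (h.hasDerivAt_Lf hr).continuousAt.continuousWithinAt)
    (fun r hr => ?_) (fun r hr => ?_)
  · rw [interior_Ioi] at hr
    exact (h.hasDerivAt_Lf hr).differentiableAt.differentiableWithinAt
  · rw [interior_Ioi] at hr
    rw [(h.hasDerivAt_Lf hr).deriv]
    exact div_nonpos_of_nonpos_of_nonneg
      (mul_nonpos_of_nonpos_of_nonneg (by linarith [h.ef_nonneg hr]) (h.Lf_pos r).le) (le_of_lt hr)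

/-- The radius from which on `L = Li`. -/
lemma PP.exists_R : ∃ R₁, r₁ < R₁ ∧ ∀ r, R₁ ≤ r →
    Lf θ Li ε r₁ δ r = Li ∧ ef θ Li ε r₁ δ r = 0 := by
  set c : ℝ := 2 + (az θ Li r₁ + δ) / ε with hc
  have ha : 0 ≤ (az θ Li r₁ + δ) / ε :=
    div_nonneg (add_nonneg (h.δ0.le.trans (h.le_az h.r0)) h.δ0.le) h.ε0.le
  have hc2 : 2 ≤ c := by linarith
  refine ⟨r₁ * Real.exp c, ?_, fun r hr => ?_⟩
  · have : 1 < Real.exp c := by
      rw [Real.one_lt_exp_iff]; linarith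
    nlinarith [h.r0]
  · have hr1 : r₁ ≤ r := by
      have : 1 ≤ Real.exp c := Real.one_le_exp (by linarith)
      nlinarith [h.r0]
    have hr0 : 0 < r := h.r0.trans_le hr1
    have hlog : c ≤ Real.log r - Real.log r₁ := by
      have := Real.log_le_log (mul_pos h.r0 (Real.exp_pos c)) hr
      rw [Real.log_mul h.r0.ne' (Real.exp_pos _).ne', Real.log_exp] at this
      linarith
    have h1 : ramp (Real.log r - Real.log r₁ - 1) = Real.log r - Real.log r₁ - 1 :=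
      ramp_id (by linarith)
    have h2 : az θ Li r ≤ az θ Li r₁ := h.antitone_az h.r0 hr0 hr1
    have h3 : gz θ Li ε r₁ r ≤ -δ := by
      unfold gz
      rw [h1]
      have h4 : ε * (c - 1) ≤ ε * (Real.log r - Real.log r₁ - 1) :=
        mul_le_mul_of_nonneg_left (by linarith) h.ε0.le
      have h5 : ε * (c - 1) = ε + (az θ Li r₁ + δ) := by
        rw [hc]
        field_simp [h.ε0.ne']
        ring
      linarith [h.ε0]
    have h6 : gz θ Li ε r₁ r / δ ≤ -1 := by rw [div_le_iff₀ h.δ0]; linarith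
    constructor
    · unfold Lf
      rw [ramp_zero h6]
      simp
    · unfold ef
      rw [kap_zero h6]
      ring

lemma PP.contDiffOn_ef : ContDiffOn ℝ ∞ (ef θ Li ε r₁ δ) (Ioi 0) := by
  intro r hr
  have hr' : 0 < r := hr
  have hs := sinh_half_pos h.θ0 hr'
  have c1 : ContDiffAt ℝ ∞ (fun r : ℝ => θ * r / 2) r :=
    (contDiff_const.mul contDiff_id).contDiffAt.div_const 2
  have c1' : ContDiffAt ℝ ∞ (fun r : ℝ => θ * r) r :=
    (contDiff_const.mul contDiff_id).contDiffAt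
  have c2 : ContDiffAt ℝ ∞ (Lz θ) r :=
    (contDiffAt_const.mul (Real.contDiff_cosh.contDiffAt.comp r c1)).div
      (Real.contDiff_sinh.contDiffAt.comp r c1) hs.ne'
  have c3 : ContDiffAt ℝ ∞ (az θ Li) r := (c2.log (Lz_pos h.θ0 hr').ne').sub contDiffAt_const
  have c4 : ContDiffAt ℝ ∞ (fun r => Real.log r - Real.log r₁ - 1) r :=
    ((Real.contDiffAt_log.2 hr'.ne').sub contDiffAt_const).sub contDiffAt_const
  have c5 : ContDiffAt ℝ ∞ (gz θ Li ε r₁) r :=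
    c3.sub (contDiffAt_const.mul (contDiff_ramp.contDiffAt.comp r c4))
  have c6 : ContDiffAt ℝ ∞ (ez θ) r :=
    c1'.div (Real.contDiff_sinh.contDiffAt.comp r c1') (sinh_pos' h.θ0 hr').ne'
  exact ((contDiff_kap.contDiffAt.comp r (c5.div_const δ)).mul
    (c6.add (contDiffAt_const.mul (contDiff_kap.contDiffAt.comp r c4)))).contDiffWithinAt

lemma PP.contDiffOn_Lf : ContDiffOn ℝ ∞ (Lf θ Li ε r₁ δ) (Ioi 0) := by
  intro r hr
  have hr' : 0 < r := hr
  have hs := sinh_half_pos h.θ0 hr'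
  have c1 : ContDiffAt ℝ ∞ (fun r : ℝ => θ * r / 2) r :=
    (contDiff_const.mul contDiff_id).contDiffAt.div_const 2
  have c2 : ContDiffAt ℝ ∞ (Lz θ) r :=
    (contDiffAt_const.mul (Real.contDiff_cosh.contDiffAt.comp r c1)).div
      (Real.contDiff_sinh.contDiffAt.comp r c1) hs.ne'
  have c3 : ContDiffAt ℝ ∞ (az θ Li) r := (c2.log (Lz_pos h.θ0 hr').ne').sub contDiffAt_const
  have c4 : ContDiffAt ℝ ∞ (fun r => Real.log r - Real.log r₁ - 1) r :=
    ((Real.contDiffAt_log.2 hr'.ne').sub contDiffAt_const).sub contDiffAt_const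
  have c5 : ContDiffAt ℝ ∞ (gz θ Li ε r₁) r :=
    c3.sub (contDiffAt_const.mul (contDiff_ramp.contDiffAt.comp r c4))
  exact (contDiffAt_const.mul (contDiffAt_const.mul
    (contDiff_ramp.contDiffAt.comp r (c5.div_const δ))).exp).contDiffWithinAt

end prof

end Vale.Agent.P088.R2.H644
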