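import Mathlib.Analysis.Calculus.ContDiff.Bounds
import Mathlib.Analysis.Calculus.IteratedDeriv.Defs
import Mathlib.Analysis.Calculus.ContDiff.Operations
import Mathlib.Analysis.Calculus.FDeriv.Analytic
import Mathlib.Analysis.SpecialFunctions.ExpDeriv
import Mathlib.Analysis.SpecialFunctions.Exp

/-!
# P088: a symbol calculus

`Sb U ρ g k f`: `f` is smooth on `U` and `|D^j f| ≤ C g ρ^{-j}` on `U` for `j ≤ k`.
-/

open Set Filter
open scoped ContDiff Topology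

noncomputable section

namespace Vale.Agent.P088.R2.H644.Sy

variable {E F G : Type*} [NormedAddCommGroup E] [NormedSpace ℝ E] [NormedAddCommGroup F]
  [NormedSpace ℝ F] [NormedAddCommGroup G] [NormedSpace ℝ G]

/-- Symbols of size `g` at the scale `ρ`. -/
structure Sb (U : Set E) (ρ g : E → ℝ) (k : ℕ) (f : E → F) : Prop where
  sm : ContDiffOn ℝ ∞ f U
  bd : ∀ j ≤ k, ∃ C, ∀ z ∈ U, ‖iteratedFDeriv ℝ j f z‖ ≤ C * (g z * (ρ z)⁻¹ ^ j)

variable {U : Set E} {ρ g g₁ g₂ γ : E → ℝ} {k l : ℕ}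

theorem Sb.mono_k {f : E → F} (h : Sb U ρ g k f) (hl : l ≤ k) : Sb U ρ g l f :=
  ⟨h.sm, fun j hj => h.bd j (hj.trans hl)⟩

theorem Sb.norm_le {f : E → F} (h : Sb U ρ g k f) : ∃ C, ∀ z ∈ U, ‖f z‖ ≤ C * g z := by
  obtain ⟨C, hC⟩ := h.bd 0 (Nat.zero_le _)
  exact ⟨C, fun z hz => by simpa using hC z hz⟩

theorem Sb.congr {f f' : E → F} (hU : IsOpen U) (h : Sb U ρ g k f) (e : ∀ z ∈ U, f' z = f z) :
    Sb U ρ g k f' where
  sm := h.sm.congr e
  bd j hj := by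
    obtain ⟨C, hC⟩ := h.bd j hj
    refine ⟨C, fun z hz => ?_⟩
    have h1 : f' =ᶠ[𝓝 z] f := by
      filter_upwards [hU.mem_nhds hz] with w hw using e w hw
    rw [(h1.iteratedFDeriv ℝ j).eq_of_nhds]
    exact hC z hz

theorem Sb.wcongr {f : E → F} (h : Sb U ρ g k f) (e : ∀ z ∈ U, g₁ z = g z) : Sb U ρ g₁ k f where
  sm := h.sm
  bd j hj := by
    obtain ⟨C, hC⟩ := h.bd j hj
    exact ⟨C, fun z hz => by rw [e z hz]; exact hC z hz⟩

theorem Sb.mono {f : E → F} (h : Sb U ρ g k f) (hρ : ∀ z ∈ U, 0 < ρ z) (hg : ∀ z ∈ U, 0 ≤ g z)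
    {A : ℝ} (hA : ∀ z ∈ U, g z ≤ A * g₁ z) : Sb U ρ g₁ k f where
  sm := h.sm
  bd j hj := by
    obtain ⟨C, hC⟩ := h.bd j hj
    refine ⟨|C| * A, fun z hz => (hC z hz).trans ?_⟩
    have h1 : 0 ≤ (ρ z)⁻¹ ^ j := pow_nonneg (inv_nonneg.2 (hρ z hz).le) j
    have h2 : 0 ≤ g z * (ρ z)⁻¹ ^ j := mul_nonneg (hg z hz) h1
    calc C * (g z * (ρ z)⁻¹ ^ j) ≤ |C| * (g z * (ρ z)⁻¹ ^ j) :=
          mul_le_mul_of_nonneg_right (le_abs_self C) h2
      _ ≤ |C| * (A * g₁ z * (ρ z)⁻¹ ^ j) :=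
          mul_le_mul_of_nonneg_left (mul_le_mul_of_nonneg_right (hA z hz) h1) (abs_nonneg C)
      _ = |C| * A * (g₁ z * (ρ z)⁻¹ ^ j) := by ring

/-- Smaller scale. -/
theorem Sb.mono_ρ {f : E → F} {ρ' : E → ℝ} (h : Sb U ρ g k f) (hρ : ∀ z ∈ U, 0 < ρ z)
    (hρ' : ∀ z ∈ U, 0 < ρ' z) (hg : ∀ z ∈ U, 0 ≤ g z) {A : ℝ}
    (hA : ∀ z ∈ U, ρ' z ≤ A * ρ z) : Sb U ρ' g k f where
  sm := h.sm
  bd j hj := by
    obtain ⟨C, hC⟩ := h.bd j hj
    refine ⟨|C| * |A| ^ j, fun z hz => (hC z hz).trans ?_⟩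
    have h1 : 0 ≤ (ρ z)⁻¹ ^ j := pow_nonneg (inv_nonneg.2 (hρ z hz).le) j
    have h2 : 0 ≤ g z * (ρ z)⁻¹ ^ j := mul_nonneg (hg z hz) h1
    have h3 : (ρ z)⁻¹ ≤ |A| * (ρ' z)⁻¹ := by
      rw [← div_eq_mul_inv, le_div_iff₀ (hρ' z hz), inv_mul_le_iff₀ (hρ z hz), mul_comm]
      exact (hA z hz).trans (mul_le_mul_of_nonneg_right (le_abs_self A) (hρ z hz).le)
    have h4 : (ρ z)⁻¹ ^ j ≤ |A| ^ j * (ρ' z)⁻¹ ^ j := by
      rw [← mul_pow]
      exact pow_le_pow_left₀ (inv_nonneg.2 (hρ z hz).le) h3 j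
    calc C * (g z * (ρ z)⁻¹ ^ j) ≤ |C| * (g z * (ρ z)⁻¹ ^ j) :=
          mul_le_mul_of_nonneg_right (le_abs_self C) h2
      _ ≤ |C| * (g z * (|A| ^ j * (ρ' z)⁻¹ ^ j)) :=
          mul_le_mul_of_nonneg_left (mul_le_mul_of_nonneg_left h4 (hg z hz)) (abs_nonneg C)
      _ = |C| * |A| ^ j * (g z * (ρ' z)⁻¹ ^ j) := by ring

theorem Sb.add {f f' : E → F} (hU : IsOpen U) (h : Sb U ρ g k f) (h' : Sb U ρ g k f') :
    Sb U ρ g k fun z => f z + f' z where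
  sm := h.sm.add h'.sm
  bd j hj := by
    obtain ⟨C, hC⟩ := h.bd j hj
    obtain ⟨C', hC'⟩ := h'.bd j hj
    refine ⟨C + C', fun z hz => ?_⟩
    have s1 : ContDiffAt ℝ (j : ℕ∞ω) f z :=
      ((h.sm z hz).contDiffAt (hU.mem_nhds hz)).of_le (by exact_mod_cast le_top)
    have s2 : ContDiffAt ℝ (j : ℕ∞ω) f' z :=
      ((h'.sm z hz).contDiffAt (hU.mem_nhds hz)).of_le (by exact_mod_cast le_top)
    have e := iteratedFDeriv_add_apply s1 s2
    have e' : iteratedFDeriv ℝ j (fun z => f z + f' z) z = iteratedFDeriv ℝ j (f + f') z := rfl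
    rw [e', e]
    refine (norm_add_le _ _).trans ?_
    rw [add_mul]
    exact add_le_add (hC z hz) (hC' z hz)

theorem Sb.const (U : Set E) (ρ : E → ℝ) (k : ℕ) (c : F) : Sb U ρ (fun _ => 1) k fun _ => c where
  sm := contDiffOn_const
  bd j hj := by
    rcases Nat.eq_zero_or_pos j with rfl | h
    · exact ⟨‖c‖, fun z hz => by simp⟩
    · exact ⟨0, fun z hz => by rw [iteratedFDeriv_const_of_ne h.ne']; simp⟩

theorem Sb.zero (U : Set E) (ρ g : E → ℝ) (k : ℕ) : Sb U ρ g k fun _ => (0 : F) where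
  sm := contDiffOn_const
  bd j hj := by
    refine ⟨0, fun z hz => ?_⟩
    have h : iteratedFDeriv ℝ j (fun _ : E => (0 : F)) z = 0 := by
      rcases Nat.eq_zero_or_pos j with rfl | h
      · ext m; simp
      · rw [iteratedFDeriv_const_of_ne h.ne']; rfl
    rw [h]; simp

theorem Sb.sum {α : Type*} {f : α → E → F} (hU : IsOpen U) (S : Finset α)
    (h : ∀ i ∈ S, Sb U ρ g k (f i)) : Sb U ρ g k fun z => ∑ i ∈ S, f i z := by
  classical
  induction S using Finset.induction_on with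
  | empty => simpa using Sb.zero U ρ g k
  | insert a S ha ih =>
    have h1 := (h a (Finset.mem_insert_self a S)).add hU
      (ih fun i hi => h i (Finset.mem_insert_of_mem hi))
    exact h1.congr hU fun z _ => Finset.sum_insert ha

/-- Continuous linear maps. -/
theorem Sb.clm {f : E → F} (hU : IsOpen U) (h : Sb U ρ g k f) (L : F →L[ℝ] G) :
    Sb U ρ g k fun z => L (f z) where
  sm := L.contDiff.comp_contDiffOn h.sm
  bd j hj := by
    obtain ⟨C, hC⟩ := h.bd j hj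
    refine ⟨‖L‖ * C, fun z hz => ?_⟩
    have s1 : ContDiffAt ℝ (j : ℕ∞ω) f z :=
      ((h.sm z hz).contDiffAt (hU.mem_nhds hz)).of_le (by exact_mod_cast le_top)
    have e : ‖iteratedFDeriv ℝ j (L ∘ f) z‖ ≤ ‖L‖ * ‖iteratedFDeriv ℝ j f z‖ :=
      L.norm_iteratedFDeriv_comp_left s1 le_rfl
    refine e.trans ?_
    rw [mul_assoc]
    exact mul_le_mul_of_nonneg_left (hC z hz) (norm_nonneg L)

theorem Sb.neg {f : E → F} (hU : IsOpen U) (h : Sb U ρ g k f) : Sb U ρ g k fun z => -f z :=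
  h.clm hU (-ContinuousLinearMap.id ℝ F)

theorem Sb.sub {f f' : E → F} (hU : IsOpen U) (h : Sb U ρ g k f) (h' : Sb U ρ g k f') :
    Sb U ρ g k fun z => f z - f' z :=
  (h.add hU (h'.neg hU)).congr hU fun z _ => sub_eq_add_neg _ _

theorem Sb.csmul {f : E → F} (hU : IsOpen U) (h : Sb U ρ g k f) (c : ℝ) :
    Sb U ρ g k fun z => c • f z :=
  h.clm hU (c • ContinuousLinearMap.id ℝ F)

/-- Products. -/
theorem Sb.smul {f : E → ℝ} {f' : E → F} (hU : IsOpen U) (h : Sb U ρ g₁ k f)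
    (h' : Sb U ρ g₂ k f') : Sb U ρ (fun z => g₁ z * g₂ z) k fun z => f z • f' z where
  sm := h.sm.smul h'.sm
  bd j hj := by
    have h1 : ∀ i, ∃ C, i ≤ k → ∀ z ∈ U, ‖iteratedFDeriv ℝ i f z‖ ≤ C * (g₁ z * (ρ z)⁻¹ ^ i) := by
      intro i
      by_cases hi : i ≤ k
      · obtain ⟨C, hC⟩ := h.bd i hi
        exact ⟨C, fun _ => hC⟩
      · exact ⟨0, fun h => absurd h hi⟩
    have h2 : ∀ i, ∃ C, i ≤ k → ∀ z ∈ U,
        ‖iteratedFDeriv ℝ i f' z‖ ≤ C * (g₂ z * (ρ z)⁻¹ ^ i) := by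
      intro i
      by_cases hi : i ≤ k
      · obtain ⟨C, hC⟩ := h'.bd i hi
        exact ⟨C, fun _ => hC⟩
      · exact ⟨0, fun h => absurd h hi⟩
    choose C hC using h1
    choose C' hC' using h2
    refine ⟨∑ i ∈ Finset.range (j + 1), (j.choose i : ℝ) * C i * C' (j - i), fun z hz => ?_⟩
    have e1 := iteratedFDerivWithin_of_isOpen (𝕜 := ℝ) (f := fun z => f z • f' z) j hU hz
    have key := norm_iteratedFDerivWithin_smul_le h.sm h'.sm hU.uniqueDiffOn hz (n := j)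
      (by exact_mod_cast le_top)
    rw [e1] at key
    refine key.trans ?_
    rw [Finset.sum_mul]
    refine Finset.sum_le_sum fun i hi => ?_
    have hi' : i ≤ j := Nat.lt_succ_iff.1 (Finset.mem_range.1 hi)
    rw [iteratedFDerivWithin_of_isOpen i hU hz, iteratedFDerivWithin_of_isOpen (j - i) hU hz]
    have a1 := hC i (hi'.trans hj) z hz
    have a2 := hC' (j - i) ((Nat.sub_le j i).trans hj) z hz
    have a3 := mul_le_mul a1 a2 (norm_nonneg _) ((norm_nonneg _).trans a1)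
    have a4 : (ρ z)⁻¹ ^ j = (ρ z)⁻¹ ^ i * (ρ z)⁻¹ ^ (j - i) := by
      rw [← pow_add, Nat.add_sub_cancel' hi']
    calc (j.choose i : ℝ) * ‖iteratedFDeriv ℝ i f z‖ * ‖iteratedFDeriv ℝ (j - i) f' z‖
        = (j.choose i : ℝ) * (‖iteratedFDeriv ℝ i f z‖ * ‖iteratedFDeriv ℝ (j - i) f' z‖) := by
          ring
      _ ≤ (j.choose i : ℝ) * ((C i * (g₁ z * (ρ z)⁻¹ ^ i)) *
          (C' (j - i) * (g₂ z * (ρ z)⁻¹ ^ (j - i)))) :=
          mul_le_mul_of_nonneg_left a3 (Nat.cast_nonneg _)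
      _ = (j.choose i : ℝ) * C i * C' (j - i) * (g₁ z * g₂ z * (ρ z)⁻¹ ^ j) := by
          rw [a4]; ring

theorem Sb.mul {f f' : E → ℝ} (hU : IsOpen U) (h : Sb U ρ g₁ k f)
    (h' : Sb U ρ g₂ k f') : Sb U ρ (fun z => g₁ z * g₂ z) k fun z => f z * f' z :=
  h.smul hU h'

/-- Derivatives. -/
theorem Sb.fd {f : E → F} (hU : IsOpen U) (h : Sb U ρ g (k + 1) f) :
    Sb U ρ (fun z => g z * (ρ z)⁻¹) k (fderiv ℝ f) where
  sm := h.sm.fderiv_of_isOpen hU (by norm_num)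
  bd j hj := by
    obtain ⟨C, hC⟩ := h.bd (j + 1) (Nat.succ_le_succ hj)
    refine ⟨C, fun z hz => ?_⟩
    rw [norm_iteratedFDeriv_fderiv]
    refine (hC z hz).trans (le_of_eq ?_)
    rw [pow_succ]
    ring

/-- The inverse of `Sb.fd`. -/
theorem Sb.succ {f : E → F} (hf : ContDiffOn ℝ ∞ f U) (h0 : ∃ C, ∀ z ∈ U, ‖f z‖ ≤ C * g z)
    (h : Sb U ρ (fun z => g z * (ρ z)⁻¹) k (fderiv ℝ f)) : Sb U ρ g (k + 1) f where
  sm := hf
  bd j hj := by
    rcases j with _ | j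
    · obtain ⟨C, hC⟩ := h0
      exact ⟨C, fun z hz => by simpa using hC z hz⟩
    · obtain ⟨C, hC⟩ := h.bd j (Nat.succ_le_succ_iff.1 hj)
      refine ⟨C, fun z hz => ?_⟩
      rw [← norm_iteratedFDeriv_fderiv]
      refine (hC z hz).trans (le_of_eq ?_)
      rw [pow_succ]
      ring

/-- Functions with a good logarithmic derivative. -/
theorem Sb.log {f : E → ℝ} {ℓ : E → E →L[ℝ] ℝ} (hU : IsOpen U) (hf : ContDiffOn ℝ ∞ f U)
    (he : ∀ z ∈ U, fderiv ℝ f z = f z • ℓ z) (hℓ : Sb U ρ (fun z => (ρ z)⁻¹) k ℓ) :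
    Sb U ρ (fun z => |f z|) (k + 1) f := by
  have h0 : ∀ j ≤ k + 1, Sb U ρ (fun z => |f z|) j f := by
    intro j
    induction j with
    | zero =>
      intro _
      refine ⟨hf, fun j hj => ?_⟩
      obtain rfl : j = 0 := Nat.le_zero.1 hj
      exact ⟨1, fun z hz => by simp⟩
    | succ j ih =>
      intro hj
      have h1 := ih (Nat.le_of_succ_le hj)
      refine Sb.succ hf ⟨1, fun z hz => by simp⟩ ?_
      exact (h1.smul hU (hℓ.mono_k (Nat.succ_le_succ_iff.1 hj))).congr hU he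
  exact h0 _ le_rfl

/-- Compositions with functions of one variable. -/
theorem Sb.comp1 {f : E → ℝ} (hU : IsOpen U) (hg : ∀ z ∈ U, g z ≠ 0) {I : Set ℝ} (hI : IsOpen I)
    (hfI : ∀ z ∈ U, f z ∈ I) : ∀ (k : ℕ) (H : ℝ → ℝ) (γ : E → ℝ), ContDiffOn ℝ ∞ H I →
    (∀ j ≤ k, ∃ C, ∀ z ∈ U, |iteratedDeriv j H (f z)| ≤ C * (γ z * (g z)⁻¹ ^ j)) →
    Sb U ρ g k f → Sb U ρ γ k fun z => H (f z) := by
  intro k
  induction k with
  | zero =>
    intro H γ hH hb hf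
    refine ⟨hH.comp hf.sm hfI, fun j hj => ?_⟩
    obtain rfl : j = 0 := Nat.le_zero.1 hj
    obtain ⟨C, hC⟩ := hb 0 le_rfl
    exact ⟨C, fun z hz => by simpa using hC z hz⟩
  | succ k ih =>
    intro H γ hH hb hf
    have hsm : ContDiffOn ℝ ∞ (fun z => H (f z)) U := hH.comp hf.sm hfI
    refine Sb.succ hsm ?_ ?_
    · obtain ⟨C, hC⟩ := hb 0 (Nat.zero_le _)
      exact ⟨C, fun z hz => by simpa using hC z hz⟩
    · have hH' : ContDiffOn ℝ ∞ (deriv H) I := hH.deriv_of_isOpen hI (by norm_num)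
      have h1 : Sb U ρ (fun z => γ z * (g z)⁻¹) k fun z => deriv H (f z) := by
        refine ih (deriv H) _ hH' (fun j hj => ?_) (hf.mono_k (Nat.le_succ k))
        obtain ⟨C, hC⟩ := hb (j + 1) (Nat.succ_le_succ hj)
        refine ⟨C, fun z hz => ?_⟩
        rw [← iteratedDeriv_succ']
        refine (hC z hz).trans (le_of_eq ?_)
        rw [pow_succ]; ring
      have h2 := h1.smul hU (hf.fd hU)
      refine (h2.congr hU fun z hz => ?_).wcongr fun z hz => ?_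
      · have d1 : DifferentiableAt ℝ H (f z) :=
          ((hH _ (hfI z hz)).contDiffAt (hI.mem_nhds (hfI z hz))).differentiableAt (by simp)
        have d2 : DifferentiableAt ℝ f z :=
          ((hf.sm z hz).contDiffAt (hU.mem_nhds hz)).differentiableAt (by simp)
        have h3 : HasFDerivAt (fun z => H (f z)) (deriv H (f z) • fderiv ℝ f z) z :=
          d1.hasDerivAt.comp_hasFDerivAt z d2.hasFDerivAt
        exact h3.fderiv
      · have := hg z hz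
        field_simp

end Vale.Agent.P088.R2.H644.Sy
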