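import Vale.Agent.P088.R2.H644.W.Sym
import Vale.Agent.P088.R2.H644.W.Cert

/-!
# P088: symbols in `r = |x - y|`; the derivatives of all orders of the stiff part
-/

open MeasureTheory Set Filter
open scoped ContDiff Topology

noncomputable section

namespace Vale.Agent.P088.R2.H644.Ch

open Vale.Agent.P088.LR Vale.Agent.P088.HY
open Vale.Agent.P088.R2.H961.GW
open Vale.Agent.P088.R2.H644.Sy

variable {n : ℕ}

/-- `|x - y|`. -/
def rd (z : VV n) : ℝ := √(qq z)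

/-- The pairs with `|x - y| > c`. -/
def Ur (n : ℕ) (c : ℝ) : Set (VV n) := {z | c < rd z}

/-- The linear form `q_j`. -/
def dq (j : Fin n) : VV n →L[ℝ] ℝ :=
  (ContinuousLinearMap.proj j).comp
    (ContinuousLinearMap.fst ℝ (V n) (V n) - ContinuousLinearMap.snd ℝ (V n) (V n))

theorem dq_apply (j : Fin n) (z : VV n) : dq j z = qv j z := rfl

theorem cont_rd : Continuous (rd : VV n → ℝ) :=
  Real.continuous_sqrt.comp contDiff_qq.continuous

theorem open_Ur (c : ℝ) : IsOpen (Ur n c) := isOpen_lt continuous_const cont_rd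

section sym

variable {c : ℝ}

theorem rd_pos (hc : 0 ≤ c) {z : VV n} (hz : z ∈ Ur n c) : 0 < rd z := hc.trans_lt hz

theorem qq_pos (hc : 0 ≤ c) {z : VV n} (hz : z ∈ Ur n c) : 0 < qq z :=
  Real.sqrt_pos.1 (rd_pos hc hz)

theorem rd_sq (z : VV n) : rd z ^ 2 = qq z := Real.sq_sqrt (qq_nonneg z)

theorem abs_hv_le (z : VV n) (i : Fin n) : |hv z i| ≤ 1 := by
  rcases (qq_nonneg z).eq_or_lt with h | h
  · have : hv z i = 0 := by
      unfold hv
      rw [← h]; simp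
    rw [this]; simp
  · have h1 := sp_hv_hv h
    have h2 : hv z i ^ 2 ≤ 1 := by
      rw [← h1]
      unfold sp H230.W.dd
      rw [pow_two]
      exact Finset.single_le_sum (f := fun i => hv z i * hv z i)
        (fun j _ => mul_self_nonneg _) (Finset.mem_univ i)
    exact abs_le_one_iff_mul_self_le_one.2 (by nlinarith)

theorem qv_eq (hc : 0 ≤ c) {z : VV n} (hz : z ∈ Ur n c) (i : Fin n) :
    qv i z = rd z * hv z i := by
  have h := (rd_pos hc hz).ne'
  have e : hv z i = (rd z)⁻¹ * qv i z := rfl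
  rw [e]
  field_simp

theorem fd_qv (j : Fin n) (z : VV n) : HasFDerivAt (qv j) (dq j) z :=
  (dq j).hasFDerivAt

theorem fd_qq (z : VV n) : HasFDerivAt (qq : VV n → ℝ) (∑ j, (2 * qv j z) • dq j) z := by
  have h1 : ∀ j ∈ (Finset.univ : Finset (Fin n)),
      HasFDerivAt (fun z : VV n => qv j z ^ 2) ((2 * qv j z) • dq j) z := by
    intro j _
    have := (fd_qv j z).pow 2
    simpa using this
  have h2 := HasFDerivAt.fun_sum h1
  exact h2

/-- `D r = ∑ h_j q_j`. -/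
def dr (z : VV n) : VV n →L[ℝ] ℝ := ∑ j, hv z j • dq j

theorem fd_rd (hc : 0 ≤ c) {z : VV n} (hz : z ∈ Ur n c) : HasFDerivAt rd (dr z) z := by
  have h1 := (fd_qq z).sqrt (qq_pos hc hz).ne'
  have h2 : (1 / (2 * √(qq z))) • (∑ j, (2 * qv j z) • dq j : VV n →L[ℝ] ℝ) = dr z := by
    unfold dr
    rw [Finset.smul_sum]
    refine Finset.sum_congr rfl fun j _ => ?_
    rw [smul_smul]
    congr 1
    have h := (rd_pos hc hz).ne'
    have e : hv z j = (rd z)⁻¹ * qv j z := rfl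
    have e' : √(qq z) = rd z := rfl
    rw [e, e']
    field_simp
  rw [h2] at h1
  exact h1

theorem fd_inv (hc : 0 ≤ c) {z : VV n} (hz : z ∈ Ur n c) :
    HasFDerivAt (fun z => (rd z)⁻¹) (((rd z)⁻¹ * (-(rd z)⁻¹)) • dr z) z := by
  have h := (rd_pos hc hz).ne'
  have h1 : HasFDerivAt (fun z => (rd z)⁻¹) ((-(rd z ^ 2)⁻¹) • dr z) z :=
    (hasDerivAt_inv h).comp_hasFDerivAt z (fd_rd hc hz)
  have h2 : (-(rd z ^ 2)⁻¹) = (rd z)⁻¹ * (-(rd z)⁻¹) := by
    rw [pow_two, mul_inv]; ring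
  rw [h2] at h1
  exact h1

theorem fd_hv (hc : 0 ≤ c) {z : VV n} (hz : z ∈ Ur n c) (i : Fin n) :
    HasFDerivAt (fun z => hv z i) ((rd z)⁻¹ • (dq i - hv z i • dr z)) z := by
  have h1 := (fd_inv hc hz).mul (fd_qv i z)
  have h2 : (rd z)⁻¹ • dq i + qv i z • (((rd z)⁻¹ * (-(rd z)⁻¹)) • dr z) =
      (rd z)⁻¹ • (dq i - hv z i • dr z) := by
    have e : hv z i = (rd z)⁻¹ * qv i z := rfl
    rw [e]
    refine ContinuousLinearMap.ext fun w => ?_
    simp only [_root_.add_apply, _root_.smul_apply, _root_.sub_apply, smul_eq_mul]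
    ring
  rw [h2] at h1
  exact h1

theorem sm_rd (hc : 0 ≤ c) : ContDiffOn ℝ ∞ (rd : VV n → ℝ) (Ur n c) := by
  intro z hz
  exact (contDiff_qq.contDiffAt.sqrt (qq_pos hc hz).ne').contDiffWithinAt

theorem sm_inv (hc : 0 ≤ c) : ContDiffOn ℝ ∞ (fun z : VV n => (rd z)⁻¹) (Ur n c) :=
  (sm_rd hc).inv fun _ hz => (rd_pos hc hz).ne'

theorem sm_hv (hc : 0 ≤ c) (i : Fin n) : ContDiffOn ℝ ∞ (fun z : VV n => hv z i) (Ur n c) :=
  (sm_inv hc).mul (contDiff_qv i).contDiffOn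

/-- `r⁻¹` and `h_i` are symbols. -/
theorem sb_inv_hv (hc : 0 ≤ c) (k : ℕ) :
    Sb (Ur n c) rd (fun z => (rd z)⁻¹) k (fun z => (rd z)⁻¹) ∧
      ∀ i, Sb (Ur n c) rd (fun _ => 1) k (fun z => hv z i) := by
  have hU := open_Ur (n := n) c
  induction k with
  | zero =>
    refine ⟨⟨sm_inv hc, fun j hj => ?_⟩, fun i => ⟨sm_hv hc i, fun j hj => ?_⟩⟩
    · obtain rfl : j = 0 := Nat.le_zero.1 hj
      refine ⟨1, fun z hz => ?_⟩
      have := rd_pos hc hz
      simp [abs_of_pos this]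
    · obtain rfl : j = 0 := Nat.le_zero.1 hj
      exact ⟨1, fun z hz => by simpa using abs_hv_le z i⟩
  | succ k ih =>
    obtain ⟨ih1, ih2⟩ := ih
    have hdr : Sb (Ur n c) rd (fun _ => 1) k (dr : VV n → VV n →L[ℝ] ℝ) := by
      refine (Sb.sum hU Finset.univ (f := fun j z => hv z j • dq j) fun j _ => ?_).congr hU
        fun z _ => rfl
      exact ((ih2 j).smul hU (Sb.const (Ur n c) rd k (dq j))).wcongr fun z _ => by simp
    constructor
    · refine Sb.succ (sm_inv hc) ⟨1, fun z hz => ?_⟩ ?_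
      · have := rd_pos hc hz
        simp [abs_of_pos this]
      · have h1 := (ih1.mul hU (ih1.neg hU)).smul hU hdr
        refine (h1.congr hU fun z hz => (fd_inv hc hz).fderiv).wcongr fun z hz => by ring
    · intro i
      refine Sb.succ (sm_hv hc i) ⟨1, fun z hz => by simpa using abs_hv_le z i⟩ ?_
      have h1 := (ih2 i).smul hU hdr
      have h2 : Sb (Ur n c) rd (fun _ => 1) k (fun z => hv z i • (dr z : VV n →L[ℝ] ℝ)) :=
        h1.wcongr fun z _ => by simp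
      have h3 := ih1.smul hU ((Sb.const (Ur n c) rd k (dq i)).sub hU h2)
      exact (h3.congr hU fun z hz => (fd_hv hc hz i).fderiv).wcongr fun z hz => by ring

theorem sb_dr (hc : 0 ≤ c) (k : ℕ) :
    Sb (Ur n c) rd (fun _ => 1) k (dr : VV n → VV n →L[ℝ] ℝ) := by
  have hU := open_Ur (n := n) c
  refine (Sb.sum hU Finset.univ (f := fun j z => hv z j • dq j) fun j _ => ?_).congr hU
    fun z _ => rfl
  exact (((sb_inv_hv hc k).2 j).smul hU (Sb.const (Ur n c) rd k (dq j))).wcongr fun z _ => by simp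

theorem sb_rd (hc : 0 ≤ c) (k : ℕ) : Sb (Ur n c) rd rd k (rd : VV n → ℝ) := by
  have hU := open_Ur (n := n) c
  refine (Sb.succ (sm_rd hc) ⟨1, fun z hz => ?_⟩ ?_ : Sb (Ur n c) rd rd (k + 1) _).mono_k
    (Nat.le_succ k)
  · rw [Real.norm_eq_abs, abs_of_pos (rd_pos hc hz), one_mul]
  · refine ((sb_dr hc k).congr hU fun z hz => (fd_rd hc hz).fderiv).wcongr fun z hz => ?_
    exact mul_inv_cancel₀ (rd_pos hc hz).ne'

/-- Radial functions. -/
theorem sb_radial (hc : 0 ≤ c) {H : ℝ → ℝ} {γ : VV n → ℝ} (k : ℕ) (hH : ContDiffOn ℝ ∞ H (Ioi c))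
    (hb : ∀ j ≤ k, ∃ C, ∀ z ∈ Ur n c, |iteratedDeriv j H (rd z)| ≤ C * (γ z * (rd z)⁻¹ ^ j)) :
    Sb (Ur n c) rd γ k fun z => H (rd z) :=
  Sb.comp1 (open_Ur c) (fun _ hz => (rd_pos hc hz).ne') isOpen_Ioi (fun _ hz => hz) k H γ hH hb
    (sb_rd hc k)

end sym

end Vale.Agent.P088.R2.H644.Ch
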