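import Mathlib.Analysis.Calculus.ContDiff.Bounds
import Mathlib.Analysis.Calculus.Deriv.Inv
import Mathlib.Analysis.Calculus.IteratedDeriv.Defs
import Mathlib.Analysis.Calculus.ContDiff.Operations
import Mathlib.Analysis.Calculus.FDeriv.Analytic
import Mathlib.Analysis.SpecialFunctions.ExpDeriv
import Mathlib.Analysis.SpecialFunctions.Exp

/-!
# P088: a symbol calculus, uniform over families

`Sf U ρ g k f`: for a family indexed by `α`, `f a` is smooth on `U a` and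
`|D^j (f a)| ≤ C (g a) (ρ a)^{-j}` on `U a` for `j ≤ k`, with `C` independent of `a`.
-/

open Set Filter
open scoped ContDiff Topology

noncomputable section

namespace Vale.Agent.P088.R2.H644.Sy

variable {α β E F G : Type*} [NormedAddCommGroup E] [NormedSpace ℝ E] [NormedAddCommGroup F]
  [NormedSpace ℝ F] [NormedAddCommGroup G] [NormedSpace ℝ G]

/-- Families of symbols of size `g` at the scale `ρ`. -/
structure Sf (U : α → Set E) (ρ g : α → E → ℝ) (k : ℕ) (f : α → E → F) : Prop where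
  sm : ∀ a, ContDiffOn ℝ ∞ (f a) (U a)
  bd : ∀ j ≤ k, ∃ C, ∀ a, ∀ z ∈ U a,
    ‖iteratedFDeriv ℝ j (f a) z‖ ≤ C * (g a z * (ρ a z)⁻¹ ^ j)

variable {U : α → Set E} {ρ g g₁ g₂ γ : α → E → ℝ} {k l : ℕ}

theorem Sf.mono_k {f : α → E → F} (h : Sf U ρ g k f) (hl : l ≤ k) : Sf U ρ g l f :=
  ⟨h.sm, fun j hj => h.bd j (hj.trans hl)⟩

/-- Restriction to a smaller family of smaller sets. -/
theorem Sf.sub_fam {f : α → E → F} (h : Sf U ρ g k f) (φ : β → α) {U' : β → Set E}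
    (hU : ∀ b, U' b ⊆ U (φ b)) :
    Sf U' (fun b => ρ (φ b)) (fun b => g (φ b)) k (fun b => f (φ b)) where
  sm b := (h.sm (φ b)).mono (hU b)
  bd j hj := by
    obtain ⟨C, hC⟩ := h.bd j hj
    exact ⟨C, fun b z hz => hC (φ b) z (hU b hz)⟩

theorem Sf.norm_le {f : α → E → F} (h : Sf U ρ g k f) :
    ∃ C, ∀ a, ∀ z ∈ U a, ‖f a z‖ ≤ C * g a z := by
  obtain ⟨C, hC⟩ := h.bd 0 (Nat.zero_le _)
  exact ⟨C, fun a z hz => by simpa using hC a z hz⟩

theorem Sf.congr {f f' : α → E → F} (hU : ∀ a, IsOpen (U a)) (h : Sf U ρ g k f)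
    (e : ∀ a, ∀ z ∈ U a, f' a z = f a z) : Sf U ρ g k f' where
  sm a := (h.sm a).congr (e a)
  bd j hj := by
    obtain ⟨C, hC⟩ := h.bd j hj
    refine ⟨C, fun a z hz => ?_⟩
    have h1 : f' a =ᶠ[𝓝 z] f a := by
      filter_upwards [(hU a).mem_nhds hz] with w hw using e a w hw
    rw [(h1.iteratedFDeriv ℝ j).eq_of_nhds]
    exact hC a z hz

theorem Sf.wcongr {f : α → E → F} (h : Sf U ρ g k f) (e : ∀ a, ∀ z ∈ U a, g₁ a z = g a z) :
    Sf U ρ g₁ k f where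
  sm := h.sm
  bd j hj := by
    obtain ⟨C, hC⟩ := h.bd j hj
    exact ⟨C, fun a z hz => by rw [e a z hz]; exact hC a z hz⟩

theorem Sf.mono {f : α → E → F} (h : Sf U ρ g k f) (hρ : ∀ a, ∀ z ∈ U a, 0 < ρ a z)
    (hg : ∀ a, ∀ z ∈ U a, 0 ≤ g a z) {A : ℝ} (hA : ∀ a, ∀ z ∈ U a, g a z ≤ A * g₁ a z) :
    Sf U ρ g₁ k f where
  sm := h.sm
  bd j hj := by
    obtain ⟨C, hC⟩ := h.bd j hj
    refine ⟨|C| * A, fun a z hz => (hC a z hz).trans ?_⟩
    have h1 : 0 ≤ (ρ a z)⁻¹ ^ j := pow_nonneg (inv_nonneg.2 (hρ a z hz).le) j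
    have h2 : 0 ≤ g a z * (ρ a z)⁻¹ ^ j := mul_nonneg (hg a z hz) h1
    calc C * (g a z * (ρ a z)⁻¹ ^ j) ≤ |C| * (g a z * (ρ a z)⁻¹ ^ j) :=
          mul_le_mul_of_nonneg_right (le_abs_self C) h2
      _ ≤ |C| * (A * g₁ a z * (ρ a z)⁻¹ ^ j) :=
          mul_le_mul_of_nonneg_left (mul_le_mul_of_nonneg_right (hA a z hz) h1) (abs_nonneg C)
      _ = |C| * A * (g₁ a z * (ρ a z)⁻¹ ^ j) := by ring

/-- Smaller scale. -/
theorem Sf.mono_ρ {f : α → E → F} {ρ' : α → E → ℝ} (h : Sf U ρ g k f)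
    (hρ : ∀ a, ∀ z ∈ U a, 0 < ρ a z) (hρ' : ∀ a, ∀ z ∈ U a, 0 < ρ' a z)
    (hg : ∀ a, ∀ z ∈ U a, 0 ≤ g a z) {A : ℝ} (hA : ∀ a, ∀ z ∈ U a, ρ' a z ≤ A * ρ a z) :
    Sf U ρ' g k f where
  sm := h.sm
  bd j hj := by
    obtain ⟨C, hC⟩ := h.bd j hj
    refine ⟨|C| * |A| ^ j, fun a z hz => (hC a z hz).trans ?_⟩
    have h1 : 0 ≤ (ρ a z)⁻¹ ^ j := pow_nonneg (inv_nonneg.2 (hρ a z hz).le) j
    have h2 : 0 ≤ g a z * (ρ a z)⁻¹ ^ j := mul_nonneg (hg a z hz) h1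
    have h3 : (ρ a z)⁻¹ ≤ |A| * (ρ' a z)⁻¹ := by
      rw [← div_eq_mul_inv, le_div_iff₀ (hρ' a z hz), inv_mul_le_iff₀ (hρ a z hz), mul_comm]
      exact (hA a z hz).trans (mul_le_mul_of_nonneg_right (le_abs_self A) (hρ a z hz).le)
    have h4 : (ρ a z)⁻¹ ^ j ≤ |A| ^ j * (ρ' a z)⁻¹ ^ j := by
      rw [← mul_pow]
      exact pow_le_pow_left₀ (inv_nonneg.2 (hρ a z hz).le) h3 j
    calc C * (g a z * (ρ a z)⁻¹ ^ j) ≤ |C| * (g a z * (ρ a z)⁻¹ ^ j) :=
          mul_le_mul_of_nonneg_right (le_abs_self C) h2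
      _ ≤ |C| * (g a z * (|A| ^ j * (ρ' a z)⁻¹ ^ j)) :=
          mul_le_mul_of_nonneg_left (mul_le_mul_of_nonneg_left h4 (hg a z hz)) (abs_nonneg C)
      _ = |C| * |A| ^ j * (g a z * (ρ' a z)⁻¹ ^ j) := by ring

theorem Sf.add {f f' : α → E → F} (hU : ∀ a, IsOpen (U a)) (h : Sf U ρ g k f)
    (h' : Sf U ρ g k f') : Sf U ρ g k fun a z => f a z + f' a z where
  sm a := (h.sm a).add (h'.sm a)
  bd j hj := by
    obtain ⟨C, hC⟩ := h.bd j hj
    obtain ⟨C', hC'⟩ := h'.bd j hj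
    refine ⟨C + C', fun a z hz => ?_⟩
    have s1 : ContDiffAt ℝ (j : ℕ∞ω) (f a) z :=
      ((h.sm a z hz).contDiffAt ((hU a).mem_nhds hz)).of_le (by exact_mod_cast le_top)
    have s2 : ContDiffAt ℝ (j : ℕ∞ω) (f' a) z :=
      ((h'.sm a z hz).contDiffAt ((hU a).mem_nhds hz)).of_le (by exact_mod_cast le_top)
    have e := iteratedFDeriv_add_apply s1 s2
    have e' : iteratedFDeriv ℝ j (fun z => f a z + f' a z) z = iteratedFDeriv ℝ j (f a + f' a) z :=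
      rfl
    rw [e', e]
    refine (norm_add_le _ _).trans ?_
    rw [add_mul]
    exact add_le_add (hC a z hz) (hC' a z hz)

theorem Sf.const (U : α → Set E) (ρ : α → E → ℝ) (g : α → E → ℝ) (k : ℕ) (c : α → F)
    (hc : ∃ C, ∀ a, ∀ z ∈ U a, ‖c a‖ ≤ C * g a z) : Sf U ρ g k fun a _ => c a where
  sm _ := contDiffOn_const
  bd j hj := by
    rcases Nat.eq_zero_or_pos j with rfl | h
    · obtain ⟨C, hC⟩ := hc
      exact ⟨C, fun a z hz => by simpa using hC a z hz⟩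
    · exact ⟨0, fun a z hz => by rw [iteratedFDeriv_const_of_ne h.ne']; simp⟩

theorem Sf.const1 (U : α → Set E) (ρ : α → E → ℝ) (k : ℕ) (c : F) :
    Sf U ρ (fun _ _ => 1) k fun _ _ => c :=
  Sf.const U ρ (fun _ _ => 1) k (fun _ => c) ⟨‖c‖, fun _ _ _ => by simp⟩

theorem Sf.zero (U : α → Set E) (ρ g : α → E → ℝ) (k : ℕ) : Sf U ρ g k fun _ _ => (0 : F) :=
  Sf.const U ρ g k (fun _ => 0) ⟨0, fun _ _ _ => by simp⟩

theorem Sf.sum {ι : Type*} {f : ι → α → E → F} (hU : ∀ a, IsOpen (U a)) (S : Finset ι)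
    (h : ∀ i ∈ S, Sf U ρ g k (f i)) : Sf U ρ g k fun a z => ∑ i ∈ S, f i a z := by
  classical
  induction S using Finset.induction_on with
  | empty => simpa using Sf.zero U ρ g k
  | insert i S ha ih =>
    have h1 := (h i (Finset.mem_insert_self i S)).add hU
      (ih fun i hi => h i (Finset.mem_insert_of_mem hi))
    exact h1.congr hU fun a z _ => Finset.sum_insert ha

/-- Continuous linear maps. -/
theorem Sf.clm {f : α → E → F} (hU : ∀ a, IsOpen (U a)) (h : Sf U ρ g k f) (L : F →L[ℝ] G) :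
    Sf U ρ g k fun a z => L (f a z) where
  sm a := L.contDiff.comp_contDiffOn (h.sm a)
  bd j hj := by
    obtain ⟨C, hC⟩ := h.bd j hj
    refine ⟨‖L‖ * C, fun a z hz => ?_⟩
    have s1 : ContDiffAt ℝ (j : ℕ∞ω) (f a) z :=
      ((h.sm a z hz).contDiffAt ((hU a).mem_nhds hz)).of_le (by exact_mod_cast le_top)
    have e : ‖iteratedFDeriv ℝ j (L ∘ f a) z‖ ≤ ‖L‖ * ‖iteratedFDeriv ℝ j (f a) z‖ :=
      L.norm_iteratedFDeriv_comp_left s1 le_rfl
    refine e.trans ?_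
    rw [mul_assoc]
    exact mul_le_mul_of_nonneg_left (hC a z hz) (norm_nonneg L)

theorem Sf.neg {f : α → E → F} (hU : ∀ a, IsOpen (U a)) (h : Sf U ρ g k f) :
    Sf U ρ g k fun a z => -f a z :=
  h.clm hU (-ContinuousLinearMap.id ℝ F)

theorem Sf.sub {f f' : α → E → F} (hU : ∀ a, IsOpen (U a)) (h : Sf U ρ g k f)
    (h' : Sf U ρ g k f') : Sf U ρ g k fun a z => f a z - f' a z :=
  (h.add hU (h'.neg hU)).congr hU fun a z _ => sub_eq_add_neg _ _

theorem Sf.csmul {f : α → E → F} (hU : ∀ a, IsOpen (U a)) (h : Sf U ρ g k f) (c : ℝ) :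
    Sf U ρ g k fun a z => c • f a z :=
  h.clm hU (c • ContinuousLinearMap.id ℝ F)

/-- Products. -/
theorem Sf.smul {f : α → E → ℝ} {f' : α → E → F} (hU : ∀ a, IsOpen (U a)) (h : Sf U ρ g₁ k f)
    (h' : Sf U ρ g₂ k f') : Sf U ρ (fun a z => g₁ a z * g₂ a z) k fun a z => f a z • f' a z where
  sm a := (h.sm a).smul (h'.sm a)
  bd j hj := by
    have h1 : ∀ i, ∃ C, i ≤ k → ∀ a, ∀ z ∈ U a,
        ‖iteratedFDeriv ℝ i (f a) z‖ ≤ C * (g₁ a z * (ρ a z)⁻¹ ^ i) := by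
      intro i
      by_cases hi : i ≤ k
      · obtain ⟨C, hC⟩ := h.bd i hi
        exact ⟨C, fun _ => hC⟩
      · exact ⟨0, fun h => absurd h hi⟩
    have h2 : ∀ i, ∃ C, i ≤ k → ∀ a, ∀ z ∈ U a,
        ‖iteratedFDeriv ℝ i (f' a) z‖ ≤ C * (g₂ a z * (ρ a z)⁻¹ ^ i) := by
      intro i
      by_cases hi : i ≤ k
      · obtain ⟨C, hC⟩ := h'.bd i hi
        exact ⟨C, fun _ => hC⟩
      · exact ⟨0, fun h => absurd h hi⟩
    choose C hC using h1
    choose C' hC' using h2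
    refine ⟨∑ i ∈ Finset.range (j + 1), (j.choose i : ℝ) * C i * C' (j - i), fun a z hz => ?_⟩
    have hUa := hU a
    have e1 := iteratedFDerivWithin_of_isOpen (𝕜 := ℝ) (f := fun z => f a z • f' a z) j hUa hz
    have key := norm_iteratedFDerivWithin_smul_le (h.sm a) (h'.sm a) hUa.uniqueDiffOn hz (n := j)
      (by exact_mod_cast le_top)
    rw [e1] at key
    refine key.trans ?_
    rw [Finset.sum_mul]
    refine Finset.sum_le_sum fun i hi => ?_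
    have hi' : i ≤ j := Nat.lt_succ_iff.1 (Finset.mem_range.1 hi)
    rw [iteratedFDerivWithin_of_isOpen i hUa hz, iteratedFDerivWithin_of_isOpen (j - i) hUa hz]
    have a1 := hC i (hi'.trans hj) a z hz
    have a2 := hC' (j - i) ((Nat.sub_le j i).trans hj) a z hz
    have a3 := mul_le_mul a1 a2 (norm_nonneg _) ((norm_nonneg _).trans a1)
    have a4 : (ρ a z)⁻¹ ^ j = (ρ a z)⁻¹ ^ i * (ρ a z)⁻¹ ^ (j - i) := by
      rw [← pow_add, Nat.add_sub_cancel' hi']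
    calc (j.choose i : ℝ) * ‖iteratedFDeriv ℝ i (f a) z‖ * ‖iteratedFDeriv ℝ (j - i) (f' a) z‖
        = (j.choose i : ℝ) * (‖iteratedFDeriv ℝ i (f a) z‖ * ‖iteratedFDeriv ℝ (j - i) (f' a) z‖) := by
          ring
      _ ≤ (j.choose i : ℝ) * ((C i * (g₁ a z * (ρ a z)⁻¹ ^ i)) *
          (C' (j - i) * (g₂ a z * (ρ a z)⁻¹ ^ (j - i)))) :=
          mul_le_mul_of_nonneg_left a3 (Nat.cast_nonneg _)
      _ = (j.choose i : ℝ) * C i * C' (j - i) * (g₁ a z * g₂ a z * (ρ a z)⁻¹ ^ j) := by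
          rw [a4]; ring

theorem Sf.mul {f f' : α → E → ℝ} (hU : ∀ a, IsOpen (U a)) (h : Sf U ρ g₁ k f)
    (h' : Sf U ρ g₂ k f') : Sf U ρ (fun a z => g₁ a z * g₂ a z) k fun a z => f a z * f' a z :=
  h.smul hU h'

/-- Derivatives. -/
theorem Sf.fd {f : α → E → F} (hU : ∀ a, IsOpen (U a)) (h : Sf U ρ g (k + 1) f) :
    Sf U ρ (fun a z => g a z * (ρ a z)⁻¹) k (fun a => fderiv ℝ (f a)) where
  sm a := (h.sm a).fderiv_of_isOpen (hU a) (by norm_num)
  bd j hj := by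
    obtain ⟨C, hC⟩ := h.bd (j + 1) (Nat.succ_le_succ hj)
    refine ⟨C, fun a z hz => ?_⟩
    rw [norm_iteratedFDeriv_fderiv]
    refine (hC a z hz).trans (le_of_eq ?_)
    rw [pow_succ]
    ring

/-- The inverse of `Sf.fd`. -/
theorem Sf.succ {f : α → E → F} (hf : ∀ a, ContDiffOn ℝ ∞ (f a) (U a))
    (h0 : ∃ C, ∀ a, ∀ z ∈ U a, ‖f a z‖ ≤ C * g a z)
    (h : Sf U ρ (fun a z => g a z * (ρ a z)⁻¹) k (fun a => fderiv ℝ (f a))) :
    Sf U ρ g (k + 1) f where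
  sm := hf
  bd j hj := by
    rcases j with _ | j
    · obtain ⟨C, hC⟩ := h0
      exact ⟨C, fun a z hz => by simpa using hC a z hz⟩
    · obtain ⟨C, hC⟩ := h.bd j (Nat.succ_le_succ_iff.1 hj)
      refine ⟨C, fun a z hz => ?_⟩
      rw [← norm_iteratedFDeriv_fderiv]
      refine (hC a z hz).trans (le_of_eq ?_)
      rw [pow_succ]
      ring

/-- Functions with a good logarithmic derivative. -/
theorem Sf.log {f : α → E → ℝ} {ℓ : α → E → E →L[ℝ] ℝ} (hU : ∀ a, IsOpen (U a))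
    (hf : ∀ a, ContDiffOn ℝ ∞ (f a) (U a))
    (he : ∀ a, ∀ z ∈ U a, fderiv ℝ (f a) z = f a z • ℓ a z)
    (hℓ : Sf U ρ (fun a z => (ρ a z)⁻¹) k ℓ) : Sf U ρ (fun a z => |f a z|) (k + 1) f := by
  have h0 : ∀ j ≤ k + 1, Sf U ρ (fun a z => |f a z|) j f := by
    intro j
    induction j with
    | zero =>
      intro _
      refine ⟨hf, fun j hj => ?_⟩
      obtain rfl : j = 0 := Nat.le_zero.1 hj
      exact ⟨1, fun a z hz => by simp⟩
    | succ j ih =>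
      intro hj
      have h1 := ih (Nat.le_of_succ_le hj)
      refine Sf.succ hf ⟨1, fun a z hz => by simp⟩ ?_
      exact (h1.smul hU (hℓ.mono_k (Nat.succ_le_succ_iff.1 hj))).congr hU he
  exact h0 _ le_rfl

/-- Compositions with functions of one variable. -/
theorem Sf.comp1 {f : α → E → ℝ} (hU : ∀ a, IsOpen (U a)) (hg : ∀ a, ∀ z ∈ U a, g a z ≠ 0)
    {I : α → Set ℝ} (hI : ∀ a, IsOpen (I a)) (hfI : ∀ a, ∀ z ∈ U a, f a z ∈ I a) :
    ∀ (k : ℕ) (H : α → ℝ → ℝ) (γ : α → E → ℝ), (∀ a, ContDiffOn ℝ ∞ (H a) (I a)) →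
    (∀ j ≤ k, ∃ C, ∀ a, ∀ z ∈ U a, |iteratedDeriv j (H a) (f a z)| ≤ C * (γ a z * (g a z)⁻¹ ^ j)) →
    Sf U ρ g k f → Sf U ρ γ k fun a z => H a (f a z) := by
  intro k
  induction k with
  | zero =>
    intro H γ hH hb hf
    refine ⟨fun a => (hH a).comp (hf.sm a) (hfI a), fun j hj => ?_⟩
    obtain rfl : j = 0 := Nat.le_zero.1 hj
    obtain ⟨C, hC⟩ := hb 0 le_rfl
    exact ⟨C, fun a z hz => by simpa using hC a z hz⟩
  | succ k ih =>
    intro H γ hH hb hf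
    have hsm : ∀ a, ContDiffOn ℝ ∞ (fun z => H a (f a z)) (U a) := fun a =>
      (hH a).comp (hf.sm a) (hfI a)
    refine Sf.succ hsm ?_ ?_
    · obtain ⟨C, hC⟩ := hb 0 (Nat.zero_le _)
      exact ⟨C, fun a z hz => by simpa using hC a z hz⟩
    · have hH' : ∀ a, ContDiffOn ℝ ∞ (deriv (H a)) (I a) := fun a =>
        (hH a).deriv_of_isOpen (hI a) (by norm_num)
      have h1 : Sf U ρ (fun a z => γ a z * (g a z)⁻¹) k fun a z => deriv (H a) (f a z) := by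
        refine ih (fun a => deriv (H a)) _ hH' (fun j hj => ?_) (hf.mono_k (Nat.le_succ k))
        obtain ⟨C, hC⟩ := hb (j + 1) (Nat.succ_le_succ hj)
        refine ⟨C, fun a z hz => ?_⟩
        rw [← iteratedDeriv_succ']
        refine (hC a z hz).trans (le_of_eq ?_)
        rw [pow_succ]; ring
      have h2 := h1.smul hU (hf.fd hU)
      refine (h2.congr hU fun a z hz => ?_).wcongr fun a z hz => ?_
      · have d1 : DifferentiableAt ℝ (H a) (f a z) :=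
          (((hH a) _ (hfI a z hz)).contDiffAt ((hI a).mem_nhds (hfI a z hz))).differentiableAt
            (by simp)
        have d2 : DifferentiableAt ℝ (f a) z :=
          ((hf.sm a z hz).contDiffAt ((hU a).mem_nhds hz)).differentiableAt (by simp)
        have h3 : HasFDerivAt (fun z => H a (f a z)) (deriv (H a) (f a z) • fderiv ℝ (f a) z) z :=
          d1.hasDerivAt.comp_hasFDerivAt z d2.hasFDerivAt
        exact h3.fderiv
      · have := hg a z hz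
        field_simp

/-- Inverses. -/
theorem Sf.inv {f : α → E → ℝ} (hU : ∀ a, IsOpen (U a)) (hg : ∀ a, ∀ z ∈ U a, 0 < g a z)
    (hf : Sf U ρ g k f) {c : ℝ} (hc : 0 < c) (hl : ∀ a, ∀ z ∈ U a, c * g a z ≤ |f a z|) :
    Sf U ρ (fun a z => (g a z)⁻¹) k fun a z => (f a z)⁻¹ := by
  have hne : ∀ a, ∀ z ∈ U a, f a z ≠ 0 := fun a z hz h0 => by
    have := hl a z hz
    rw [h0, abs_zero] at this
    exact absurd (mul_pos hc (hg a z hz)) (not_lt.2 this)
  have hs : ∀ a, ContDiffOn ℝ ∞ (fun z => (f a z)⁻¹) (U a) := fun a => (hf.sm a).inv (hne a)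
  have h0 : ∃ C, ∀ a, ∀ z ∈ U a, ‖(f a z)⁻¹‖ ≤ C * (g a z)⁻¹ := by
    refine ⟨c⁻¹, fun a z hz => ?_⟩
    rw [norm_inv, Real.norm_eq_abs, ← mul_inv]
    exact inv_anti₀ (mul_pos hc (hg a z hz)) (hl a z hz)
  have h1 : ∀ j ≤ k, Sf U ρ (fun a z => (g a z)⁻¹) j fun a z => (f a z)⁻¹ := by
    intro j
    induction j with
    | zero =>
      intro _
      refine ⟨hs, fun j hj => ?_⟩
      obtain rfl : j = 0 := Nat.le_zero.1 hj
      obtain ⟨C, hC⟩ := h0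
      exact ⟨C, fun a z hz => by simpa using hC a z hz⟩
    | succ j ih =>
      intro hj
      have h2 := ih (Nat.le_of_succ_le hj)
      refine Sf.succ hs h0 ?_
      have h3 := ((h2.mul hU h2).neg hU).smul hU ((hf.mono_k hj).fd hU)
      refine (h3.congr hU fun a z hz => ?_).wcongr fun a z hz => ?_
      · have d2 : DifferentiableAt ℝ (f a) z :=
          ((hf.sm a z hz).contDiffAt ((hU a).mem_nhds hz)).differentiableAt (by simp)
        have h4 : HasFDerivAt (fun z => (f a z)⁻¹) ((-(f a z ^ 2)⁻¹) • fderiv ℝ (f a) z) z :=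
          (hasDerivAt_inv (hne a z hz)).comp_hasFDerivAt z d2.hasFDerivAt
        rw [h4.fderiv, pow_two, mul_inv]
      · have := (hg a z hz).ne'
        field_simp
  exact h1 k le_rfl

/-- Exponentials. -/
theorem Sf.exp {f : α → E → ℝ} (hU : ∀ a, IsOpen (U a)) (hs : ∀ a, ContDiffOn ℝ ∞ (f a) (U a))
    (hf : Sf U ρ (fun a z => (ρ a z)⁻¹) k (fun a => fderiv ℝ (f a))) :
    Sf U ρ (fun a z => Real.exp (f a z)) (k + 1) fun a z => Real.exp (f a z) :=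
  (Sf.log (f := fun a z => Real.exp (f a z)) hU (fun a => (hs a).exp) (fun a z hz => by
    have d2 : DifferentiableAt ℝ (f a) z :=
      ((hs a z hz).contDiffAt ((hU a).mem_nhds hz)).differentiableAt (by simp)
    exact d2.hasFDerivAt.exp.fderiv) hf).wcongr fun a z _ => (abs_of_pos (Real.exp_pos _)).symm

end Vale.Agent.P088.R2.H644.Sy
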